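import Mathlib
import Crest.Prelude.Def_Diamond

/-!
# Row 125 / S0166: graph facts on the countably branching diamonds

Prelude recursion: `D (k+1)` = old vertices `Sum.inl u` + midpoints `Sum.inr (e, i)`; the edge
`(e, i, false)` joins `inl (src e)` to `inr (e, i)` and `(e, i, true)` joins `inr (e, i)` to
`inl (tgt e)`.

* `diamond_adj`: `src e` and `tgt e` are adjacent (so `diamondDist k (src e) (tgt e) = 1`).
* `diamond_connected`.
* `diamondDist_inl_ge`: `2 * dist_k u v ≤ dist_{k+1} (inl u) (inl v)`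
  (the potential `ψ (inl v) = 2 dist_k u₀ v`, `ψ (inr (e,i)) = dist_k u₀ (src e) + dist_k u₀ (tgt e)`
  is `1`-Lipschitz along the edges of `D (k+1)`; a walk of length `n` changes `ψ` by at most `n`).
* `diamondDist_mid_ge`: two distinct midpoints of one edge are at distance `≥ 2`
  (reachable, distinct, not adjacent).

Extra facts exported for `Diamond.lean`: `diamondEdge_nonempty`, `diamondDist_src_tgt`,
`diamondDist_tgt_src`, `diamondGraph_adj_iff`, `diamondGraph_adj_inl_inr`,
`diamondGraph_adj_inr_inl`, `diamondGraph_adj_succ_cases`.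

The proofs are those of helper96's first `Diamond.lean` (commit 5a1c718), restated under the
skeleton's names (helper69, jobs#54).
-/

set_option autoImplicit false

namespace Crest.Agent.S0166

open Crest.AnalysisR

theorem diamond_src_ne_tgt : ∀ (k : ℕ) (e : DiamondEdge k), diamondSrc k e ≠ diamondTgt k e
  | 0, _ => Bool.false_ne_true
  | k + 1, (e, i, b) => by
    cases b
    · exact Sum.inl_ne_inr
    · exact Sum.inr_ne_inl

theorem diamondGraph_adj_iff (k : ℕ) (u v : DiamondVertex k) :
    (diamondGraph k).Adj u v ↔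
      u ≠ v ∧ ((∃ e : DiamondEdge k, diamondSrc k e = u ∧ diamondTgt k e = v) ∨
        (∃ e : DiamondEdge k, diamondSrc k e = v ∧ diamondTgt k e = u)) := by
  rw [diamondGraph, SimpleGraph.fromRel_adj]

theorem diamond_adj (k : ℕ) (e : DiamondEdge k) :
    (diamondGraph k).Adj (diamondSrc k e) (diamondTgt k e) := by
  rw [diamondGraph_adj_iff]
  exact ⟨diamond_src_ne_tgt k e, Or.inl ⟨e, rfl, rfl⟩⟩

theorem diamondGraph_adj_inl_inr (k : ℕ) (e : DiamondEdge k) (i : ℕ) :
    (diamondGraph (k + 1)).Adj (Sum.inl (diamondSrc k e)) (Sum.inr (e, i)) :=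
  diamond_adj (k + 1) (e, i, false)

theorem diamondGraph_adj_inr_inl (k : ℕ) (e : DiamondEdge k) (i : ℕ) :
    (diamondGraph (k + 1)).Adj (Sum.inr (e, i)) (Sum.inl (diamondTgt k e)) :=
  diamond_adj (k + 1) (e, i, true)

/-- Every adjacency of `D (k+1)` joins an old vertex and a middle vertex. -/
theorem diamondGraph_adj_succ_cases (k : ℕ) (a b : DiamondVertex (k + 1))
    (h : (diamondGraph (k + 1)).Adj a b) :
    ∃ (e : DiamondEdge k) (i : ℕ),
      (a = Sum.inl (diamondSrc k e) ∧ b = Sum.inr (e, i)) ∨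
      (a = Sum.inr (e, i) ∧ b = Sum.inl (diamondTgt k e)) ∨
      (b = Sum.inl (diamondSrc k e) ∧ a = Sum.inr (e, i)) ∨
      (b = Sum.inr (e, i) ∧ a = Sum.inl (diamondTgt k e)) := by
  rw [diamondGraph_adj_iff] at h
  obtain ⟨-, ⟨⟨e, i, b'⟩, h1, h2⟩ | ⟨⟨e, i, b'⟩, h1, h2⟩⟩ := h
  · cases b'
    · exact ⟨e, i, Or.inl ⟨h1.symm, h2.symm⟩⟩
    · exact ⟨e, i, Or.inr (Or.inl ⟨h1.symm, h2.symm⟩)⟩
  · cases b'
    · exact ⟨e, i, Or.inr (Or.inr (Or.inl ⟨h1.symm, h2.symm⟩))⟩
    · exact ⟨e, i, Or.inr (Or.inr (Or.inr ⟨h1.symm, h2.symm⟩))⟩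

theorem diamondGraph_reachable_inl (k : ℕ) {u v : DiamondVertex k}
    (h : (diamondGraph k).Reachable u v) :
    (diamondGraph (k + 1)).Reachable (Sum.inl u) (Sum.inl v) := by
  obtain ⟨p⟩ := h
  induction p with
  | nil => exact SimpleGraph.Reachable.refl _
  | cons hadj _ ih =>
    refine SimpleGraph.Reachable.trans ?_ ih
    rw [diamondGraph_adj_iff] at hadj
    obtain ⟨-, ⟨e, h1, h2⟩ | ⟨e, h1, h2⟩⟩ := hadj
    · subst h1 h2
      exact (diamondGraph_adj_inl_inr k e 0).reachable.trans
        (diamondGraph_adj_inr_inl k e 0).reachable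
    · subst h1 h2
      exact (diamondGraph_adj_inr_inl k e 0).symm.reachable.trans
        (diamondGraph_adj_inl_inr k e 0).symm.reachable

theorem diamondEdge_nonempty : ∀ k : ℕ, Nonempty (DiamondEdge k)
  | 0 => ⟨()⟩
  | k + 1 => let ⟨e⟩ := diamondEdge_nonempty k; ⟨(e, 0, false)⟩

theorem diamond_connected : ∀ k : ℕ, (diamondGraph k).Connected
  | 0 => by
    have h : (diamondGraph 0).Adj false true := diamond_adj 0 ()
    have : Nonempty (DiamondVertex 0) := ⟨false⟩
    refine ⟨fun u v => ?_⟩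
    have hu : ∀ u : DiamondVertex 0, (diamondGraph 0).Reachable false u := by
      intro u
      cases u
      · exact SimpleGraph.Reachable.refl _
      · exact h.reachable
    exact (hu u).symm.trans (hu v)
  | k + 1 => by
    have ih := diamond_connected k
    obtain ⟨e0⟩ := diamondEdge_nonempty k
    have : Nonempty (DiamondVertex (k + 1)) := ⟨Sum.inl (diamondSrc k e0)⟩
    refine ⟨fun u v => ?_⟩
    have hu : ∀ u : DiamondVertex (k + 1),
        (diamondGraph (k + 1)).Reachable (Sum.inl (diamondSrc k e0)) u := by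
      intro u
      rcases u with u | ⟨e, i⟩
      · exact diamondGraph_reachable_inl k (ih.preconnected _ _)
      · exact (diamondGraph_reachable_inl k (ih.preconnected _ _)).trans
          (diamondGraph_adj_inl_inr k e i).reachable
    exact (hu u).symm.trans (hu v)

theorem diamondDist_src_tgt (k : ℕ) (e : DiamondEdge k) :
    diamondDist k (diamondSrc k e) (diamondTgt k e) = 1 :=
  SimpleGraph.dist_eq_one_iff_adj.mpr (diamond_adj k e)

theorem diamondDist_tgt_src (k : ℕ) (e : DiamondEdge k) :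
    diamondDist k (diamondTgt k e) (diamondSrc k e) = 1 := by
  rw [diamondDist, SimpleGraph.dist_comm]; exact diamondDist_src_tgt k e

theorem diamondDist_mid_ge (k : ℕ) (e : DiamondEdge k) (i l : ℕ) (hil : i ≠ l) :
    2 ≤ diamondDist (k + 1) (Sum.inr (e, i)) (Sum.inr (e, l)) := by
  have hne : (Sum.inr (e, i) : DiamondVertex (k + 1)) ≠ Sum.inr (e, l) := by
    intro h'
    have := Sum.inr_injective h'
    exact hil (Prod.mk.inj this).2
  have hna : ¬ (diamondGraph (k + 1)).Adj (Sum.inr (e, i)) (Sum.inr (e, l)) := by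
    intro hadj
    obtain ⟨e', j, h1 | h1 | h1 | h1⟩ := diamondGraph_adj_succ_cases k _ _ hadj
    · exact Sum.inr_ne_inl h1.1
    · exact Sum.inr_ne_inl h1.2
    · exact Sum.inr_ne_inl h1.1
    · exact Sum.inr_ne_inl h1.2
  exact (diamond_connected (k + 1)).one_lt_dist_of_ne_of_not_adj hne hna

theorem diamondGraph_abs_sub_le_length {V : Type*} (G : SimpleGraph V) (φ : V → ℤ)
    (hφ : ∀ a b, G.Adj a b → |φ a - φ b| ≤ 1) {a b : V} (p : G.Walk a b) :
    |φ a - φ b| ≤ p.length := by
  induction p with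
  | nil => simp
  | @cons u v w hadj p ih =>
    have h1 := hφ _ _ hadj
    rw [SimpleGraph.Walk.length_cons]
    have : φ u - φ w = (φ u - φ v) + (φ v - φ w) := by ring
    rw [this]
    calc |(φ u - φ v) + (φ v - φ w)| ≤ |φ u - φ v| + |φ v - φ w| := abs_add_le _ _
      _ ≤ 1 + p.length := by linarith
      _ = ((p.length + 1 : ℕ) : ℤ) := by push_cast; ring

theorem diamondGraph_abs_dist_sub_dist_le (k : ℕ) (u : DiamondVertex k) (e : DiamondEdge k) :
    |(diamondDist k u (diamondSrc k e) : ℤ) - (diamondDist k u (diamondTgt k e) : ℤ)| ≤ 1 := by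
  have hc := diamond_connected k
  have h1 : diamondDist k u (diamondTgt k e) ≤
      diamondDist k u (diamondSrc k e) + diamondDist k (diamondSrc k e) (diamondTgt k e) :=
    hc.dist_triangle
  have h2 : diamondDist k u (diamondSrc k e) ≤
      diamondDist k u (diamondTgt k e) + diamondDist k (diamondTgt k e) (diamondSrc k e) :=
    hc.dist_triangle
  rw [diamondDist_src_tgt] at h1
  rw [diamondDist_tgt_src] at h2
  rw [abs_le]
  constructor <;> omega

theorem diamondDist_inl_ge (k : ℕ) (u v : DiamondVertex k) :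
    2 * diamondDist k u v ≤ diamondDist (k + 1) (Sum.inl u) (Sum.inl v) := by
  let φ : DiamondVertex (k + 1) → ℤ :=
    Sum.elim (fun w => 2 * (diamondDist k u w : ℤ))
      (fun p => (diamondDist k u (diamondSrc k p.1) : ℤ) + (diamondDist k u (diamondTgt k p.1) : ℤ))
  have hφ : ∀ a b, (diamondGraph (k + 1)).Adj a b → |φ a - φ b| ≤ 1 := by
    intro a b hadj
    obtain ⟨e, i, h1 | h1 | h1 | h1⟩ := diamondGraph_adj_succ_cases k _ _ hadj
    · obtain ⟨rfl, rfl⟩ := h1
      have := diamondGraph_abs_dist_sub_dist_le k u e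
      simp only [φ, Sum.elim_inl, Sum.elim_inr]
      rw [abs_le] at this ⊢
      constructor <;> linarith [this.1, this.2]
    · obtain ⟨rfl, rfl⟩ := h1
      have := diamondGraph_abs_dist_sub_dist_le k u e
      simp only [φ, Sum.elim_inl, Sum.elim_inr]
      rw [abs_le] at this ⊢
      constructor <;> linarith [this.1, this.2]
    · obtain ⟨rfl, rfl⟩ := h1
      have := diamondGraph_abs_dist_sub_dist_le k u e
      simp only [φ, Sum.elim_inl, Sum.elim_inr]
      rw [abs_le] at this ⊢
      constructor <;> linarith [this.1, this.2]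
    · obtain ⟨rfl, rfl⟩ := h1
      have := diamondGraph_abs_dist_sub_dist_le k u e
      simp only [φ, Sum.elim_inl, Sum.elim_inr]
      rw [abs_le] at this ⊢
      constructor <;> linarith [this.1, this.2]
  obtain ⟨p, hp⟩ :=
    (diamond_connected (k + 1)).exists_walk_length_eq_dist (Sum.inl u) (Sum.inl v)
  have h := diamondGraph_abs_sub_le_length (diamondGraph (k + 1)) φ hφ p
  have h0 : diamondDist k u u = 0 := SimpleGraph.dist_self
  simp only [φ, Sum.elim_inl] at h
  rw [h0] at h
  have h' : (2 * diamondDist k u v : ℤ) ≤ p.length := by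
    have := neg_abs_le ((2 : ℤ) * ((0 : ℕ) : ℤ) - 2 * (diamondDist k u v : ℤ))
    push_cast at this h ⊢
    linarith
  have h'' : 2 * diamondDist k u v ≤ p.length := by exact_mod_cast h'
  exact h''.trans hp.le

end Crest.Agent.S0166
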