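import Crest.Agent.S0166.Tree
import Crest.Agent.S0166.DiamondGraph

/-!
# Row 125 / S0166: diamond graphs and the distortion bound

Graph facts (Prelude recursion: `D (k+1)` = old vertices `Sum.inl u` + midpoints
`Sum.inr (e, i)`; the edge `(e, i, false)` joins `inl (src e)` to `inr (e, i)` and `(e, i, true)`
joins `inr (e, i)` to `inl (tgt e)`):

* `diamond_adj`: `src e` and `tgt e` are adjacent (so `diamondDist k (src e) (tgt e) = 1`).
* `diamond_connected`.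
* `diamondDist_inl_ge`: `2 * dist_k u v ≤ dist_{k+1} (inl u) (inl v)`
  (potential `ψ (inl v) = 2 dist_k u₀ v`, `ψ (inr (e,i)) = dist_k u₀ (src e) + dist_k u₀ (tgt e)` is
  `1`-Lipschitz along edges of `D (k+1)`).
* `diamondDist_mid_ge`: two distinct midpoints of one edge are at distance `≥ 2`
  (reachable, distinct, not adjacent).

Distortion bound, for a normed space with the homogeneous far midpoint inequality
(`diamond_bound`): by induction on `k`, for `f : D k → V`, `s > 0`, `γ` with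
`s * dist u v ≤ ‖f u - f v‖` and `‖f (tgt e) - f (src e)‖² ≤ γ s²` for all edges: `1 + k/4 ≤ γ`.
Step: `f' = f ∘ inl`, `s' = 2s`, `γ' = γ - 1/4`: for an edge `e` of `D k` put
`x = (f (inl (tgt e)) - f (inl (src e))) / 2`, `w i = f (inr (e,i)) - (f (inl (src e)) + f (inl (tgt e))) / 2`;
then `‖x ± w i‖ ≤ √γ s`, `‖w i - w l‖ ≥ 2s`; by `exists_pair_near` there are `i ≠ l` with
`(w i - w l)/2` close to the far subspace `F` of `x`; the far inequality gives
`4‖x‖² + s² ≤ 4 γ s²`, i.e. `‖f'(tgt e) - f'(src e)‖² ≤ (γ - 1/4) (2s)²`.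
-/

set_option autoImplicit false

namespace Crest.Agent.S0166

open Crest.AnalysisR

/-- Elementary limit argument: `K ≤ δ M` for all small `δ > 0` forces `K ≤ 0`. -/
theorem diamond_aux_small (K M s : ℝ) (hs : 0 < s) (hM : 0 < M)
    (h : ∀ δ : ℝ, 0 < δ → δ ≤ s → K ≤ δ * M) : K ≤ 0 := by
  by_contra hK
  rw [not_le] at hK
  have hδ : 0 < min s (K / (2 * M)) := lt_min hs (by positivity)
  have h1 := h (min s (K / (2 * M))) hδ (min_le_left _ _)
  have h2 : min s (K / (2 * M)) * M ≤ K / (2 * M) * M :=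
    mul_le_mul_of_nonneg_right (min_le_right _ _) hM.le
  have h3 : K / (2 * M) * M = K / 2 := by field_simp
  linarith

/-- The vector inequality behind the induction step: if `x ± w i` all have norm `≤ √Γ` and the
`w i` are `2 s`-separated, then `4 ‖x‖² + s² ≤ 4 Γ`. -/
theorem diamond_aux_step {V : Type*} [NormedAddCommGroup V] [NormedSpace ℝ V]
    (hfar : ∀ x : V, ∀ η : ℝ, 0 < η → ∃ F : Submodule ℝ V, IsClosed (F : Set V) ∧
      FiniteDimensional ℝ (V ⧸ F) ∧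
        ∀ y ∈ F, Real.sqrt (4 * ‖x‖ ^ 2 + ‖y‖ ^ 2) - η ≤ ‖x + y‖ + ‖x - y‖)
    (x : V) (w : ℕ → V) (s Γ : ℝ) (hs : 0 < s)
    (hp : ∀ i, ‖x + w i‖ ^ 2 ≤ Γ) (hm : ∀ i, ‖x - w i‖ ^ 2 ≤ Γ)
    (hsep : ∀ i l : ℕ, i ≠ l → 2 * s ≤ ‖w i - w l‖) :
    4 * ‖x‖ ^ 2 + s ^ 2 ≤ 4 * Γ := by
  have hΓ : 0 ≤ Γ := le_trans (sq_nonneg _) (hp 0)
  obtain ⟨c, hc⟩ : ∃ c : ℝ, c = Real.sqrt Γ := ⟨_, rfl⟩
  have hc0 : 0 ≤ c := by rw [hc]; exact Real.sqrt_nonneg _
  have hc2 : c ^ 2 = Γ := by rw [hc]; exact Real.sq_sqrt hΓ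
  have hpc : ∀ i, ‖x + w i‖ ≤ c := fun i => by
    rw [hc]; exact le_trans (le_abs_self _) (Real.abs_le_sqrt (hp i))
  have hmc : ∀ i, ‖x - w i‖ ≤ c := fun i => by
    rw [hc]; exact le_trans (le_abs_self _) (Real.abs_le_sqrt (hm i))
  have hR : ∀ i, ‖w i‖ ≤ c + ‖x‖ := fun i => by
    have h1 : w i = (x + w i) - x := by abel
    calc ‖w i‖ = ‖(x + w i) - x‖ := by rw [← h1]
      _ ≤ ‖x + w i‖ + ‖x‖ := norm_sub_le _ _
      _ ≤ c + ‖x‖ := by linarith [hpc i]
  -- the approximate inequality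
  have key : ∀ δ : ℝ, 0 < δ → δ ≤ s →
      4 * ‖x‖ ^ 2 + (s - δ / 2) ^ 2 ≤ (2 * c + 2 * δ) ^ 2 := by
    intro δ hδ hδs
    obtain ⟨F, hFc, hFd, hF⟩ := hfar x δ hδ
    obtain ⟨i, l, hil, y, hy, hlt⟩ := exists_pair_near w (c + ‖x‖) hR F hFc hFd δ hδ
    have hy' : (1 / 2 : ℝ) • y ∈ F := F.smul_mem _ hy
    have hfar' := hF _ hy'
    obtain ⟨d, hd⟩ : ∃ d : V, d = (1 / 2 : ℝ) • (w i - w l - y) := ⟨_, rfl⟩
    have hdn : ‖d‖ ≤ δ / 2 := by
      rw [hd, norm_smul]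
      have : ‖(1 / 2 : ℝ)‖ = 1 / 2 := by rw [Real.norm_eq_abs]; norm_num [abs_of_pos]
      rw [this]; linarith
    have e1 : x + (1 / 2 : ℝ) • y = (1 / 2 : ℝ) • ((x + w i) + (x - w l)) - d := by
      rw [hd]
      simp only [smul_add, smul_sub]
      have hx : x = (1 / 2 : ℝ) • x + (1 / 2 : ℝ) • x := by
        rw [← add_smul]; norm_num
      nth_rewrite 1 [hx]
      abel
    have e2 : x - (1 / 2 : ℝ) • y = (1 / 2 : ℝ) • ((x - w i) + (x + w l)) + d := by
      rw [hd]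
      simp only [smul_add, smul_sub]
      have hx : x = (1 / 2 : ℝ) • x + (1 / 2 : ℝ) • x := by
        rw [← add_smul]; norm_num
      nth_rewrite 1 [hx]
      abel
    have e3 : (1 / 2 : ℝ) • y = (1 / 2 : ℝ) • (w i - w l) - d := by
      rw [hd]
      simp only [smul_sub]
      abel
    have hhalf : ∀ v : V, ‖(1 / 2 : ℝ) • v‖ = ‖v‖ / 2 := fun v => by
      rw [norm_smul, Real.norm_eq_abs]; norm_num [abs_of_pos]; ring
    have n1 : ‖x + (1 / 2 : ℝ) • y‖ ≤ c + δ / 2 := by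
      rw [e1]
      calc ‖(1 / 2 : ℝ) • ((x + w i) + (x - w l)) - d‖
          ≤ ‖(1 / 2 : ℝ) • ((x + w i) + (x - w l))‖ + ‖d‖ := norm_sub_le _ _
        _ = ‖(x + w i) + (x - w l)‖ / 2 + ‖d‖ := by rw [hhalf]
        _ ≤ (‖x + w i‖ + ‖x - w l‖) / 2 + ‖d‖ := by
            have := norm_add_le (x + w i) (x - w l); linarith
        _ ≤ c + δ / 2 := by linarith [hpc i, hmc l]
    have n2 : ‖x - (1 / 2 : ℝ) • y‖ ≤ c + δ / 2 := by
      rw [e2]
      calc ‖(1 / 2 : ℝ) • ((x - w i) + (x + w l)) + d‖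
          ≤ ‖(1 / 2 : ℝ) • ((x - w i) + (x + w l))‖ + ‖d‖ := norm_add_le _ _
        _ = ‖(x - w i) + (x + w l)‖ / 2 + ‖d‖ := by rw [hhalf]
        _ ≤ (‖x - w i‖ + ‖x + w l‖) / 2 + ‖d‖ := by
            have := norm_add_le (x - w i) (x + w l); linarith
        _ ≤ c + δ / 2 := by linarith [hmc i, hpc l]
    have n3 : s - δ / 2 ≤ ‖(1 / 2 : ℝ) • y‖ := by
      rw [e3]
      have h1 : ‖(1 / 2 : ℝ) • (w i - w l)‖ - ‖d‖ ≤ ‖(1 / 2 : ℝ) • (w i - w l) - d‖ :=
        norm_sub_norm_le _ _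
      rw [hhalf] at h1
      have := hsep i l hil
      linarith
    have hsq : Real.sqrt (4 * ‖x‖ ^ 2 + ‖(1 / 2 : ℝ) • y‖ ^ 2) ≤ 2 * c + 2 * δ := by linarith
    have h4 : 4 * ‖x‖ ^ 2 + ‖(1 / 2 : ℝ) • y‖ ^ 2 ≤ (2 * c + 2 * δ) ^ 2 :=
      (Real.sqrt_le_left (by positivity)).mp hsq
    have h5 : (s - δ / 2) ^ 2 ≤ ‖(1 / 2 : ℝ) • y‖ ^ 2 :=
      pow_le_pow_left₀ (by linarith) n3 2
    linarith
  have hK : 4 * ‖x‖ ^ 2 + s ^ 2 - 4 * c ^ 2 ≤ 0 := by
    apply diamond_aux_small _ (5 * s + 8 * c + 1) s hs (by positivity)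
    intro δ hδ hδs
    have := key δ hδ hδs
    nlinarith [mul_nonneg hδ.le hc0, mul_nonneg hδ.le hs.le, mul_nonneg hδ.le hδ.le,
      mul_le_mul_of_nonneg_left hδs hδ.le]
  rw [hc2] at hK
  linarith

/-- The statement proved by induction on `k`. -/
theorem diamond_aux_ind {V : Type*} [NormedAddCommGroup V] [NormedSpace ℝ V]
    (hfar : ∀ x : V, ∀ η : ℝ, 0 < η → ∃ F : Submodule ℝ V, IsClosed (F : Set V) ∧
      FiniteDimensional ℝ (V ⧸ F) ∧
        ∀ y ∈ F, Real.sqrt (4 * ‖x‖ ^ 2 + ‖y‖ ^ 2) - η ≤ ‖x + y‖ + ‖x - y‖) :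
    ∀ (k : ℕ) (f : DiamondVertex k → V) (s γ : ℝ), 0 < s →
      (∀ u v : DiamondVertex k, s * (diamondDist k u v : ℝ) ≤ ‖f u - f v‖) →
      (∀ e : DiamondEdge k, ‖f (diamondTgt k e) - f (diamondSrc k e)‖ ^ 2 ≤ γ * s ^ 2) →
      1 + (k : ℝ) / 4 ≤ γ := by
  intro k
  induction k with
  | zero =>
    intro f s γ hs hlow hedge
    have hd : diamondDist 0 (diamondTgt 0 ()) (diamondSrc 0 ()) = 1 := by
      unfold diamondDist
      rw [SimpleGraph.dist_comm]
      exact SimpleGraph.dist_eq_one_iff_adj.mpr (diamond_adj 0 ())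
    have h1 := hlow (diamondTgt 0 ()) (diamondSrc 0 ())
    rw [hd] at h1
    have h2 := hedge ()
    have h3 : s ^ 2 ≤ ‖f (diamondTgt 0 ()) - f (diamondSrc 0 ())‖ ^ 2 :=
      pow_le_pow_left₀ hs.le (by simpa using h1) 2
    have h4 : s ^ 2 * 1 ≤ s ^ 2 * γ := by linarith
    have h5 : (1 : ℝ) ≤ γ := le_of_mul_le_mul_left h4 (by positivity)
    simpa using h5
  | succ k ih =>
    intro f s γ hs hlow hedge
    have hfin : 1 + (k : ℝ) / 4 ≤ γ - 1 / 4 := by
      apply ih (fun u => f (Sum.inl u)) (2 * s) (γ - 1 / 4) (by positivity)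
      · intro u v
        have h1 := hlow (Sum.inl u) (Sum.inl v)
        have h2 : (2 * diamondDist k u v : ℝ) ≤ (diamondDist (k + 1) (Sum.inl u) (Sum.inl v) : ℝ) := by
          exact_mod_cast diamondDist_inl_ge k u v
        have h3 : s * (2 * diamondDist k u v : ℝ)
            ≤ s * (diamondDist (k + 1) (Sum.inl u) (Sum.inl v) : ℝ) :=
          mul_le_mul_of_nonneg_left h2 hs.le
        calc 2 * s * (diamondDist k u v : ℝ) = s * (2 * diamondDist k u v : ℝ) := by ring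
          _ ≤ s * (diamondDist (k + 1) (Sum.inl u) (Sum.inl v) : ℝ) := h3
          _ ≤ ‖f (Sum.inl u) - f (Sum.inl v)‖ := h1
      · intro e
        obtain ⟨a, ha⟩ : ∃ a : V, a = f (Sum.inl (diamondSrc k e)) := ⟨_, rfl⟩
        obtain ⟨b, hb⟩ : ∃ b : V, b = f (Sum.inl (diamondTgt k e)) := ⟨_, rfl⟩
        rw [← ha, ← hb]
        -- x and w
        have hstep := diamond_aux_step hfar ((1 / 2 : ℝ) • (b - a))
          (fun i => f (Sum.inr (e, i)) - (1 / 2 : ℝ) • (a + b)) s (γ * s ^ 2) hs ?_ ?_ ?_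
        · have hx : ‖(1 / 2 : ℝ) • (b - a)‖ = ‖b - a‖ / 2 := by
            rw [norm_smul, Real.norm_eq_abs]; norm_num [abs_of_pos]; ring
          rw [hx] at hstep
          nlinarith
        · intro i
          have h1 := hedge (e, i, false)
          have h2 : (1 / 2 : ℝ) • (b - a) + (f (Sum.inr (e, i)) - (1 / 2 : ℝ) • (a + b))
              = f (Sum.inr (e, i)) - a := by
            simp only [smul_add, smul_sub]
            have hx : a = (1 / 2 : ℝ) • a + (1 / 2 : ℝ) • a := by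
              rw [← add_smul]; norm_num
            nth_rewrite 3 [hx]
            abel
          rw [h2, ha]
          exact h1
        · intro i
          have h1 := hedge (e, i, true)
          have h2 : (1 / 2 : ℝ) • (b - a) - (f (Sum.inr (e, i)) - (1 / 2 : ℝ) • (a + b))
              = b - f (Sum.inr (e, i)) := by
            simp only [smul_add, smul_sub]
            have hx : b = (1 / 2 : ℝ) • b + (1 / 2 : ℝ) • b := by
              rw [← add_smul]; norm_num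
            nth_rewrite 3 [hx]
            abel
          rw [h2, hb]
          exact h1
        · intro i l hil
          have h1 := hlow (Sum.inr (e, i)) (Sum.inr (e, l))
          have h2 : (2 : ℝ) ≤ (diamondDist (k + 1) (Sum.inr (e, i)) (Sum.inr (e, l)) : ℝ) := by
            exact_mod_cast diamondDist_mid_ge k e i l hil
          have h3 : f (Sum.inr (e, i)) - (1 / 2 : ℝ) • (a + b)
              - (f (Sum.inr (e, l)) - (1 / 2 : ℝ) • (a + b))
              = f (Sum.inr (e, i)) - f (Sum.inr (e, l)) := by abel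
          rw [h3]
          calc 2 * s = s * 2 := by ring
            _ ≤ s * (diamondDist (k + 1) (Sum.inr (e, i)) (Sum.inr (e, l)) : ℝ) :=
                mul_le_mul_of_nonneg_left h2 hs.le
            _ ≤ _ := h1
    push_cast
    linarith

/-- The distortion bound for any normed space satisfying the homogeneous far midpoint
inequality. -/
theorem diamond_bound {V : Type*} [NormedAddCommGroup V] [NormedSpace ℝ V]
    (hfar : ∀ x : V, ∀ η : ℝ, 0 < η → ∃ F : Submodule ℝ V, IsClosed (F : Set V) ∧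
      FiniteDimensional ℝ (V ⧸ F) ∧
        ∀ y ∈ F, Real.sqrt (4 * ‖x‖ ^ 2 + ‖y‖ ^ 2) - η ≤ ‖x + y‖ + ‖x - y‖)
    (k : ℕ) (f : DiamondVertex k → V) (D : ℝ)
    (h : ∃ s : ℝ, 0 < s ∧ ∀ u v : DiamondVertex k,
      s * (diamondDist k u v : ℝ) ≤ ‖f u - f v‖ ∧ ‖f u - f v‖ ≤ D * s * (diamondDist k u v : ℝ)) :
    1 + (k : ℝ) / 4 ≤ D ^ 2 := by
  obtain ⟨s, hs, hf⟩ := h
  apply diamond_aux_ind hfar k f s (D ^ 2) hs (fun u v => (hf u v).1)
  intro e
  have hd : diamondDist k (diamondTgt k e) (diamondSrc k e) = 1 := by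
    unfold diamondDist
    rw [SimpleGraph.dist_comm]
    exact SimpleGraph.dist_eq_one_iff_adj.mpr (diamond_adj k e)
  have h1 := (hf (diamondTgt k e) (diamondSrc k e)).2
  rw [hd] at h1
  have h2 : ‖f (diamondTgt k e) - f (diamondSrc k e)‖ ≤ D * s := by simpa using h1
  calc ‖f (diamondTgt k e) - f (diamondSrc k e)‖ ^ 2 ≤ (D * s) ^ 2 :=
        pow_le_pow_left₀ (norm_nonneg _) h2 2
    _ = D ^ 2 * s ^ 2 := by ring

end Crest.Agent.S0166
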