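import Crest.Agent.S0166.Summand
import Crest.Agent.S0168.Far

/-!
# Row 125 / S0166: the space `ESp = lp (fun n => Gsub n) 2`

* `far_ESp`: the homogeneous midpoint inequality. Generic steps: `SpaceFar` (the far inequality
  as a property of a normed space) passes to subspaces (`space_far_submodule`) and to
  `ℓ²`-sums (`space_far_lp2`): for `x` and `η` choose a finite set `s` of indices with
  `∑_{i ∉ s} ‖x i‖² ≤ (η/4)²`, apply the far inequality of the summand to `x i` (`i ∈ s`) with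
  `η' = η/(2(|s|+1))`, let `W` be the set of `y` with `y i ∈ F i` for `i ∈ s` (closed, finite
  codimension: `space_cof_pi`). Then for every `i`:
  `√(4‖x i‖² + ‖y i‖²) ≤ ‖x i + y i‖ + ‖x i - y i‖ + e i` with `e i = η'` for `i ∈ s` and
  `e i = 2‖x i‖` otherwise; conclude with Minkowski in `ℓ²` (finite sums, then a limit).
* `no_auc_ESp`: tree lemma with nodes `lp.single 2 n (branchSum v)`, `v ≠ []`,
  `v.length + j ≤ n`.
* `separable_ESp`: a countable `ℓ²`-sum of separable spaces is separable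
  (`space_separable_lp2`).
-/

set_option autoImplicit false

namespace Crest.Agent.S0166

open Crest.AnalysisR Crest.AnalysisR.TreePotential Crest.Agent.S0168 NormedSpace

/-- The homogeneous "far" midpoint inequality of a normed space. -/
def SpaceFar (V : Type*) [NormedAddCommGroup V] [NormedSpace ℝ V] : Prop :=
  ∀ x : V, ∀ η : ℝ, 0 < η → ∃ F : Submodule ℝ V, IsClosed (F : Set V) ∧
    FiniteDimensional ℝ (V ⧸ F) ∧
      ∀ y ∈ F, Real.sqrt (4 * ‖x‖ ^ 2 + ‖y‖ ^ 2) - η ≤ ‖x + y‖ + ‖x - y‖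

/-- The far inequality passes to subspaces. -/
theorem space_far_submodule {V : Type*} [NormedAddCommGroup V] [NormedSpace ℝ V]
    (S : Submodule ℝ V) (h : SpaceFar V) : SpaceFar S := by
  intro x η hη
  obtain ⟨F, hFc, hFfd, hF⟩ := h (x : V) η hη
  refine ⟨F.comap S.subtype, ?_, ?_, ?_⟩
  · have : ((F.comap S.subtype : Submodule ℝ S) : Set S) =
        (fun y : S => (y : V)) ⁻¹' (F : Set V) := rfl
    rw [this]
    exact hFc.preimage continuous_subtype_val
  · have hker : LinearMap.ker (F.mkQ.comp S.subtype) = F.comap S.subtype := by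
      ext y
      simp
    rw [← hker]
    exact LinearEquiv.finiteDimensional (LinearMap.quotKerEquivRange (F.mkQ.comp S.subtype)).symm
  · intro y hy
    exact hF (y : V) hy

/-- Finite Minkowski inequality for square roots of sums of squares. -/
theorem space_sqrt_sum_add_le {ι : Type*} (u : Finset ι) (f g : ι → ℝ) :
    Real.sqrt (∑ i ∈ u, (f i + g i) ^ 2) ≤
      Real.sqrt (∑ i ∈ u, f i ^ 2) + Real.sqrt (∑ i ∈ u, g i ^ 2) := by
  have hA : 0 ≤ ∑ i ∈ u, f i ^ 2 := Finset.sum_nonneg fun i _ => sq_nonneg _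
  have hB : 0 ≤ ∑ i ∈ u, g i ^ 2 := Finset.sum_nonneg fun i _ => sq_nonneg _
  have hCS := Real.sum_mul_le_sqrt_mul_sqrt u f g
  apply Real.sqrt_le_iff.mpr
  refine ⟨add_nonneg (Real.sqrt_nonneg _) (Real.sqrt_nonneg _), ?_⟩
  have hexp : ∑ i ∈ u, (f i + g i) ^ 2 =
      ∑ i ∈ u, f i ^ 2 + 2 * ∑ i ∈ u, f i * g i + ∑ i ∈ u, g i ^ 2 := by
    rw [Finset.mul_sum, ← Finset.sum_add_distrib, ← Finset.sum_add_distrib]
    apply Finset.sum_congr rfl
    intro i _
    ring
  rw [hexp, add_sq, Real.sq_sqrt hA, Real.sq_sqrt hB]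
  linarith

/-- Monotone three-term version. -/
theorem space_sqrt_sum_le_three {ι : Type*} (u : Finset ι) (a b c e : ι → ℝ)
    (hc : ∀ i, 0 ≤ c i) (h : ∀ i, c i ≤ a i + b i + e i) :
    Real.sqrt (∑ i ∈ u, c i ^ 2) ≤
      Real.sqrt (∑ i ∈ u, a i ^ 2) + Real.sqrt (∑ i ∈ u, b i ^ 2) +
        Real.sqrt (∑ i ∈ u, e i ^ 2) := by
  calc Real.sqrt (∑ i ∈ u, c i ^ 2)
      ≤ Real.sqrt (∑ i ∈ u, ((a i + b i) + e i) ^ 2) := by
        apply Real.sqrt_le_sqrt
        apply Finset.sum_le_sum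
        intro i _
        exact pow_le_pow_left₀ (hc i) (h i) 2
    _ ≤ Real.sqrt (∑ i ∈ u, (a i + b i) ^ 2) + Real.sqrt (∑ i ∈ u, e i ^ 2) :=
        space_sqrt_sum_add_le u (fun i => a i + b i) e
    _ ≤ Real.sqrt (∑ i ∈ u, a i ^ 2) + Real.sqrt (∑ i ∈ u, b i ^ 2) +
        Real.sqrt (∑ i ∈ u, e i ^ 2) := by
        have := space_sqrt_sum_add_le u a b
        linarith

section lp2

variable {ι : Type*} (G : ι → Type*) [∀ i, NormedAddCommGroup (G i)] [∀ i, NormedSpace ℝ (G i)]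

omit [∀ i, NormedSpace ℝ (G i)] in
theorem space_sum_sq_le (y : lp G 2) (s : Finset ι) : ∑ i ∈ s, ‖y i‖ ^ 2 ≤ ‖y‖ ^ 2 := by
  have h := lp.sum_rpow_le_norm_rpow (p := 2) (by simp) y s
  simpa [Real.rpow_two] using h

omit [∀ i, NormedSpace ℝ (G i)] in
theorem space_hasSum_sq (y : lp G 2) : HasSum (fun i => ‖y i‖ ^ 2) (‖y‖ ^ 2) := by
  have h := lp.hasSum_norm (p := 2) (by simp) y
  simpa [Real.rpow_two] using h

/-- Elements of the `ℓ²`-sum whose coordinates in a finite set `s` lie in closed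
finite-codimensional subspaces form a closed finite-codimensional subspace. -/
theorem space_cof_pi (s : Finset ι) (F : ∀ i, Submodule ℝ (G i))
    (hc : ∀ i ∈ s, IsClosed (F i : Set (G i)))
    (hfd : ∀ i ∈ s, FiniteDimensional ℝ (G i ⧸ F i)) :
    ∃ W : Submodule ℝ (lp G 2), IsClosed (W : Set (lp G 2)) ∧
      FiniteDimensional ℝ (lp G 2 ⧸ W) ∧ ∀ y : lp G 2, y ∈ W ↔ ∀ i ∈ s, y i ∈ F i := by
  classical
  have hfd' : ∀ i : s, FiniteDimensional ℝ (G i ⧸ F i) := fun i => hfd i i.2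
  have hev : ∀ (i : ι) (y : lp G 2), lp.evalCLM ℝ G 2 i y = y i := fun _ _ => rfl
  let Φ : lp G 2 →ₗ[ℝ] (∀ i : s, G i ⧸ F i) :=
    LinearMap.pi (fun i : s => (F i).mkQ.comp (lp.evalCLM ℝ G 2 (i : ι)).toLinearMap)
  have hmem : ∀ y : lp G 2, y ∈ LinearMap.ker Φ ↔ ∀ i ∈ s, y i ∈ F i := by
    intro y
    rw [LinearMap.mem_ker]
    constructor
    · intro h i hi
      have := congrFun h ⟨i, hi⟩
      simpa [Φ, hev] using this
    · intro h
      funext i
      have := h i i.2
      simpa [Φ, hev] using this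
  refine ⟨LinearMap.ker Φ, ?_, ?_, hmem⟩
  · have hset : ((LinearMap.ker Φ : Submodule ℝ (lp G 2)) : Set (lp G 2)) =
        ⋂ i ∈ s, (fun y : lp G 2 => y i) ⁻¹' (F i : Set (G i)) := by
      ext y
      simp only [SetLike.mem_coe, hmem, Set.mem_iInter, Set.mem_preimage]
    rw [hset]
    apply isClosed_biInter
    intro i hi
    exact (hc i hi).preimage (lp.evalCLM ℝ G 2 i).continuous
  · exact LinearEquiv.finiteDimensional (LinearMap.quotKerEquivRange Φ).symm

end lp2

section lp2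

variable {ι : Type*} (G : ι → Type*) [∀ i, NormedAddCommGroup (G i)] [∀ i, NormedSpace ℝ (G i)]

/-- The `ℓ²`-sum of spaces with the far inequality has the far inequality. -/
theorem space_far_lp2 (h : ∀ i, SpaceFar (G i)) : SpaceFar (lp G 2) := by
  classical
  intro x η hη
  have hsx := space_hasSum_sq G x
  have hδ : ‖x‖ ^ 2 - (η / 4) ^ 2 < ‖x‖ ^ 2 := by nlinarith
  have htend : Filter.Tendsto (fun s : Finset ι => ∑ i ∈ s, ‖x i‖ ^ 2) Filter.atTop
      (nhds (‖x‖ ^ 2)) := hsx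
  obtain ⟨s, hs⟩ := (htend.eventually (lt_mem_nhds hδ)).exists
  have htail : ∀ u : Finset ι, ∑ i ∈ u \ s, ‖x i‖ ^ 2 ≤ (η / 4) ^ 2 := by
    intro u
    have h1 : ∑ i ∈ u \ s, ‖x i‖ ^ 2 + ∑ i ∈ s, ‖x i‖ ^ 2 ≤ ‖x‖ ^ 2 := by
      rw [← Finset.sum_union Finset.sdiff_disjoint]
      exact sum_le_hasSum _ (fun i _ => sq_nonneg _) hsx
    linarith
  set n : ℝ := (s.card : ℝ) with hn
  have hn0 : 0 ≤ n := Nat.cast_nonneg _
  set η' : ℝ := η / (2 * (n + 1)) with hη'
  have hη'pos : 0 < η' := by positivity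
  have hη'n : η' * (n + 1) = η / 2 := by rw [hη']; field_simp
  choose F hFc hFfd hF using fun i => h i (x i) η' hη'pos
  obtain ⟨W, hWc, hWfd, hW⟩ := space_cof_pi G s F (fun i _ => hFc i) (fun i _ => hFfd i)
  refine ⟨W, hWc, hWfd, ?_⟩
  intro y hy
  have hyF := (hW y).1 hy
  set a : ι → ℝ := fun i => ‖x i + y i‖ with ha
  set b : ι → ℝ := fun i => ‖x i - y i‖ with hb
  set c : ι → ℝ := fun i => Real.sqrt (4 * ‖x i‖ ^ 2 + ‖y i‖ ^ 2) with hc
  set e : ι → ℝ := fun i => if i ∈ s then η' else 2 * ‖x i‖ with he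
  have hc0 : ∀ i, 0 ≤ c i := fun i => Real.sqrt_nonneg _
  have hpt : ∀ i, c i ≤ a i + b i + e i := by
    intro i
    by_cases hi : i ∈ s
    · have := hF i (y i) (hyF i hi)
      simp only [ha, hb, hc, he, if_pos hi]
      linarith
    · simp only [ha, hb, hc, he, if_neg hi]
      have h1 : Real.sqrt (4 * ‖x i‖ ^ 2 + ‖y i‖ ^ 2) ≤ 2 * ‖x i‖ + ‖y i‖ := by
        apply Real.sqrt_le_iff.mpr
        refine ⟨by positivity, ?_⟩
        nlinarith [norm_nonneg (x i), norm_nonneg (y i)]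
      have h2 : 2 * ‖y i‖ ≤ ‖x i + y i‖ + ‖x i - y i‖ := by
        have h3 : (x i + y i) - (x i - y i) = (2 : ℝ) • y i := by
          rw [two_smul]; abel
        have h4 := norm_sub_le (x i + y i) (x i - y i)
        rw [h3, norm_smul] at h4
        simpa using h4
      linarith [norm_nonneg (y i)]
  have hfin : ∀ u : Finset ι, Real.sqrt (∑ i ∈ u, c i ^ 2) ≤ ‖x + y‖ + ‖x - y‖ + η := by
    intro u
    have h1 := space_sqrt_sum_le_three u a b c e hc0 hpt
    have h2 : Real.sqrt (∑ i ∈ u, a i ^ 2) ≤ ‖x + y‖ :=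
      Real.sqrt_le_iff.mpr ⟨norm_nonneg _, space_sum_sq_le G (x + y) u⟩
    have h3 : Real.sqrt (∑ i ∈ u, b i ^ 2) ≤ ‖x - y‖ :=
      Real.sqrt_le_iff.mpr ⟨norm_nonneg _, space_sum_sq_le G (x - y) u⟩
    have h4 : Real.sqrt (∑ i ∈ u, e i ^ 2) ≤ η := by
      apply Real.sqrt_le_iff.mpr
      refine ⟨hη.le, ?_⟩
      rw [← Finset.sum_inter_add_sum_sdiff u s]
      have h5 : ∑ i ∈ u ∩ s, e i ^ 2 ≤ n * η' ^ 2 := by
        calc ∑ i ∈ u ∩ s, e i ^ 2 = ∑ i ∈ u ∩ s, η' ^ 2 := by
              apply Finset.sum_congr rfl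
              intro i hi
              simp only [he, if_pos (Finset.mem_inter.mp hi).2]
          _ = ((u ∩ s).card : ℝ) * η' ^ 2 := by rw [Finset.sum_const, nsmul_eq_mul]
          _ ≤ n * η' ^ 2 := by
              apply mul_le_mul_of_nonneg_right _ (sq_nonneg _)
              rw [hn]
              exact_mod_cast Finset.card_le_card Finset.inter_subset_right
      have h6 : ∑ i ∈ u \ s, e i ^ 2 ≤ 4 * (η / 4) ^ 2 := by
        calc ∑ i ∈ u \ s, e i ^ 2 = ∑ i ∈ u \ s, 4 * ‖x i‖ ^ 2 := by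
              apply Finset.sum_congr rfl
              intro i hi
              simp only [he, if_neg (Finset.mem_sdiff.mp hi).2]
              ring
          _ = 4 * ∑ i ∈ u \ s, ‖x i‖ ^ 2 := by rw [Finset.mul_sum]
          _ ≤ 4 * (η / 4) ^ 2 := by
              have := htail u
              linarith
      have h7 : n * η' ^ 2 ≤ (η / 2) ^ 2 := by
        rw [← hη'n]
        nlinarith [mul_nonneg (sq_nonneg η') (by positivity : (0 : ℝ) ≤ n ^ 2 + n + 1)]
      have h8 : (η / 2) ^ 2 + 4 * (η / 4) ^ 2 ≤ η ^ 2 := by nlinarith [sq_nonneg η]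
      linarith
    linarith
  have hlim : Filter.Tendsto (fun u : Finset ι => Real.sqrt (∑ i ∈ u, c i ^ 2)) Filter.atTop
      (nhds (Real.sqrt (4 * ‖x‖ ^ 2 + ‖y‖ ^ 2))) := by
    have hsy := space_hasSum_sq G y
    have hsum : HasSum (fun i => 4 * ‖x i‖ ^ 2 + ‖y i‖ ^ 2) (4 * ‖x‖ ^ 2 + ‖y‖ ^ 2) :=
      (hsx.mul_left 4).add hsy
    have hcsq : ∀ i, c i ^ 2 = 4 * ‖x i‖ ^ 2 + ‖y i‖ ^ 2 := fun i =>
      Real.sq_sqrt (by positivity)
    simp only [hcsq]
    exact (Real.continuous_sqrt.tendsto _).comp hsum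
  have := le_of_tendsto' hlim hfin
  linarith

end lp2

section lp2

variable {ι : Type*} (G : ι → Type*) [∀ i, NormedAddCommGroup (G i)] [∀ i, NormedSpace ℝ (G i)]

/-- A countable `ℓ²`-sum of separable spaces is separable. -/
theorem space_separable_lp2 [Countable ι] [∀ i, TopologicalSpace.SeparableSpace (G i)] :
    TopologicalSpace.SeparableSpace (lp G 2) := by
  classical
  rw [← TopologicalSpace.isSeparable_univ_iff]
  have h1 : ∀ i, TopologicalSpace.IsSeparable (Set.range (lp.single (E := G) 2 i)) := fun i =>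
    TopologicalSpace.isSeparable_range (lp.isometry_single i).continuous
  have h2 : TopologicalSpace.IsSeparable (⋃ i, Set.range (lp.single (E := G) 2 i)) :=
    TopologicalSpace.IsSeparable.iUnion h1
  have h3 := (h2.span (R := ℝ)).closure
  apply h3.mono
  intro y _
  have hs := lp.hasSum_single (p := 2) (by simp) y
  apply mem_closure_of_tendsto hs
  apply Filter.Eventually.of_forall
  intro s
  exact Submodule.sum_mem _ (fun i _ =>
    Submodule.subset_span (Set.mem_iUnion.mpr ⟨i, ⟨y i, rfl⟩⟩))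

end lp2

/-- The underlying type of the space used for S0166: the `ℓ²`-sum of the `Gsub n`. -/
abbrev ESp : Type := lp (fun n : ℕ => Gsub n) 2

theorem far_ESp (x : ESp) (η : ℝ) (hη : 0 < η) :
    ∃ F : Submodule ℝ ESp, IsClosed (F : Set ESp) ∧ FiniteDimensional ℝ (ESp ⧸ F) ∧
      ∀ y ∈ F, Real.sqrt (4 * ‖x‖ ^ 2 + ‖y‖ ^ 2) - η ≤ ‖x + y‖ + ‖x - y‖ := by
  have hG : ∀ n : ℕ, SpaceFar (Gsub n) := fun n =>
    space_far_submodule (Gsub n) (fun x η hη => far_model_cof x η hη)
  have h : SpaceFar ESp := space_far_lp2 (fun n : ℕ => Gsub n) hG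
  exact h x η hη

/-- The branch sum of `v` placed in the `n`-th summand. -/
noncomputable def spaceNode (n : ℕ) (v : List ℕ) (h : v.length ≤ n) : ESp :=
  lp.single 2 n (⟨branchSum PotentialModel.global v, branchSum_mem_Gsub n v h⟩ : Gsub n)

/-- The coordinate element of `s` placed in the `n`-th summand. -/
noncomputable def spaceCoord (n : ℕ) (s : List ℕ) (h : s.length ≤ n) : ESp :=
  lp.single 2 n (⟨coordE PotentialModel.global s, coordE_mem_Gsub n s h⟩ : Gsub n)

theorem space_norm_node (n : ℕ) (v : List ℕ) (h : v.length ≤ n) :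
    ‖spaceNode n v h‖ = ‖branchSum PotentialModel.global v‖ := by
  unfold spaceNode
  rw [lp.norm_single (by norm_num)]
  rfl

theorem space_norm_coord (n : ℕ) (s : List ℕ) (h : s.length ≤ n) :
    ‖spaceCoord n s h‖ = ‖coordE PotentialModel.global s‖ := by
  unfold spaceCoord
  rw [lp.norm_single (by norm_num)]
  rfl

theorem space_node_cons_sub (n : ℕ) (k : ℕ) (v : List ℕ) (h : (k :: v).length ≤ n)
    (h' : v.length ≤ n) :
    spaceNode n (k :: v) h - spaceNode n v h' = spaceCoord n (k :: v) h := by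
  unfold spaceNode spaceCoord
  rw [← lp.single_sub]
  congr 1
  apply Subtype.ext
  show branchSum PotentialModel.global (k :: v) - branchSum PotentialModel.global v =
    coordE PotentialModel.global (k :: v)
  simp [branchSum]

theorem space_norm_sum_coord_le (n : ℕ) (v : List ℕ) (h : v.length + 1 ≤ n) (B : Finset ℕ) :
    ‖∑ k ∈ B, spaceCoord n (k :: v) (by simpa using h)‖ ≤ 1 * Real.sqrt B.card := by
  have h1 : ∑ k ∈ B, spaceCoord n (k :: v) (by simpa using h) =
      lp.single 2 n (∑ k ∈ B,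
        (⟨coordE PotentialModel.global (k :: v),
          coordE_mem_Gsub n (k :: v) (by simpa using h)⟩ : Gsub n)) := by
    have := map_sum (lp.singleContinuousLinearMap ℝ (fun n : ℕ => Gsub n) 2 n)
      (fun k => (⟨coordE PotentialModel.global (k :: v),
          coordE_mem_Gsub n (k :: v) (by simpa using h)⟩ : Gsub n)) B
    simp only [lp.singleContinuousLinearMap_apply] at this
    rw [this]
    rfl
  rw [h1, lp.norm_single (by norm_num), one_mul]
  have h2 : ‖∑ k ∈ B, (⟨coordE PotentialModel.global (k :: v),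
          coordE_mem_Gsub n (k :: v) (by simpa using h)⟩ : Gsub n)‖ =
      ‖∑ k ∈ B, coordE PotentialModel.global (k :: v)‖ := by
    rw [Submodule.coe_norm, Submodule.coe_sum]
  rw [h2]
  exact norm_sum_children_le v B

theorem no_auc_ESp (N : ESp → ℝ) (hN : EquivNorm N) : ¬ AUCNorm N := by
  refine no_auc_of_tree
    (fun z j => ∃ (n : ℕ) (v : List ℕ) (h : v.length + j ≤ n), v ≠ [] ∧
      z = spaceNode n v (le_trans (Nat.le_add_right _ _) h)) 1 1 1
    one_pos one_pos ?_ ?_ ?_ N hN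
  · intro m
    exact ⟨spaceNode (m + 1) [0] (by simp), m + 1, [0], by simp; omega, by simp, rfl⟩
  · rintro z j ⟨n, v, h, hv, rfl⟩
    rw [space_norm_node]
    exact ⟨norm_branchSum_ge v hv, norm_branchSum_le v⟩
  · rintro z j ⟨n, v, h, hv, rfl⟩ F hF hfd ε hε
    have hlen : v.length + 1 ≤ n := by omega
    obtain ⟨n₀, hn₀⟩ := exists_near_of_sqrt_bound
      (fun k => spaceCoord n (k :: v) (by simpa using hlen)) 1
      (fun B => space_norm_sum_coord_le n v hlen B) F hF hfd ε hε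
    obtain ⟨y, hyF, hy⟩ := hn₀ n₀ le_rfl
    have hlen' : (n₀ :: v).length + j ≤ n := by simp; omega
    refine ⟨spaceNode n (n₀ :: v) (by simpa using hlen), y,
      ⟨n, n₀ :: v, hlen', by simp, rfl⟩, hyF, ?_, ?_⟩
    · rw [space_node_cons_sub, space_norm_coord]
      exact norm_coordE_ge _ (by simp)
    · rw [space_node_cons_sub]
      exact hy

theorem separable_ESp : TopologicalSpace.SeparableSpace ESp := by
  have : ∀ n : ℕ, TopologicalSpace.SeparableSpace (Gsub n) := separable_Gsub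
  exact space_separable_lp2 (fun n : ℕ => Gsub n)

theorem reflexive_ESp : Function.Surjective (inclusionInDoubleDual ℝ ESp) :=
  reflexive_lp_two (fun n : ℕ => Gsub n) Gsub_reflexive

end Crest.Agent.S0166
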