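import Mathlib
import Crest.Prelude.Def_AsymptoticConvexity

/-!
# Row 125 (S0166–S0169): generic notions

Generic (typeclass based) versions of the Prelude notions `RealBanach.IsCof`, `IsEquivNorm`,
`IsAUC`, `MidpointModulusGE`, … for an arbitrary real normed space `V`, and the `Iff.rfl`
bridges to the Prelude record versions.
-/

set_option autoImplicit false

namespace Crest.Agent.S0166

open Crest.AnalysisR

section generic

variable {V : Type*} [NormedAddCommGroup V] [NormedSpace ℝ V]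

/-- Generic version of `RealBanach.IsCof`. -/
def CofSet (F : Set V) : Prop :=
  ∃ S : Submodule ℝ V, (S : Set V) = F ∧ IsClosed F ∧ FiniteDimensional ℝ (V ⧸ S)

/-- Generic version of `RealBanach.IsEquivNorm`. -/
def EquivNorm (N : V → ℝ) : Prop :=
  (∀ x y : V, N (x + y) ≤ N x + N y) ∧ (∀ (a : ℝ) (x : V), N (a • x) = abs a * N x) ∧
    ∃ a b : ℝ, 0 < a ∧ ∀ x : V, a * ‖x‖ ≤ N x ∧ N x ≤ b * ‖x‖

/-- Generic version of `RealBanach.IsAUC`. -/
def AUCNorm (N : V → ℝ) : Prop :=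
  ∀ t : ℝ, 0 < t → ∃ c : ℝ, 0 < c ∧ ∀ x : V, N x = 1 → ∃ F : Set V, CofSet F ∧
    ∀ y ∈ F, N y = 1 → c ≤ N (x + t • y) - 1

/-- Generic version of `RealBanach.MidpointModulusGE`. -/
def MidGE (N : V → ℝ) (t c : ℝ) : Prop :=
  ∀ x : V, N x = 1 → ∀ η : ℝ, 0 < η → ∃ F : Set V, CofSet F ∧
    ∀ y ∈ F, N y = 1 → c - η ≤ (N (x + t • y) + N (x - t • y)) / 2 - 1

/-- Generic version of `RealBanach.MidpointModulusLE`. -/
def MidLE (N : V → ℝ) (t c : ℝ) : Prop :=
  ∀ x : V, N x = 1 → ∀ F : Set V, CofSet F → ∀ η : ℝ, 0 < η →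
    ∃ y ∈ F, N y = 1 ∧ (N (x + t • y) + N (x - t • y)) / 2 - 1 ≤ c + η

/-- Generic version of `RealBanach.OneSidedModulusGE`. -/
def OneGE (N : V → ℝ) (t c : ℝ) : Prop :=
  ∀ x : V, N x = 1 → ∀ η : ℝ, 0 < η → ∃ F : Set V, CofSet F ∧
    ∀ y ∈ F, N y = 1 → c - η ≤ N (x + t • y) - 1

/-- Generic version of `RealBanach.OneSidedModulusLE`. -/
def OneLE (N : V → ℝ) (t c : ℝ) : Prop :=
  ∀ x : V, N x = 1 → ∀ F : Set V, CofSet F → ∀ η : ℝ, 0 < η →
    ∃ y ∈ F, N y = 1 ∧ N (x + t • y) - 1 ≤ c + η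

/-- Generic version of `RealBanach.MaxMidpointModulusGE`. -/
def MaxMidGE (N : V → ℝ) (t c : ℝ) : Prop :=
  ∀ x : V, N x = 1 → ∀ η : ℝ, 0 < η → ∃ F : Set V, CofSet F ∧
    ∀ y ∈ F, N y = 1 → c - η ≤ max (N (x + t • y)) (N (x - t • y)) - 1

/-- A closed finite-codimensional subspace is a `CofSet`. -/
theorem cofSet_of_submodule (F : Submodule ℝ V) (hc : IsClosed (F : Set V))
    (hf : FiniteDimensional ℝ (V ⧸ F)) : CofSet (F : Set V) :=
  ⟨F, rfl, hc, hf⟩

end generic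

section bridge

variable (E : RealBanach)

theorem isCof_iff (F : Set E.X) :
    E.IsCof F ↔ @CofSet E.X E.normed E.space F := Iff.rfl

theorem isEquivNorm_iff (N : E.X → ℝ) :
    E.IsEquivNorm N ↔ @EquivNorm E.X E.normed E.space N := Iff.rfl

theorem isAUC_iff (N : E.X → ℝ) :
    E.IsAUC N ↔ @AUCNorm E.X E.normed E.space N := Iff.rfl

theorem midpointModulusGE_iff (N : E.X → ℝ) (t c : ℝ) :
    E.MidpointModulusGE N t c ↔ @MidGE E.X E.normed E.space N t c := Iff.rfl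

theorem midpointModulusLE_iff (N : E.X → ℝ) (t c : ℝ) :
    E.MidpointModulusLE N t c ↔ @MidLE E.X E.normed E.space N t c := Iff.rfl

theorem oneSidedModulusGE_iff (N : E.X → ℝ) (t c : ℝ) :
    E.OneSidedModulusGE N t c ↔ @OneGE E.X E.normed E.space N t c := Iff.rfl

theorem oneSidedModulusLE_iff (N : E.X → ℝ) (t c : ℝ) :
    E.OneSidedModulusLE N t c ↔ @OneLE E.X E.normed E.space N t c := Iff.rfl

theorem maxMidpointModulusGE_iff (N : E.X → ℝ) (t c : ℝ) :
    E.MaxMidpointModulusGE N t c ↔ @MaxMidGE E.X E.normed E.space N t c := Iff.rfl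

theorem norm_eq (x : E.X) : E.norm x = @norm E.X E.normed.toNorm x := rfl

end bridge

end Crest.Agent.S0166
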