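import Mathlib
import Crest.Prelude.Def_AsymptoticConvexity

/-!
Generic lemmas for row 125 (S0166–S0169), by helper37.

* `not_auc_of_tree'` / `not_auc_of_tree` : the "tree lemma": a family of well-separated
  trees of arbitrary height whose branching directions can be pushed into every closed
  finite-codimensional subspace rules out every equivalent AUC norm.
-/

set_option autoImplicit false

namespace Crest.Agent.S0166

open Crest.AnalysisR

section Tree

variable {X : Type} [NormedAddCommGroup X] [NormedSpace ℝ X] [CompleteSpace X]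

/-- The bundled record of a type with instances. -/
abbrev rb (X : Type) [NormedAddCommGroup X] [NormedSpace ℝ X] [CompleteSpace X] : RealBanach :=
  ⟨X, inferInstance, inferInstance, inferInstance⟩

omit [CompleteSpace X] in
/-- basic facts about a seminorm-like function -/
private theorem gen_N_neg (N : X → ℝ) (hhom : ∀ (a : ℝ) (x : X), N (a • x) = |a| * N x) (x : X) :
    N (-x) = N x := by
  have := hhom (-1) x
  simpa using this

omit [CompleteSpace X] in
private theorem gen_N_sub_le (N : X → ℝ) (hsub : ∀ x y : X, N (x + y) ≤ N x + N y)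
    (hhom : ∀ (a : ℝ) (x : X), N (a • x) = |a| * N x) (x y : X) :
    N x - N y ≤ N (x + y) := by
  have h1 := hsub (x + y) (-y)
  rw [gen_N_neg N hhom] at h1
  have : x + y + -y = x := by abel
  rw [this] at h1
  linarith

/-- One step of the tree lemma. -/
private theorem gen_step (N : X → ℝ) (hsub : ∀ x y : X, N (x + y) ≤ N x + N y)
    (hhom : ∀ (a : ℝ) (x : X), N (a • x) = |a| * N x)
    (a b : ℝ) (ha : 0 < a) (hb : 0 < b) (hab : ∀ x : X, a * ‖x‖ ≤ N x ∧ N x ≤ b * ‖x‖)
    (th0 K th : ℝ) (h0 : 0 < th0) (hK : 0 < K) (hth : 0 < th)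
    (t c : ℝ) (ht : t = a * th / (2 * b * K)) (hc : 0 < c)
    (z : X) (hz0 : th0 ≤ ‖z‖) (hzK : ‖z‖ ≤ K)
    (F : Set X) (hF : (rb X).IsCof F)
    (hFy : ∀ y ∈ F, N y = 1 → c ≤ N ((N z)⁻¹ • z + t • y) - 1)
    (z' w : X) (hd : th ≤ ‖z' - z‖) (hwF : w ∈ F)
    (hw : ‖z' - z - w‖ < min (th / 2) (c * a * th0 / (2 * b))) :
    (1 + c / 2) * N z ≤ N z' := by
  obtain ⟨S, hS, -, -⟩ := hF
  subst hS
  have hNz_lo : a * th0 ≤ N z := le_trans (by gcongr) (hab z).1
  have hNz_hi : N z ≤ b * K := le_trans (hab z).2 (by gcongr)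
  have hNz_pos : 0 < N z := lt_of_lt_of_le (by positivity) hNz_lo
  have htpos : 0 < t := by rw [ht]; positivity
  set ε := min (th / 2) (c * a * th0 / (2 * b)) with hε
  have hε1 : ε ≤ th / 2 := min_le_left _ _
  have hε2 : ε ≤ c * a * th0 / (2 * b) := min_le_right _ _
  -- norm of w
  have hw_norm : th / 2 ≤ ‖w‖ := by
    have h1 : ‖z' - z‖ ≤ ‖z' - z - w‖ + ‖w‖ := by
      have : z' - z = (z' - z - w) + w := by abel
      calc ‖z' - z‖ = ‖(z' - z - w) + w‖ := by rw [← this]
        _ ≤ _ := norm_add_le _ _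
    linarith
  have hNw_lo : a * th / 2 ≤ N w := by
    have := (hab w).1
    nlinarith
  have hNw_pos : 0 < N w := lt_of_lt_of_le (by positivity) hNw_lo
  -- the unit vector y
  obtain ⟨y, hy⟩ : ∃ y : X, y = (N w)⁻¹ • w := ⟨_, rfl⟩
  have hyF : y ∈ (S : Set X) := by rw [hy]; exact S.smul_mem _ hwF
  have hNy : N y = 1 := by
    rw [hy, hhom, abs_of_pos (inv_pos.mpr hNw_pos)]
    field_simp
  obtain ⟨x, hx⟩ : ∃ x : X, x = (N z)⁻¹ • z := ⟨_, rfl⟩
  rw [← hx] at hFy
  have hkey := hFy y hyF hNy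
  have hNx : N x = 1 := by
    rw [hx, hhom, abs_of_pos (inv_pos.mpr hNz_pos)]
    field_simp
  -- s
  set s : ℝ := N w / N z with hs
  have hs_pos : 0 < s := div_pos hNw_pos hNz_pos
  have hts : t ≤ s := by
    rw [ht, hs, div_le_div_iff₀ (by positivity) hNz_pos]
    have : a * th * N z ≤ a * th * (b * K) := by gcongr
    nlinarith
  -- z + w = N z • (x + s • y)
  have hzw : z + w = N z • (x + s • y) := by
    have e1 : N z * (N z)⁻¹ = 1 := mul_inv_cancel₀ hNz_pos.ne'
    have e2 : N z * s * (N w)⁻¹ = 1 := by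
      rw [hs]; field_simp
    calc z + w = (N z * (N z)⁻¹) • z + (N z * s * (N w)⁻¹) • w := by
          rw [e1, e2, one_smul, one_smul]
      _ = N z • (x + s • y) := by rw [hx, hy]; module
  have hNzw : N (z + w) = N z * N (x + s • y) := by
    rw [hzw, hhom, abs_of_pos hNz_pos]
  -- convexity
  have hconv : N (x + t • y) ≤ (1 - t / s) * N x + (t / s) * N (x + s • y) := by
    have e : x + t • y = (1 - t / s) • x + (t / s) • (x + s • y) := by
      have e3 : t / s * s = t := by field_simp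
      calc x + t • y = x + (t / s * s) • y := by rw [e3]
        _ = (1 - t / s) • x + (t / s) • (x + s • y) := by module
    have hts' : t / s ≤ 1 := (div_le_one hs_pos).mpr hts
    have hts0 : 0 ≤ t / s := by positivity
    calc N (x + t • y) = N ((1 - t / s) • x + (t / s) • (x + s • y)) := by rw [← e]
      _ ≤ N ((1 - t / s) • x) + N ((t / s) • (x + s • y)) := hsub _ _
      _ = (1 - t / s) * N x + (t / s) * N (x + s • y) := by
          rw [hhom, hhom, abs_of_nonneg (by linarith), abs_of_nonneg hts0]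
  have hbig : 1 + c ≤ N (x + s • y) := by
    rw [hNx] at hconv
    have hts' : t / s ≤ 1 := (div_le_one hs_pos).mpr hts
    have hts0 : 0 < t / s := by positivity
    have h1 : 1 + c ≤ (1 - t / s) + (t / s) * N (x + s • y) := by linarith
    have h2 : c ≤ (t / s) * (N (x + s • y) - 1) := by linarith
    have h3 : (t / s) * (N (x + s • y) - 1) ≤ 1 * (N (x + s • y) - 1) := by
      have hnn : 0 ≤ N (x + s • y) - 1 := by
        by_contra hneg
        have hneg := not_le.mp hneg
        have : (t / s) * (N (x + s • y) - 1) < 0 := mul_neg_of_pos_of_neg hts0 hneg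
        linarith
      exact mul_le_mul_of_nonneg_right hts' hnn
    linarith
  -- conclude
  have hz' : z' = (z + w) + (z' - z - w) := by abel
  have h1 : N (z + w) - N (z' - z - w) ≤ N z' := by
    have := gen_N_sub_le N hsub hhom (z + w) (z' - z - w)
    rw [← hz'] at this
    exact this
  have h2 : N (z' - z - w) ≤ b * ε := by
    have := (hab (z' - z - w)).2
    have h3 : b * ‖z' - z - w‖ ≤ b * ε := by
      have := hw.le
      gcongr
    linarith
  have h3 : b * ε ≤ c / 2 * N z := by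
    have : b * ε ≤ b * (c * a * th0 / (2 * b)) := by gcongr
    have e : b * (c * a * th0 / (2 * b)) = c / 2 * (a * th0) := by field_simp
    have : c / 2 * (a * th0) ≤ c / 2 * N z := by gcongr
    linarith
  have h4 : N z * (1 + c) ≤ N (z + w) := by
    rw [hNzw]; gcongr
  nlinarith

/-- **Tree lemma** (typeclass form). If there is a predicate `P z j` ("`z` is the root of a
good tree of height `j`") such that good roots of every height exist, good roots have norm in
`[th0, K]`, and from every good root of height `j + 1`, for every closed finite-codimensional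
`F` and every `ε > 0`, one can move by a vector of norm `≥ th` that is `ε`-close to `F` to a
good root of height `j`, then no equivalent norm on `X` is asymptotically uniformly convex. -/
theorem not_auc_of_tree' (P : X → ℕ → Prop) (th0 K th : ℝ) (h0 : 0 < th0) (hth : 0 < th)
    (hinh : ∀ m, ∃ z, P z m)
    (hbd : ∀ z j, P z j → th0 ≤ ‖z‖ ∧ ‖z‖ ≤ K)
    (hstep : ∀ z j, P z (j + 1) → ∀ F : Set X, (rb X).IsCof F → ∀ ε : ℝ, 0 < ε →
        ∃ z', P z' j ∧ th ≤ ‖z' - z‖ ∧ ∃ w ∈ F, ‖z' - z - w‖ < ε) :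
    ∀ N : X → ℝ, (rb X).IsEquivNorm N → ¬ (rb X).IsAUC N := by
  intro N hN hAUC
  obtain ⟨hsub, hhom, a, b, ha, hab⟩ := hN
  obtain ⟨z0, hz0⟩ := hinh 0
  have hz0' := hbd z0 0 hz0
  have hK : 0 < K := lt_of_lt_of_le h0 (le_trans hz0'.1 hz0'.2)
  have hb : 0 < b := by
    have h1 := hab z0
    have hzpos : 0 < ‖z0‖ := lt_of_lt_of_le h0 hz0'.1
    by_contra hb
    have hb := not_lt.mp hb
    have : b * ‖z0‖ ≤ 0 := mul_nonpos_of_nonpos_of_nonneg hb hzpos.le
    have : 0 < a * ‖z0‖ := by positivity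
    linarith
  set t := a * th / (2 * b * K) with ht
  have htpos : 0 < t := by positivity
  obtain ⟨c, hc, hcF⟩ := hAUC t htpos
  -- step
  have step : ∀ z j, P z (j + 1) → ∃ z', P z' j ∧ (1 + c / 2) * N z ≤ N z' := by
    intro z j hz
    have hzb := hbd z _ hz
    have hNz_lo : a * th0 ≤ N z := le_trans (by gcongr; exact hzb.1) (hab z).1
    have hNz_pos : 0 < N z := lt_of_lt_of_le (by positivity) hNz_lo
    have hNx : N ((N z)⁻¹ • z) = 1 := by
      rw [hhom, abs_of_pos (inv_pos.mpr hNz_pos)]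
      field_simp
    obtain ⟨F, hF, hFy⟩ := hcF _ hNx
    have hε : 0 < min (th / 2) (c * a * th0 / (2 * b)) := by
      apply lt_min <;> positivity
    obtain ⟨z', hz', hd, w, hwF, hw⟩ := hstep z j hz F hF _ hε
    exact ⟨z', hz', gen_step N hsub hhom a b ha hb hab th0 K th h0 hK hth t c ht hc z hzb.1 hzb.2
      F hF hFy z' w hd hwF hw⟩
  -- iterate
  have iter : ∀ m z, P z m → ∃ z', P z' 0 ∧ (1 + c / 2) ^ m * N z ≤ N z' := by
    intro m
    induction m with
    | zero => intro z hz; exact ⟨z, hz, by simp⟩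
    | succ m ih =>
      intro z hz
      obtain ⟨z1, hz1, h1⟩ := step z m hz
      obtain ⟨z2, hz2, h2⟩ := ih z1 hz1
      refine ⟨z2, hz2, le_trans ?_ h2⟩
      have : (0 : ℝ) ≤ (1 + c / 2) ^ m := by positivity
      calc (1 + c / 2) ^ (m + 1) * N z = (1 + c / 2) ^ m * ((1 + c / 2) * N z) := by ring
        _ ≤ (1 + c / 2) ^ m * N z1 := by gcongr
  -- contradiction
  obtain ⟨m, hm⟩ := exists_nat_gt (b * K / (a * th0) / (c / 2))
  obtain ⟨z, hz⟩ := hinh m
  obtain ⟨z', hz', hle⟩ := iter m z hz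
  have hzb := hbd z _ hz
  have hzb' := hbd z' _ hz'
  have hNz_lo : a * th0 ≤ N z := le_trans (by gcongr; exact hzb.1) (hab z).1
  have hNz'_hi : N z' ≤ b * K := le_trans (hab z').2 (by gcongr; exact hzb'.2)
  have hbern : 1 + (m : ℝ) * (c / 2) ≤ (1 + c / 2) ^ m :=
    one_add_mul_le_pow (by linarith) m
  have h1 : (1 + (m : ℝ) * (c / 2)) * (a * th0) ≤ b * K := by
    calc (1 + (m : ℝ) * (c / 2)) * (a * th0) ≤ (1 + c / 2) ^ m * N z := by gcongr
      _ ≤ N z' := hle
      _ ≤ b * K := hNz'_hi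
  have h2 : b * K / (a * th0) / (c / 2) * (c / 2) * (a * th0) = b * K := by
    field_simp
  have h3 : b * K / (a * th0) / (c / 2) * (c / 2) * (a * th0) < (m : ℝ) * (c / 2) * (a * th0) := by
    have : 0 < c / 2 * (a * th0) := by positivity
    nlinarith
  have h4 : 0 < a * th0 := by positivity
  nlinarith

end Tree

/-- **Tree lemma** (record form, as used by the statements of row 125). -/
theorem not_auc_of_tree (E : RealBanach) (P : E.X → ℕ → Prop) (th0 K th : ℝ) (h0 : 0 < th0)
    (hth : 0 < th)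
    (hinh : ∀ m, ∃ z, P z m)
    (hbd : ∀ z j, P z j → th0 ≤ E.norm z ∧ E.norm z ≤ K)
    (hstep : letI := E.normed
      ∀ z j, P z (j + 1) → ∀ F : Set E.X, E.IsCof F → ∀ ε : ℝ, 0 < ε →
        ∃ z', P z' j ∧ th ≤ E.norm (z' - z) ∧ ∃ w ∈ F, E.norm (z' - z - w) < ε) :
    ∀ N : E.X → ℝ, E.IsEquivNorm N → ¬ E.IsAUC N := by
  obtain ⟨X, i1, i2, i3⟩ := E
  exact not_auc_of_tree' P th0 K th h0 hth hinh hbd hstep

section Sqrt

variable {X : Type} [NormedAddCommGroup X] [NormedSpace ℝ X]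

/-- A sequence with square-root growth of all its finite sums cannot have a continuous
functional bounded below along an infinite set. -/
private theorem gen_no_infinite_pos (d : ℕ → X) (C : ℝ)
    (hsq : ∀ B : Finset ℕ, ‖∑ n ∈ B, d n‖ ≤ C * Real.sqrt B.card) (g : X →L[ℝ] ℝ)
    (δ : ℝ) (hδ : 0 < δ) (T : Set ℕ) (hT : T.Infinite) (hTg : ∀ n ∈ T, δ ≤ g (d n)) : False := by
  have hC : 0 ≤ C := by
    have := hsq {0}
    simp at this
    exact le_trans (norm_nonneg _) this
  obtain ⟨k, hk⟩ := exists_nat_gt ((‖g‖ * C / δ) ^ 2)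
  obtain ⟨B, hBT, hBk⟩ := hT.exists_subset_card_eq k
  have hkpos : (0 : ℝ) < k := lt_of_le_of_lt (sq_nonneg _) hk
  have h1 : (k : ℝ) * δ ≤ ∑ n ∈ B, g (d n) := by
    have : ∑ _n ∈ B, δ ≤ ∑ n ∈ B, g (d n) :=
      Finset.sum_le_sum (fun n hn => hTg n (hBT hn))
    simpa [hBk] using this
  have h2 : ∑ n ∈ B, g (d n) ≤ ‖g‖ * (C * Real.sqrt k) := by
    rw [← map_sum]
    calc g (∑ n ∈ B, d n) ≤ ‖g (∑ n ∈ B, d n)‖ := Real.le_norm_self _
      _ ≤ ‖g‖ * ‖∑ n ∈ B, d n‖ := g.le_opNorm _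
      _ ≤ ‖g‖ * (C * Real.sqrt k) := by
          have := hsq B
          rw [hBk] at this
          gcongr
  have hsk : 0 < Real.sqrt k := Real.sqrt_pos.mpr hkpos
  have h3 : Real.sqrt k * δ ≤ ‖g‖ * C := by
    have hkk : (k : ℝ) = Real.sqrt k * Real.sqrt k := (Real.mul_self_sqrt hkpos.le).symm
    have h4 : Real.sqrt k * (Real.sqrt k * δ) ≤ Real.sqrt k * (‖g‖ * C) := by
      calc Real.sqrt k * (Real.sqrt k * δ) = (k : ℝ) * δ := by rw [← mul_assoc, ← hkk]
        _ ≤ ‖g‖ * (C * Real.sqrt k) := le_trans h1 h2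
        _ = Real.sqrt k * (‖g‖ * C) := by ring
    exact le_of_mul_le_mul_left h4 hsk
  have h5 : Real.sqrt k ≤ ‖g‖ * C / δ := by
    rw [le_div_iff₀ hδ]; exact h3
  have h6 : (k : ℝ) ≤ (‖g‖ * C / δ) ^ 2 := by
    have := Real.sqrt_le_left (x := (k : ℝ)) (y := ‖g‖ * C / δ)
      (le_trans (Real.sqrt_nonneg _) h5)
    calc (k : ℝ) = Real.sqrt k ^ 2 := (Real.sq_sqrt hkpos.le).symm
      _ ≤ (‖g‖ * C / δ) ^ 2 := by
          exact pow_le_pow_left₀ (Real.sqrt_nonneg _) h5 2
  linarith

/-- **Square-sum lemma, functional form.** If all finite sums of the sequence `d` have norm at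
most `C √(card)`, then every continuous linear functional tends to `0` along `d`. -/
theorem tendsto_clm_of_sqrt_sums (d : ℕ → X) (C : ℝ)
    (hsq : ∀ B : Finset ℕ, ‖∑ n ∈ B, d n‖ ≤ C * Real.sqrt B.card) (f : X →L[ℝ] ℝ) :
    Filter.Tendsto (fun n => f (d n)) Filter.atTop (nhds 0) := by
  rw [Metric.tendsto_atTop]
  intro δ hδ
  by_contra hcon
  have hcon' : ∀ n0, ∃ n, n0 ≤ n ∧ δ ≤ |f (d n)| := by
    intro n0
    by_contra h
    apply hcon
    refine ⟨n0, fun n hn => ?_⟩
    rw [Real.dist_eq, sub_zero]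
    by_contra h'
    exact h ⟨n, hn, not_lt.mp h'⟩
  have hinf : {n | δ ≤ |f (d n)|}.Infinite := by
    apply Set.infinite_of_not_bddAbove
    rintro ⟨M, hM⟩
    obtain ⟨n, hn, hn'⟩ := hcon' (M + 1)
    have := hM hn'
    omega
  have hsplit : {n | δ ≤ |f (d n)|} ⊆ {n | δ ≤ f (d n)} ∪ {n | δ ≤ (-f) (d n)} := by
    intro n hn
    change δ ≤ |f (d n)| at hn
    rcases le_abs.mp hn with h | h
    · left; exact h
    · right; simpa using h
  rcases Set.infinite_union.mp (hinf.mono hsplit) with h | h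
  · exact gen_no_infinite_pos d C hsq f δ hδ _ h (fun n hn => hn)
  · exact gen_no_infinite_pos d C hsq (-f) δ hδ _ h (fun n hn => hn)

variable [CompleteSpace X]

/-- **Square-sum lemma.** If all finite sums of the sequence `d` have norm at most
`C √(card)`, then `d n` is eventually `ε`-close to every closed finite-codimensional
subspace. -/
theorem exists_near_cof_of_sqrt_sums' (d : ℕ → X) (C : ℝ)
    (hsq : ∀ B : Finset ℕ, ‖∑ n ∈ B, d n‖ ≤ C * Real.sqrt B.card) :
    ∀ F : Set X, (rb X).IsCof F → ∀ ε : ℝ, 0 < ε →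
      ∃ n0, ∀ n, n0 ≤ n → ∃ w ∈ F, ‖d n - w‖ < ε := by
  intro F hF ε hε
  obtain ⟨S, hS, hcl, hfd⟩ := hF
  subst hS
  change Submodule ℝ X at S
  change FiniteDimensional ℝ (X ⧸ S) at hfd
  change IsClosed (S : Set X) at hcl
  have := hcl
  have := hfd
  let b := Module.finBasis ℝ (X ⧸ S)
  -- coordinates tend to zero
  have hcoord : ∀ i, Filter.Tendsto (fun n => b.equivFun (S.mkQ (d n)) i) Filter.atTop (nhds 0) := by
    intro i
    let g : X →L[ℝ] ℝ := (LinearMap.toContinuousLinearMap (b.coord i)).comp S.mkQL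
    have := tendsto_clm_of_sqrt_sums d C hsq g
    simpa [g] using this
  have hpi : Filter.Tendsto (fun n => b.equivFun (S.mkQ (d n))) Filter.atTop (nhds 0) :=
    tendsto_pi_nhds.mpr hcoord
  have hcont : Continuous (b.equivFun.symm : (Fin (Module.finrank ℝ (X ⧸ S)) → ℝ) →ₗ[ℝ] X ⧸ S) :=
    LinearMap.continuous_of_finiteDimensional _
  have hq : Filter.Tendsto (fun n => S.mkQ (d n)) Filter.atTop (nhds 0) := by
    have h := (hcont.tendsto 0).comp hpi
    have e : (⇑(b.equivFun.symm : (Fin (Module.finrank ℝ (X ⧸ S)) → ℝ) →ₗ[ℝ] X ⧸ S) ∘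
        fun n => b.equivFun (S.mkQ (d n))) = fun n => S.mkQ (d n) := by
      funext n
      simp
    rw [e] at h
    simpa using h
  rw [Metric.tendsto_atTop] at hq
  obtain ⟨n0, hn0⟩ := hq ε hε
  refine ⟨n0, fun n hn => ?_⟩
  have h1 := hn0 n hn
  rw [dist_zero_right] at h1
  obtain ⟨m, hm, hm'⟩ := Submodule.Quotient.norm_mk_lt (S.mkQ (d n)) (sub_pos.mpr h1)
  refine ⟨d n - m, ?_, ?_⟩
  · change d n - m ∈ S
    rw [← Submodule.Quotient.mk_eq_zero, Submodule.Quotient.mk_sub, hm]
    simp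
  · have : d n - (d n - m) = m := by abel
    rw [this]
    linarith

end Sqrt

/-- **Square-sum lemma** (record form). -/
theorem exists_near_cof_of_sqrt_sums (E : RealBanach) (d : ℕ → E.X) (C : ℝ)
    (hsq : letI := E.normed
      ∀ B : Finset ℕ, E.norm (∑ n ∈ B, d n) ≤ C * Real.sqrt B.card) :
    letI := E.normed
    ∀ F : Set E.X, E.IsCof F → ∀ ε : ℝ, 0 < ε →
      ∃ n0, ∀ n, n0 ≤ n → ∃ w ∈ F, E.norm (d n - w) < ε := by
  obtain ⟨X, i1, i2, i3⟩ := E
  exact exists_near_cof_of_sqrt_sums' d C hsq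

section FinDim

variable {X : Type} [NormedAddCommGroup X] [NormedSpace ℝ X] [CompleteSpace X]

/-- In a finite-dimensional space the given norm is (vacuously) AUC: take `F = {0}`. -/
theorem auc_of_finiteDimensional' [FiniteDimensional ℝ X] : (rb X).IsAUC (rb X).norm := by
  intro t _
  refine ⟨1, one_pos, fun x _ => ⟨{0}, ⟨⊥, by simp, isClosed_singleton, ?_⟩, ?_⟩⟩
  · change FiniteDimensional ℝ (X ⧸ (⊥ : Submodule ℝ X))
    infer_instance
  · intro y hy hy1
    rw [Set.mem_singleton_iff] at hy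
    subst hy
    change ‖(0 : X)‖ = 1 at hy1
    simp at hy1

/-- The given norm is an equivalent norm. -/
theorem isEquivNorm_norm' : (rb X).IsEquivNorm (rb X).norm :=
  ⟨fun x y => norm_add_le x y, fun a x => norm_smul a x, 1, 1, one_pos, fun x => by
    change 1 * ‖x‖ ≤ ‖x‖ ∧ ‖x‖ ≤ 1 * ‖x‖
    simp⟩

/-- A space without equivalent AUC norm is infinite-dimensional. -/
theorem not_finiteDimensional_of_not_auc'
    (h : ∀ N : X → ℝ, (rb X).IsEquivNorm N → ¬ (rb X).IsAUC N) : ¬ FiniteDimensional ℝ X :=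
  fun _ => h _ isEquivNorm_norm' auc_of_finiteDimensional'

end FinDim

/-- A space without equivalent AUC norm is infinite-dimensional (record form). -/
theorem not_finiteDimensional_of_not_auc (E : RealBanach)
    (h : ∀ N : E.X → ℝ, E.IsEquivNorm N → ¬ E.IsAUC N) :
    letI := E.normed; letI := E.space
    ¬ FiniteDimensional ℝ E.X := by
  obtain ⟨X, i1, i2, i3⟩ := E
  exact not_finiteDimensional_of_not_auc' h

end Crest.Agent.S0166
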