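import Mathlib
import Crest.Prelude.Def_TreePotentials
import Crest.Agent.S0166.Generic

/-!
# S0166 (row 125) — the space: ℓ²-sum of the depth-bounded blocks of the global model (helper65)

* `GS` is the space of the global tree-potential model, `block n` the closed span (inside `GS`) of
  the coordinate vectors of the vertices of depth `≤ n`, and `E = lp (fun n => block n) 2`.
* `block_hilbert`: each block is linearly homeomorphic to a Hilbert space (`ℓ²` of its vertices).
* `E_separable`, `E_no_auc`, `E_sepInfDim`.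
-/

set_option autoImplicit false

namespace Crest.Agent.S0166.Blocks

open Crest.AnalysisR Crest.AnalysisR.TreePotential
open scoped ENNReal

/-- Tests of the global model. -/
abbrev TG : Type := PotentialTest PotentialModel.global

/-- The ambient `ℓ^∞` over the tests. -/
abbrev Big : Type := lp (fun _ : TG => ℝ) ⊤

/-- The space of the global model. It is a plain definition with explicitly installed instances
(rather than an abbreviation), so that instance search on it and on its subspaces has a single
path: the ambient `ℓ^∞` carries both a ring and a normed-group structure, and the Prelude's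
`modelSpace` is a submodule with respect to the additive structure of the ring. -/
def GS : Type := ↥(modelSpace PotentialModel.global)

noncomputable instance blk_nacgGS : NormedAddCommGroup GS :=
  Submodule.normedAddCommGroup (modelSpace PotentialModel.global)

noncomputable instance blk_nsGS : NormedSpace ℝ GS :=
  Submodule.normedSpace (modelSpace PotentialModel.global)

instance blk_completeGS : CompleteSpace GS :=
  (Submodule.isClosed_topologicalClosure _).completeSpace_coe

/-- The inclusion of the model space into the ambient space. -/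
noncomputable def GSval : GS →L[ℝ] Big := (modelSpace PotentialModel.global).subtypeL

/-- An element of the ambient space lying in the model space, as an element of `GS`. -/
def GSmk (y : Big) (hy : y ∈ modelSpace PotentialModel.global) : GS := ⟨y, hy⟩

theorem blk_GSval_mk (y : Big) (hy : y ∈ modelSpace PotentialModel.global) :
    GSval (GSmk y hy) = y := rfl

theorem blk_GSval_mem (y : GS) : GSval y ∈ modelSpace PotentialModel.global := y.2

theorem blk_norm_GSval (y : GS) : ‖GSval y‖ = ‖y‖ := rfl

theorem blk_GSval_injective : Function.Injective GSval := fun _ _ h => Subtype.ext h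

/-! ### Delta tests -/

/-- The indicator of a single vertex. -/
noncomputable def delta (u : List ℕ) : List ℕ → ℝ := fun s => if s = u then 1 else 0

theorem blk_delta_self (u : List ℕ) : delta u u = 1 := by simp [delta]

theorem blk_pot_delta (u s : List ℕ) :
    pathPotential (delta u) s = if u <:+ s then 1 else 0 := by
  induction s with
  | nil =>
    simp only [pathPotential, delta, List.suffix_nil]
    by_cases h : u = []
    · simp [h]
    · simp [h, Ne.symm h]
  | cons a v ih =>
    simp only [pathPotential, ih, delta, List.suffix_cons_iff]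
    by_cases h1 : u <:+ v
    · have h2 : a :: v ≠ u := by
        rintro rfl
        have := h1.length_le
        simp at this
      simp [h1, h2]
    · by_cases h2 : a :: v = u
      · simp [h1, h2]
      · simp [h1, h2, Ne.symm h2]

theorem blk_delta_isTest (u : List ℕ) : IsTest PotentialModel.global (delta u) := by
  classical
  refine ⟨fun s => ?_, fun A => ?_⟩
  · rw [blk_pot_delta]
    split_ifs <;> simp
  · have : ∀ w ∈ A, delta u w ^ 2 = if w = u then 1 else 0 := by
      intro w _
      simp only [delta]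
      split_ifs <;> simp
    rw [Finset.sum_congr rfl this, Finset.sum_ite_eq']
    split_ifs <;> simp

/-- The delta test as a test. -/
noncomputable def deltaT (u : List ℕ) : TG := ⟨delta u, blk_delta_isTest u⟩

/-! ### Coordinates and branch sums in the ambient space -/

theorem blk_coord_apply (s : List ℕ) (f : TG) :
    (coordVector PotentialModel.global s : Big) f = f.1 s := rfl

/-- The branch sum of the vertex `v`: the function `f ↦ pathPotential f v`. -/
noncomputable def branchBig (v : List ℕ) : Big :=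
  ⟨fun f => pathPotential f.1 v, memℓp_infty ⟨1, by
    rintro _ ⟨f, rfl⟩
    simpa [Real.norm_eq_abs] using f.2.1 v⟩⟩

theorem blk_branch_apply (v : List ℕ) (f : TG) : (branchBig v : Big) f = pathPotential f.1 v := rfl

theorem blk_branch_nil : branchBig [] = coordVector PotentialModel.global [] := by
  apply lp.ext
  funext f
  rfl

theorem blk_branch_cons (a : ℕ) (v : List ℕ) :
    branchBig (a :: v) = branchBig v + coordVector PotentialModel.global (a :: v) := by
  apply lp.ext
  funext f
  rw [lp.coeFn_add]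
  rfl

theorem blk_norm_branch (v : List ℕ) : ‖branchBig v‖ = 1 := by
  apply le_antisymm
  · refine lp.norm_le_of_forall_le zero_le_one (fun f => ?_)
    rw [blk_branch_apply, Real.norm_eq_abs]
    exact f.2.1 v
  · have h := lp.norm_apply_le_norm ENNReal.top_ne_zero (branchBig v) (deltaT [])
    rw [blk_branch_apply, Real.norm_eq_abs] at h
    have h1 : pathPotential (deltaT []).1 v = 1 := by
      show pathPotential (delta []) v = 1
      rw [blk_pot_delta]
      simp
    rw [h1] at h
    simpa using h

theorem blk_norm_coord_ge (u : List ℕ) : 1 ≤ ‖coordVector PotentialModel.global u‖ := by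
  have h := lp.norm_apply_le_norm ENNReal.top_ne_zero (coordVector PotentialModel.global u) (deltaT u)
  rw [blk_coord_apply, Real.norm_eq_abs] at h
  have h1 : (deltaT u).1 u = 1 := blk_delta_self u
  rw [h1] at h
  simpa using h

theorem blk_norm_sum_coord_le (v : List ℕ) (B : Finset ℕ) :
    ‖∑ k ∈ B, coordVector PotentialModel.global (k :: v)‖ ≤ Real.sqrt B.card := by
  classical
  refine lp.norm_le_of_forall_le (Real.sqrt_nonneg _) (fun f => ?_)
  rw [lp.coeFn_sum, Finset.sum_apply, Real.norm_eq_abs]
  apply Real.abs_le_sqrt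
  have h1 : (∑ k ∈ B, (coordVector PotentialModel.global (k :: v) : Big) f) ^ 2
      ≤ B.card * ∑ k ∈ B, ((coordVector PotentialModel.global (k :: v) : Big) f) ^ 2 :=
    sq_sum_le_card_mul_sum_sq
  have h2 : ∑ k ∈ B, ((coordVector PotentialModel.global (k :: v) : Big) f) ^ 2 ≤ 1 := by
    have h3 := f.2.2 (B.image (fun k => k :: v))
    rw [Finset.sum_image (fun x _ y _ hxy => (List.cons.inj hxy).1)] at h3
    exact h3
  calc _ ≤ (B.card : ℝ) * ∑ k ∈ B, ((coordVector PotentialModel.global (k :: v) : Big) f) ^ 2 := h1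
    _ ≤ (B.card : ℝ) * 1 := mul_le_mul_of_nonneg_left h2 (Nat.cast_nonneg _)
    _ = B.card := mul_one _

/-! ### The blocks -/

/-- The closed span, in the ambient space, of the coordinates of the vertices of depth `≤ n`. -/
noncomputable def B0 (n : ℕ) : Submodule ℝ Big :=
  (Submodule.span ℝ (coordVector PotentialModel.global '' {s : List ℕ | s.length ≤ n})).topologicalClosure

theorem blk_B0_le (n : ℕ) : B0 n ≤ modelSpace PotentialModel.global :=
  Submodule.topologicalClosure_mono (Submodule.span_mono (Set.image_subset_range _ _))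

theorem blk_coord_mem_B0 (n : ℕ) (s : List ℕ) (hs : s.length ≤ n) :
    coordVector PotentialModel.global s ∈ B0 n :=
  Submodule.le_topologicalClosure _ (Submodule.subset_span ⟨s, hs, rfl⟩)

theorem blk_branch_mem_B0 (n : ℕ) (v : List ℕ) (hv : v.length ≤ n) : branchBig v ∈ B0 n := by
  induction v with
  | nil => rw [blk_branch_nil]; exact blk_coord_mem_B0 n [] hv
  | cons a v ih =>
    rw [blk_branch_cons]
    refine (B0 n).add_mem (ih ?_) (blk_coord_mem_B0 n _ hv)
    simp only [List.length_cons] at hv
    omega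

/-- The block of depth `≤ n`, as a closed subspace of the global model space: the closed span of
the coordinates of the vertices of depth `≤ n`. -/
noncomputable def block (n : ℕ) : Submodule ℝ GS :=
  (B0 n).comap (GSval : GS →ₗ[ℝ] Big)

theorem blk_B0_isClosed (n : ℕ) : IsClosed (B0 n : Set Big) :=
  Submodule.isClosed_topologicalClosure _

theorem block_isClosed (n : ℕ) : IsClosed (block n : Set GS) :=
  (blk_B0_isClosed n).preimage GSval.continuous

instance blk_completeBlock (n : ℕ) : CompleteSpace ↥(block n) :=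
  (block_isClosed n).completeSpace_coe

/-- The inclusion of a block into the ambient space. -/
noncomputable def iota (n : ℕ) : ↥(block n) →ₗ[ℝ] Big :=
  (GSval : GS →ₗ[ℝ] Big).comp (block n).subtype

theorem blk_iota_mem (n : ℕ) (y : ↥(block n)) : iota n y ∈ B0 n := y.2

theorem blk_norm_iota (n : ℕ) (y : ↥(block n)) : ‖iota n y‖ = ‖y‖ := rfl

theorem blk_iota_injective (n : ℕ) : Function.Injective (iota n) := fun _ _ h =>
  Subtype.ext (blk_GSval_injective h)

/-- An element of the ambient closed span as an element of the block. -/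
noncomputable def mkB (n : ℕ) (y : Big) (hy : y ∈ B0 n) : ↥(block n) :=
  ⟨GSmk y (blk_B0_le n hy), hy⟩

theorem blk_iota_mkB (n : ℕ) (y : Big) (hy : y ∈ B0 n) : iota n (mkB n y hy) = y := rfl

theorem blk_norm_mkB (n : ℕ) (y : Big) (hy : y ∈ B0 n) : ‖mkB n y hy‖ = ‖y‖ := rfl

theorem blk_mkB_congr (n : ℕ) (y y' : Big) (hy : y ∈ B0 n) (hy' : y' ∈ B0 n) (h : y = y') :
    mkB n y hy = mkB n y' hy' := by
  subst h
  rfl

theorem blk_mkB_sub (n : ℕ) (y y' : Big) (hy : y ∈ B0 n) (hy' : y' ∈ B0 n) :
    mkB n y hy - mkB n y' hy' = mkB n (y - y') ((B0 n).sub_mem hy hy') := by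
  apply blk_iota_injective n
  rw [map_sub, blk_iota_mkB, blk_iota_mkB, blk_iota_mkB]

theorem blk_mkB_sum (n : ℕ) (B : Finset ℕ) (y : ℕ → Big) (hy : ∀ k, y k ∈ B0 n) :
    ∑ k ∈ B, mkB n (y k) (hy k) = mkB n (∑ k ∈ B, y k) ((B0 n).sum_mem (fun k _ => hy k)) := by
  apply blk_iota_injective n
  rw [map_sum, blk_iota_mkB]
  exact Finset.sum_congr rfl (fun k _ => blk_iota_mkB n _ _)

/-- The space of S0166: the `ℓ²`-sum of the blocks. -/
abbrev E : Type := lp (fun n : ℕ => ↥(block n)) 2

/-! ### No equivalent AUC norm -/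

theorem E_no_auc : ∀ N : E → ℝ, (rb E).IsEquivNorm N → ¬ (rb E).IsAUC N := by
  have h2 : (0 : ℝ≥0∞) < 2 := by norm_num
  refine not_auc_of_tree' (X := E)
    (fun z j => ∃ (n : ℕ) (v : List ℕ) (h : v.length + j ≤ n),
      z = lp.single 2 n (mkB n (branchBig v) (blk_branch_mem_B0 n v (by omega))))
    1 1 1 one_pos one_pos ?_ ?_ ?_
  · intro m
    exact ⟨_, m, [], by simp, rfl⟩
  · rintro z j ⟨n, v, h, rfl⟩
    rw [lp.norm_single h2, blk_norm_mkB, blk_norm_branch]
    simp
  · rintro z j ⟨n, v, h, rfl⟩ F hF ε hε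
    have hlen : ∀ k : ℕ, (k :: v).length ≤ n := by
      intro k
      simp only [List.length_cons]
      omega
    set d : ℕ → E := fun k =>
      lp.single 2 n (mkB n (coordVector PotentialModel.global (k :: v)) (blk_coord_mem_B0 n _ (hlen k)))
      with hd
    have hsq : ∀ B : Finset ℕ, ‖∑ k ∈ B, d k‖ ≤ 1 * Real.sqrt B.card := by
      intro B
      have e1 : ∑ k ∈ B, d k = lp.single 2 n (∑ k ∈ B,
          mkB n (coordVector PotentialModel.global (k :: v)) (blk_coord_mem_B0 n _ (hlen k))) := by
        simp only [hd]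
        exact (map_sum (lp.singleAddMonoidHom (E := fun n : ℕ => ↥(block n)) 2 n) _ B).symm
      rw [e1, lp.norm_single h2, blk_mkB_sum n B (fun k => coordVector PotentialModel.global (k :: v))
        (fun k => blk_coord_mem_B0 n _ (hlen k)), blk_norm_mkB, one_mul]
      exact blk_norm_sum_coord_le v B
    obtain ⟨n0, hn0⟩ := exists_near_cof_of_sqrt_sums' d 1 hsq F hF ε hε
    obtain ⟨w, hwF, hw⟩ := hn0 n0 le_rfl
    have hdiff : lp.single 2 n (mkB n (branchBig (n0 :: v)) (blk_branch_mem_B0 n _ (hlen n0)))
        - lp.single 2 n (mkB n (branchBig v) (blk_branch_mem_B0 n v (by omega))) = d n0 := by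
      rw [← lp.single_sub, blk_mkB_sub]
      simp only [hd]
      congr 1
      apply blk_mkB_congr
      rw [blk_branch_cons]
      abel
    refine ⟨lp.single 2 n (mkB n (branchBig (n0 :: v)) (blk_branch_mem_B0 n _ (hlen n0))),
      ⟨n, n0 :: v, by simp only [List.length_cons]; omega, rfl⟩, ?_, w, hwF, ?_⟩
    · rw [hdiff]
      simp only [hd]
      rw [lp.norm_single h2, blk_norm_mkB]
      exact blk_norm_coord_ge _
    · rw [hdiff]
      exact hw

/-! ### Separability -/

theorem blk_separable_GS : TopologicalSpace.SeparableSpace GS := by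
  have h1 : TopologicalSpace.IsSeparable (Set.range (coordVector PotentialModel.global)) :=
    (Set.countable_range _).isSeparable
  have h2 : TopologicalSpace.IsSeparable
      ((modelSpace PotentialModel.global : Submodule ℝ Big) : Set Big) := (h1.span (R := ℝ)).closure
  exact h2.separableSpace

theorem blk_separable_block (n : ℕ) : TopologicalSpace.SeparableSpace ↥(block n) := by
  have := blk_separable_GS
  have : SecondCountableTopology GS := UniformSpace.secondCountable_of_separable GS
  infer_instance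

theorem E_separable : TopologicalSpace.SeparableSpace E := by
  have hsep : ∀ n, TopologicalSpace.SeparableSpace ↥(block n) := blk_separable_block
  rw [← TopologicalSpace.isSeparable_univ_iff]
  have h1 : ∀ n : ℕ, TopologicalSpace.IsSeparable
      (Set.range (lp.single (E := fun n : ℕ => ↥(block n)) 2 n)) :=
    fun n => TopologicalSpace.isSeparable_range (lp.isometry_single n).continuous
  have h2 := ((TopologicalSpace.IsSeparable.iUnion h1).span (R := ℝ)).closure
  refine h2.mono ?_
  intro x _
  have hx := lp.hasSum_single (p := 2) (by norm_num : (2 : ℝ≥0∞) ≠ ⊤) x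
  refine mem_closure_of_tendsto hx (Filter.Eventually.of_forall (fun A => ?_))
  refine Submodule.sum_mem _ (fun i _ => Submodule.subset_span ?_)
  exact Set.mem_iUnion.mpr ⟨i, ⟨x i, rfl⟩⟩

theorem E_sepInfDim : (rb E).IsSeparableInfiniteDim :=
  ⟨E_separable, not_finiteDimensional_of_not_auc' E_no_auc⟩

/-! ### Potentials as sums over suffixes -/

/-- All suffixes of a list (the vertex and its ancestors including the root). -/
def sfxAll : List ℕ → Finset (List ℕ)
  | [] => {[]}
  | a :: v => insert (a :: v) (sfxAll v)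

theorem blk_sfxAll_len (v u : List ℕ) (hu : u ∈ sfxAll v) : u.length ≤ v.length := by
  induction v with
  | nil =>
    simp only [sfxAll, Finset.mem_singleton] at hu
    simp [hu]
  | cons a v ih =>
    simp only [sfxAll, Finset.mem_insert] at hu
    rcases hu with rfl | hu
    · exact le_rfl
    · have := ih hu
      simp only [List.length_cons]
      omega

theorem blk_cons_notMem (a : ℕ) (v : List ℕ) : (a :: v) ∉ sfxAll v := by
  intro h
  have := blk_sfxAll_len v _ h
  simp at this

theorem blk_card_sfxAll (v : List ℕ) : (sfxAll v).card = v.length + 1 := by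
  induction v with
  | nil => simp [sfxAll]
  | cons a v ih =>
    simp only [sfxAll]
    rw [Finset.card_insert_of_notMem (blk_cons_notMem a v), ih]
    simp

theorem blk_pot_eq_sum (f : List ℕ → ℝ) (v : List ℕ) :
    pathPotential f v = ∑ u ∈ sfxAll v, f u := by
  induction v with
  | nil => simp [pathPotential, sfxAll]
  | cons a v ih =>
    simp only [pathPotential, sfxAll]
    rw [Finset.sum_insert (blk_cons_notMem a v), ih, add_comm]

/-- A coefficient family supported on depth `≤ n` with square sums at most `1/(n+1)` has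
potentials bounded by `1`. -/
theorem blk_pot_le (n : ℕ) (f : List ℕ → ℝ) (hsupp : ∀ u : List ℕ, n < u.length → f u = 0)
    (hsq : ∀ A : Finset (List ℕ), (n + 1 : ℝ) * ∑ u ∈ A, f u ^ 2 ≤ 1) :
    ∀ s, |pathPotential f s| ≤ 1 := by
  have key : ∀ s : List ℕ, s.length ≤ n → |pathPotential f s| ≤ 1 := by
    intro s hs
    rw [blk_pot_eq_sum]
    have h1 : (∑ u ∈ sfxAll s, f u) ^ 2 ≤ (sfxAll s).card * ∑ u ∈ sfxAll s, f u ^ 2 :=
      sq_sum_le_card_mul_sum_sq
    have h2 : ((sfxAll s).card : ℝ) ≤ n + 1 := by
      rw [blk_card_sfxAll]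
      exact_mod_cast Nat.succ_le_succ hs
    have h3 : 0 ≤ ∑ u ∈ sfxAll s, f u ^ 2 := Finset.sum_nonneg (fun _ _ => sq_nonneg _)
    have h4 : (∑ u ∈ sfxAll s, f u) ^ 2 ≤ 1 := by
      calc _ ≤ ((sfxAll s).card : ℝ) * ∑ u ∈ sfxAll s, f u ^ 2 := h1
        _ ≤ (n + 1 : ℝ) * ∑ u ∈ sfxAll s, f u ^ 2 := mul_le_mul_of_nonneg_right h2 h3
        _ ≤ 1 := hsq _
    exact (sq_le_one_iff_abs_le_one _).mp h4
  intro s
  induction s with
  | nil => exact key [] (Nat.zero_le n)
  | cons a v ih =>
    by_cases h : (a :: v).length ≤ n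
    · exact key _ h
    · have h0 : f (a :: v) = 0 := hsupp _ (not_le.mp h)
      simp only [pathPotential, h0, add_zero]
      exact ih

/-! ### Hilbert isomorphism of a block -/

section Hilbert

variable (n : ℕ)

/-- Vertices of depth `≤ n`. -/
abbrev Vn (n : ℕ) : Type := {s : List ℕ // s.length ≤ n}

/-- `ℓ²` over the vertices of depth `≤ n`. -/
abbrev Hn (n : ℕ) : Type := lp (fun _ : Vn n => ℝ) 2

theorem blk_two_toReal : (2 : ℝ≥0∞).toReal = 2 := by norm_num

theorem blk_test_sq_sum (f : TG) (A : Finset (Vn n)) : ∑ s ∈ A, (f.1 s.1) ^ 2 ≤ 1 := by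
  have h := f.2.2 (A.map (Function.Embedding.subtype _))
  rw [Finset.sum_map] at h
  exact h

/-- The restriction of a test to the vertices of depth `≤ n`, as an `ℓ²` vector. -/
noncomputable def tvec (f : TG) : Hn n :=
  ⟨fun s => f.1 s.1, memℓp_gen' (C := 1) (fun A => by
    simp only [blk_two_toReal, Real.norm_eq_abs, Real.rpow_two, sq_abs]
    exact blk_test_sq_sum n f A)⟩

theorem blk_tvec_apply (f : TG) (s : Vn n) : tvec n f s = f.1 s.1 := rfl

theorem blk_norm_tvec_le (f : TG) : ‖tvec n f‖ ≤ 1 := by
  refine lp.norm_le_of_forall_sum_le (by norm_num) zero_le_one (fun A => ?_)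
  simp only [blk_two_toReal, Real.norm_eq_abs, blk_tvec_apply, Real.rpow_two, sq_abs, one_pow]
  exact blk_test_sq_sum n f A

/-- The synthesis map `x ↦ (f ↦ ⟪f, x⟫)` from `ℓ²` of the vertices into the ambient space. -/
noncomputable def T0fun (x : Hn n) : Big :=
  ⟨fun f => inner ℝ (tvec n f) x, memℓp_infty ⟨‖x‖, by
    rintro _ ⟨f, rfl⟩
    calc ‖inner ℝ (tvec n f) x‖ ≤ ‖tvec n f‖ * ‖x‖ := norm_inner_le_norm _ _
      _ ≤ 1 * ‖x‖ := mul_le_mul_of_nonneg_right (blk_norm_tvec_le n f) (norm_nonneg _)
      _ = ‖x‖ := one_mul _⟩⟩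

theorem blk_T0fun_apply (x : Hn n) (f : TG) : (T0fun n x : Big) f = inner ℝ (tvec n f) x := rfl

/-- The synthesis map as a linear map. -/
noncomputable def T0 : Hn n →ₗ[ℝ] Big where
  toFun := T0fun n
  map_add' x y := by
    apply lp.ext
    funext f
    rw [lp.coeFn_add]
    simp [blk_T0fun_apply, inner_add_right]
  map_smul' c x := by
    apply lp.ext
    funext f
    rw [lp.coeFn_smul]
    simp [blk_T0fun_apply, inner_smul_right]

theorem blk_T0_apply (x : Hn n) (f : TG) : (T0 n x : Big) f = inner ℝ (tvec n f) x := rfl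

theorem blk_norm_T0_le (x : Hn n) : ‖T0 n x‖ ≤ ‖x‖ := by
  refine lp.norm_le_of_forall_le (norm_nonneg _) (fun f => ?_)
  rw [blk_T0_apply]
  calc ‖inner ℝ (tvec n f) x‖ ≤ ‖tvec n f‖ * ‖x‖ := norm_inner_le_norm _ _
    _ ≤ 1 * ‖x‖ := mul_le_mul_of_nonneg_right (blk_norm_tvec_le n f) (norm_nonneg _)
    _ = ‖x‖ := one_mul _

theorem blk_T0_single (s : Vn n) (a : ℝ) :
    T0 n (lp.single 2 s a) = a • coordVector PotentialModel.global s.1 := by
  classical
  apply lp.ext
  funext f
  rw [lp.coeFn_smul, blk_T0_apply, lp.inner_single_right]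
  simp [blk_tvec_apply, blk_coord_apply]

/-- The synthesis map is bounded below. -/
theorem blk_lower (x : Hn n) : ‖x‖ ≤ Real.sqrt (n + 1) * ‖T0 n x‖ := by
  classical
  rcases eq_or_ne x 0 with rfl | hx
  · simp
  have hxpos : 0 < ‖x‖ := norm_pos_iff.mpr hx
  have hn1 : (0 : ℝ) < n + 1 := by positivity
  have hs : 0 < Real.sqrt (n + 1) := Real.sqrt_pos.mpr hn1
  set c : ℝ := (Real.sqrt (n + 1) * ‖x‖)⁻¹ with hc
  have hcpos : 0 < c := by positivity
  have hc2 : c ^ 2 * ((n + 1) * ‖x‖ ^ 2) = 1 := by
    rw [hc, inv_pow, mul_pow, Real.sq_sqrt hn1.le]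
    field_simp
  let f : List ℕ → ℝ := fun u => if h : u.length ≤ n then c * x ⟨u, h⟩ else 0
  have hf_in : ∀ s : Vn n, f s.1 = c * x s := by
    intro s
    simp only [f]
    rw [dif_pos s.2]
  have hf_out : ∀ u : List ℕ, n < u.length → f u = 0 := by
    intro u hu
    simp only [f]
    rw [dif_neg (not_le.mpr hu)]
  have hsqx : ∀ A : Finset (Vn n), ∑ s ∈ A, x s ^ 2 ≤ ‖x‖ ^ 2 := by
    intro A
    have := lp.sum_rpow_le_norm_rpow (p := 2) (by norm_num) x A
    simp only [blk_two_toReal, Real.norm_eq_abs, Real.rpow_two, sq_abs] at this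
    exact this
  have hsq : ∀ A : Finset (List ℕ), (n + 1 : ℝ) * ∑ u ∈ A, f u ^ 2 ≤ 1 := by
    intro A
    have e1 : ∑ u ∈ A, f u ^ 2 = ∑ s ∈ A.subtype (fun u => u.length ≤ n), (c * x s) ^ 2 := by
      rw [← Finset.sum_filter_of_ne (p := fun u : List ℕ => u.length ≤ n)]
      · rw [← Finset.sum_subtype_eq_sum_filter]
        exact Finset.sum_congr rfl (fun s _ => by rw [hf_in])
      · intro u _ hu
        by_contra hlen
        exact hu (by rw [hf_out u (not_le.mp hlen)]; simp)
    rw [e1]
    have e2 : ∑ s ∈ A.subtype (fun u => u.length ≤ n), (c * x s) ^ 2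
        = c ^ 2 * ∑ s ∈ A.subtype (fun u => u.length ≤ n), x s ^ 2 := by
      rw [Finset.mul_sum]
      exact Finset.sum_congr rfl (fun s _ => mul_pow _ _ _)
    rw [e2]
    have h1 := hsqx (A.subtype (fun u => u.length ≤ n))
    calc (n + 1 : ℝ) * (c ^ 2 * ∑ s ∈ A.subtype (fun u => u.length ≤ n), x s ^ 2)
        ≤ (n + 1 : ℝ) * (c ^ 2 * ‖x‖ ^ 2) := by
          apply mul_le_mul_of_nonneg_left _ hn1.le
          exact mul_le_mul_of_nonneg_left h1 (sq_nonneg c)
      _ = c ^ 2 * ((n + 1) * ‖x‖ ^ 2) := by ring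
      _ = 1 := hc2
  have hftest : IsTest PotentialModel.global f := by
    refine ⟨blk_pot_le n f hf_out hsq, fun A => ?_⟩
    have h1 := hsq A
    have h2 : 0 ≤ ∑ u ∈ A, f u ^ 2 := Finset.sum_nonneg (fun _ _ => sq_nonneg _)
    have h3 : (0 : ℝ) ≤ n := Nat.cast_nonneg n
    nlinarith
  let ft : TG := ⟨f, hftest⟩
  have hval : (T0 n x : Big) ft = ‖x‖ / Real.sqrt (n + 1) := by
    rw [blk_T0_apply]
    have e : tvec n ft = c • x := by
      apply lp.ext
      funext s
      rw [lp.coeFn_smul]
      exact hf_in s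
    rw [e, real_inner_smul_left, real_inner_self_eq_norm_sq, hc]
    field_simp
  have hle := lp.norm_apply_le_norm ENNReal.top_ne_zero (T0 n x) ft
  rw [hval, Real.norm_eq_abs, abs_of_pos (by positivity)] at hle
  calc ‖x‖ = Real.sqrt (n + 1) * (‖x‖ / Real.sqrt (n + 1)) := by field_simp
    _ ≤ Real.sqrt (n + 1) * ‖T0 n x‖ := mul_le_mul_of_nonneg_left hle hs.le

/-- The synthesis map as a continuous linear map. -/
noncomputable def T0c : Hn n →L[ℝ] Big :=
  (T0 n).mkContinuous 1 (fun x => by rw [one_mul]; exact blk_norm_T0_le n x)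

theorem blk_T0_mem (x : Hn n) : T0 n x ∈ B0 n := by
  classical
  have hx := lp.hasSum_single (p := 2) (by norm_num : (2 : ℝ≥0∞) ≠ ⊤) x
  have hx' := hx.mapL (T0c n)
  refine (blk_B0_isClosed n).mem_of_tendsto hx' (Filter.Eventually.of_forall (fun A => ?_))
  refine Submodule.sum_mem _ (fun i _ => ?_)
  show T0 n (lp.single 2 i (x i)) ∈ B0 n
  rw [blk_T0_single]
  exact (B0 n).smul_mem _ (blk_coord_mem_B0 n i.1 i.2)

/-- The synthesis map into the block. -/
noncomputable def Tlin : Hn n →ₗ[ℝ] ↥(block n) where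
  toFun x := mkB n (T0 n x) (blk_T0_mem n x)
  map_add' x y := by
    apply blk_iota_injective n
    rw [blk_iota_mkB, (iota n).map_add, blk_iota_mkB, blk_iota_mkB, (T0 n).map_add]
  map_smul' c x := by
    apply blk_iota_injective n
    rw [blk_iota_mkB, (iota n).map_smul, blk_iota_mkB, (T0 n).map_smul, RingHom.id_apply]

theorem blk_iota_Tlin (x : Hn n) : iota n (Tlin n x) = T0 n x := rfl

theorem blk_norm_Tlin (x : Hn n) : ‖Tlin n x‖ = ‖T0 n x‖ := rfl

/-- The synthesis map into the block, continuous. -/
noncomputable def Tc : Hn n →L[ℝ] ↥(block n) :=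
  (Tlin n).mkContinuous 1 (fun x => by rw [one_mul]; exact blk_norm_T0_le n x)

theorem blk_Tc_apply (x : Hn n) : Tc n x = Tlin n x := rfl

theorem blk_Tc_ker : (Tc n).ker = ⊥ := by
  rw [LinearMap.ker_eq_bot']
  intro x hx
  have h0 : Tlin n x = 0 := hx
  have h1 : ‖T0 n x‖ = 0 := by
    have h00 : ‖Tlin n x‖ = 0 := by rw [h0]; exact norm_zero
    exact h00
  have h2 := blk_lower n x
  rw [h1, mul_zero] at h2
  exact norm_le_zero_iff.mp h2

theorem blk_Tc_range : (Tc n).range = ⊤ := by
  rw [LinearMap.range_eq_top]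
  intro y
  have hclosed : IsClosed (Set.range (T0c n)) := by
    have hanti : AntilipschitzWith ⟨Real.sqrt (n + 1), Real.sqrt_nonneg _⟩ (T0c n) :=
      (T0c n).antilipschitz_of_bound (fun x => blk_lower n x)
    exact hanti.isClosed_range (T0c n).uniformContinuous
  have hle : B0 n ≤ LinearMap.range (T0 n) := by
    apply Submodule.topologicalClosure_minimal
    · rw [Submodule.span_le]
      rintro _ ⟨s, hs, rfl⟩
      exact ⟨lp.single 2 ⟨s, hs⟩ 1, by rw [blk_T0_single, one_smul]⟩
    · exact hclosed
  obtain ⟨x, hx⟩ := hle (blk_iota_mem n y)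
  exact ⟨x, blk_iota_injective n hx⟩

end Hilbert

/-- Each block is linearly homeomorphic to a Hilbert space (`ℓ²` over its vertices). -/
theorem block_hilbert (n : ℕ) :
    Nonempty (↥(block n) ≃L[ℝ] lp (fun _ : {s : List ℕ // s.length ≤ n} => ℝ) 2) :=
  ⟨(ContinuousLinearEquiv.ofBijective (Tc n) (blk_Tc_ker n) (blk_Tc_range n)).symm⟩

end Crest.Agent.S0166.Blocks
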