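import Crest.Agent.S0166.Basic

/-!
# Row 125: generic lemmas on closed finite-codimensional subspaces

* `cof_ker`: the kernel of a continuous linear map into a finite-dimensional space is closed
  of finite codimension; `cof_iInf_ker`: common kernel of finitely many functionals.
* `exists_near_of_sqrt_bound`: a sequence with `‖∑_{n∈B} d n‖ ≤ C √|B|` is eventually close to
  every closed finite-codimensional subspace `F`.  [Every continuous functional `φ` tends to `0`
  along `d`: otherwise `|φ (d n)| ≥ δ` with one sign for infinitely many `n`, and a set `B` of `M`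
  of them gives `M δ ≤ ‖φ‖ C √M`. In the finite-dimensional quotient `V ⧸ F` this gives
  `‖mk (d n)‖ → 0` (coordinates w.r.t. a basis are continuous functionals), and the quotient norm
  is the distance to `F`.]
* `exists_pair_near`: a bounded sequence has two terms whose difference is close to `F`
  [the images in `V ⧸ F` form a bounded sequence in a finite-dimensional (proper) space].

The proofs of `exists_near_of_sqrt_bound` and `exists_pair_near` are the universe-polymorphic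
copies of helper37's `Generic.exists_near_cof_of_sqrt_sums'` and helper96's `Diamond.pigeonhole`.
-/

set_option autoImplicit false

namespace Crest.Agent.S0166

variable {V : Type*} [NormedAddCommGroup V] [NormedSpace ℝ V]

/-- The kernel of a continuous linear map into a finite-dimensional space is closed and of
finite codimension. -/
theorem cof_ker {W : Type*} [NormedAddCommGroup W] [NormedSpace ℝ W] [FiniteDimensional ℝ W]
    (Φ : V →L[ℝ] W) :
    IsClosed ((LinearMap.ker Φ.toLinearMap : Submodule ℝ V) : Set V) ∧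
      FiniteDimensional ℝ (V ⧸ LinearMap.ker Φ.toLinearMap) := by
  refine ⟨Φ.isClosed_ker, ?_⟩
  exact (LinearMap.quotKerEquivRange Φ.toLinearMap).symm.finiteDimensional

/-- Common kernel of finitely many continuous functionals, as a closed finite-codimensional
subspace. -/
theorem cof_iInf_ker {ι : Type*} [Finite ι] (φ : ι → V →L[ℝ] ℝ) :
    ∃ F : Submodule ℝ V, IsClosed (F : Set V) ∧ FiniteDimensional ℝ (V ⧸ F) ∧
      ∀ y : V, y ∈ F ↔ ∀ i, φ i y = 0 := by
  classical
  cases nonempty_fintype ι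
  obtain ⟨hc, hf⟩ := cof_ker (ContinuousLinearMap.pi φ)
  refine ⟨LinearMap.ker (ContinuousLinearMap.pi φ).toLinearMap, hc, hf, fun y => ?_⟩
  rw [LinearMap.mem_ker]
  change ContinuousLinearMap.pi φ y = 0 ↔ _
  rw [funext_iff]
  rfl

/-- A sequence with square-root growth of all its finite sums cannot have a continuous
functional bounded below along an infinite set. -/
theorem cof_no_infinite_pos (d : ℕ → V) (C : ℝ)
    (hsq : ∀ B : Finset ℕ, ‖∑ n ∈ B, d n‖ ≤ C * Real.sqrt B.card) (g : V →L[ℝ] ℝ)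
    (δ : ℝ) (hδ : 0 < δ) (T : Set ℕ) (hT : T.Infinite) (hTg : ∀ n ∈ T, δ ≤ g (d n)) : False := by
  have hC : 0 ≤ C := by
    have := hsq {0}
    simp at this
    exact le_trans (norm_nonneg _) this
  obtain ⟨k, hk⟩ := exists_nat_gt ((‖g‖ * C / δ) ^ 2)
  obtain ⟨B, hBT, hBk⟩ := hT.exists_subset_card_eq k
  have hkpos : (0 : ℝ) < k := lt_of_le_of_lt (sq_nonneg _) hk
  have h1 : (k : ℝ) * δ ≤ ∑ n ∈ B, g (d n) := by
    have : ∑ _n ∈ B, δ ≤ ∑ n ∈ B, g (d n) :=
      Finset.sum_le_sum (fun n hn => hTg n (hBT hn))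
    simpa [hBk] using this
  have h2 : ∑ n ∈ B, g (d n) ≤ ‖g‖ * (C * Real.sqrt k) := by
    rw [← map_sum]
    calc g (∑ n ∈ B, d n) ≤ ‖g (∑ n ∈ B, d n)‖ := Real.le_norm_self _
      _ ≤ ‖g‖ * ‖∑ n ∈ B, d n‖ := g.le_opNorm _
      _ ≤ ‖g‖ * (C * Real.sqrt k) := by
          have := hsq B
          rw [hBk] at this
          gcongr
  have hsk : 0 < Real.sqrt k := Real.sqrt_pos.mpr hkpos
  have h3 : Real.sqrt k * δ ≤ ‖g‖ * C := by
    have hkk : (k : ℝ) = Real.sqrt k * Real.sqrt k := (Real.mul_self_sqrt hkpos.le).symm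
    have h4 : Real.sqrt k * (Real.sqrt k * δ) ≤ Real.sqrt k * (‖g‖ * C) := by
      calc Real.sqrt k * (Real.sqrt k * δ) = (k : ℝ) * δ := by rw [← mul_assoc, ← hkk]
        _ ≤ ‖g‖ * (C * Real.sqrt k) := le_trans h1 h2
        _ = Real.sqrt k * (‖g‖ * C) := by ring
    exact le_of_mul_le_mul_left h4 hsk
  have h5 : Real.sqrt k ≤ ‖g‖ * C / δ := by
    rw [le_div_iff₀ hδ]; exact h3
  have h6 : (k : ℝ) ≤ (‖g‖ * C / δ) ^ 2 := by
    calc (k : ℝ) = Real.sqrt k ^ 2 := (Real.sq_sqrt hkpos.le).symm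
      _ ≤ (‖g‖ * C / δ) ^ 2 := by
          exact pow_le_pow_left₀ (Real.sqrt_nonneg _) h5 2
  linarith

/-- Square estimate ⇒ every continuous functional tends to `0` along the sequence. -/
theorem cof_tendsto_clm_of_sqrt_bound (d : ℕ → V) (C : ℝ)
    (hsq : ∀ B : Finset ℕ, ‖∑ n ∈ B, d n‖ ≤ C * Real.sqrt B.card) (f : V →L[ℝ] ℝ) :
    Filter.Tendsto (fun n => f (d n)) Filter.atTop (nhds 0) := by
  rw [Metric.tendsto_atTop]
  intro δ hδ
  by_contra hcon
  have hcon' : ∀ n0, ∃ n, n0 ≤ n ∧ δ ≤ |f (d n)| := by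
    intro n0
    by_contra h
    apply hcon
    refine ⟨n0, fun n hn => ?_⟩
    rw [Real.dist_eq, sub_zero]
    by_contra h'
    exact h ⟨n, hn, not_lt.mp h'⟩
  have hinf : {n | δ ≤ |f (d n)|}.Infinite := by
    apply Set.infinite_of_not_bddAbove
    rintro ⟨M, hM⟩
    obtain ⟨n, hn, hn'⟩ := hcon' (M + 1)
    have := hM hn'
    omega
  have hsplit : {n | δ ≤ |f (d n)|} ⊆ {n | δ ≤ f (d n)} ∪ {n | δ ≤ (-f) (d n)} := by
    intro n hn
    change δ ≤ |f (d n)| at hn
    rcases le_abs.mp hn with h | h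
    · left; exact h
    · right; simpa using h
  rcases Set.infinite_union.mp (hinf.mono hsplit) with h | h
  · exact cof_no_infinite_pos d C hsq f δ hδ _ h (fun n hn => hn)
  · exact cof_no_infinite_pos d C hsq (-f) δ hδ _ h (fun n hn => hn)

/-- Square estimate ⇒ eventually close to every closed finite-codimensional subspace. -/
theorem exists_near_of_sqrt_bound (d : ℕ → V) (C : ℝ)
    (h : ∀ B : Finset ℕ, ‖∑ n ∈ B, d n‖ ≤ C * Real.sqrt B.card)
    (F : Submodule ℝ V) (hF : IsClosed (F : Set V)) (hfd : FiniteDimensional ℝ (V ⧸ F))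
    (ε : ℝ) (hε : 0 < ε) : ∃ n₀ : ℕ, ∀ n, n₀ ≤ n → ∃ y ∈ F, ‖d n - y‖ < ε := by
  have := hF
  have := hfd
  let b := Module.finBasis ℝ (V ⧸ F)
  have hcoord : ∀ i, Filter.Tendsto (fun n => b.equivFun (F.mkQ (d n)) i) Filter.atTop (nhds 0) := by
    intro i
    let g : V →L[ℝ] ℝ := (LinearMap.toContinuousLinearMap (b.coord i)).comp F.mkQL
    have := cof_tendsto_clm_of_sqrt_bound d C h g
    simpa [g] using this
  have hpi : Filter.Tendsto (fun n => b.equivFun (F.mkQ (d n))) Filter.atTop (nhds 0) :=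
    tendsto_pi_nhds.mpr hcoord
  have hcont : Continuous (b.equivFun.symm : (Fin (Module.finrank ℝ (V ⧸ F)) → ℝ) →ₗ[ℝ] V ⧸ F) :=
    LinearMap.continuous_of_finiteDimensional _
  have hq : Filter.Tendsto (fun n => F.mkQ (d n)) Filter.atTop (nhds 0) := by
    have h' := (hcont.tendsto 0).comp hpi
    have e : (⇑(b.equivFun.symm : (Fin (Module.finrank ℝ (V ⧸ F)) → ℝ) →ₗ[ℝ] V ⧸ F) ∘
        fun n => b.equivFun (F.mkQ (d n))) = fun n => F.mkQ (d n) := by
      funext n
      simp
    rw [e] at h'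
    simpa using h'
  rw [Metric.tendsto_atTop] at hq
  obtain ⟨n0, hn0⟩ := hq ε hε
  refine ⟨n0, fun n hn => ?_⟩
  have h1 := hn0 n hn
  rw [dist_zero_right] at h1
  obtain ⟨m, hm, hm'⟩ := Submodule.Quotient.norm_mk_lt (F.mkQ (d n)) (sub_pos.mpr h1)
  refine ⟨d n - m, ?_, ?_⟩
  · rw [← Submodule.Quotient.mk_eq_zero, Submodule.Quotient.mk_sub, hm]
    simp
  · have : d n - (d n - m) = m := by abel
    rw [this]
    linarith

/-- Pigeonhole: a bounded sequence has two terms whose difference is close to `F`. -/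
theorem exists_pair_near (w : ℕ → V) (R : ℝ) (hR : ∀ i, ‖w i‖ ≤ R)
    (F : Submodule ℝ V) (hF : IsClosed (F : Set V)) (hfd : FiniteDimensional ℝ (V ⧸ F))
    (ε : ℝ) (hε : 0 < ε) : ∃ i l : ℕ, i ≠ l ∧ ∃ y ∈ F, ‖w i - w l - y‖ < ε := by
  have := hF
  have : ProperSpace (V ⧸ F) := FiniteDimensional.proper ℝ (V ⧸ F)
  let q : ℕ → V ⧸ F := fun i => Submodule.Quotient.mk (w i)
  have hq : ∀ i, q i ∈ Metric.closedBall (0 : V ⧸ F) R := by
    intro i
    rw [mem_closedBall_zero_iff]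
    exact (Submodule.Quotient.norm_mk_le F (w i)).trans (hR i)
  obtain ⟨a, -, φ, hφ, hlim⟩ := tendsto_subseq_of_bounded Metric.isBounded_closedBall hq
  obtain ⟨n0, hn0⟩ := (Metric.tendsto_atTop.mp hlim) (ε / 2) (half_pos hε)
  have h1 := hn0 n0 le_rfl
  have h2 := hn0 (n0 + 1) (Nat.le_succ _)
  refine ⟨φ n0, φ (n0 + 1), (hφ (Nat.lt_succ_self n0)).ne, ?_⟩
  have h3 : ‖q (φ n0) - q (φ (n0 + 1))‖ < ε := by
    rw [← dist_eq_norm]
    calc dist (q (φ n0)) (q (φ (n0 + 1)))
        ≤ dist (q (φ n0)) a + dist (q (φ (n0 + 1))) a := dist_triangle_right _ _ _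
      _ < ε := by simp only [Function.comp] at h1 h2; linarith
  have h4 : q (φ n0) - q (φ (n0 + 1)) =
      (Submodule.Quotient.mk (w (φ n0) - w (φ (n0 + 1))) : V ⧸ F) := by
    simp only [q, Submodule.Quotient.mk_sub]
  rw [h4] at h3
  obtain ⟨z, hz, hzn⟩ := Submodule.Quotient.norm_mk_lt
    (Submodule.Quotient.mk (w (φ n0) - w (φ (n0 + 1))) : V ⧸ F) (sub_pos.mpr h3)
  have hz' : w (φ n0) - w (φ (n0 + 1)) - z ∈ F := by
    rw [← Submodule.Quotient.eq]; exact hz.symm
  refine ⟨w (φ n0) - w (φ (n0 + 1)) - z, hz', ?_⟩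
  have : w (φ n0) - w (φ (n0 + 1)) - (w (φ n0) - w (φ (n0 + 1)) - z) = z := by abel
  rw [this]; linarith

end Crest.Agent.S0166
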