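import Mathlib
import Crest.Prelude.Def_Diamond

/-!
# The diamond-distortion clause of S0166 (generic module, helper96; complete, sorry-free)

For a real Banach space satisfying the "asymptotic midpoint inequality"
`√(4‖x‖² + ‖y‖²) - η ≤ ‖x + y‖ + ‖x - y‖` for all `y` in a closed finite-codimensional subspace
(depending on `x`, `η`), every map of the depth-`k` countably branching diamond with
distortion at most `D` satisfies `1 + k/4 ≤ D²`.
-/

set_option autoImplicit false

namespace Crest.Agent.S0166.Diamond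

open Crest Crest.AnalysisR

/-! ### Graph part -/

theorem src_ne_tgt : ∀ (k : ℕ) (e : DiamondEdge k), diamondSrc k e ≠ diamondTgt k e
  | 0, _ => Bool.false_ne_true
  | k + 1, (e, i, b) => by
    cases b
    · exact Sum.inl_ne_inr
    · exact Sum.inr_ne_inl

theorem adj_iff (k : ℕ) (u v : DiamondVertex k) :
    (diamondGraph k).Adj u v ↔
      u ≠ v ∧ ((∃ e : DiamondEdge k, diamondSrc k e = u ∧ diamondTgt k e = v) ∨
        (∃ e : DiamondEdge k, diamondSrc k e = v ∧ diamondTgt k e = u)) := by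
  rw [diamondGraph, SimpleGraph.fromRel_adj]

theorem adj_src_tgt (k : ℕ) (e : DiamondEdge k) :
    (diamondGraph k).Adj (diamondSrc k e) (diamondTgt k e) := by
  rw [adj_iff]
  exact ⟨src_ne_tgt k e, Or.inl ⟨e, rfl, rfl⟩⟩

theorem adj_inl_inr (k : ℕ) (e : DiamondEdge k) (i : ℕ) :
    (diamondGraph (k + 1)).Adj (Sum.inl (diamondSrc k e)) (Sum.inr (e, i)) :=
  adj_src_tgt (k + 1) (e, i, false)

theorem adj_inr_inl (k : ℕ) (e : DiamondEdge k) (i : ℕ) :
    (diamondGraph (k + 1)).Adj (Sum.inr (e, i)) (Sum.inl (diamondTgt k e)) :=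
  adj_src_tgt (k + 1) (e, i, true)

/-- Every adjacency of `D (k+1)` joins an old vertex and a middle vertex. -/
theorem adj_succ_cases (k : ℕ) (a b : DiamondVertex (k + 1)) (h : (diamondGraph (k + 1)).Adj a b) :
    ∃ (e : DiamondEdge k) (i : ℕ),
      (a = Sum.inl (diamondSrc k e) ∧ b = Sum.inr (e, i)) ∨
      (a = Sum.inr (e, i) ∧ b = Sum.inl (diamondTgt k e)) ∨
      (b = Sum.inl (diamondSrc k e) ∧ a = Sum.inr (e, i)) ∨
      (b = Sum.inr (e, i) ∧ a = Sum.inl (diamondTgt k e)) := by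
  rw [adj_iff] at h
  obtain ⟨-, ⟨⟨e, i, b'⟩, h1, h2⟩ | ⟨⟨e, i, b'⟩, h1, h2⟩⟩ := h
  · cases b'
    · exact ⟨e, i, Or.inl ⟨h1.symm, h2.symm⟩⟩
    · exact ⟨e, i, Or.inr (Or.inl ⟨h1.symm, h2.symm⟩)⟩
  · cases b'
    · exact ⟨e, i, Or.inr (Or.inr (Or.inl ⟨h1.symm, h2.symm⟩))⟩
    · exact ⟨e, i, Or.inr (Or.inr (Or.inr ⟨h1.symm, h2.symm⟩))⟩

theorem reachable_inl (k : ℕ) {u v : DiamondVertex k} (h : (diamondGraph k).Reachable u v) :
    (diamondGraph (k + 1)).Reachable (Sum.inl u) (Sum.inl v) := by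
  obtain ⟨p⟩ := h
  induction p with
  | nil => exact SimpleGraph.Reachable.refl _
  | cons hadj _ ih =>
    refine SimpleGraph.Reachable.trans ?_ ih
    rw [adj_iff] at hadj
    obtain ⟨-, ⟨e, h1, h2⟩ | ⟨e, h1, h2⟩⟩ := hadj
    · subst h1 h2
      exact (adj_inl_inr k e 0).reachable.trans (adj_inr_inl k e 0).reachable
    · subst h1 h2
      exact (adj_inr_inl k e 0).symm.reachable.trans (adj_inl_inr k e 0).symm.reachable

instance instNonemptyEdge : ∀ k : ℕ, Nonempty (DiamondEdge k)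
  | 0 => ⟨()⟩
  | k + 1 => let ⟨e⟩ := instNonemptyEdge k; ⟨(e, 0, false)⟩

theorem connected : ∀ k : ℕ, (diamondGraph k).Connected
  | 0 => by
    have h : (diamondGraph 0).Adj false true := adj_src_tgt 0 ()
    have : Nonempty (DiamondVertex 0) := ⟨false⟩
    refine ⟨fun u v => ?_⟩
    have hu : ∀ u : DiamondVertex 0, (diamondGraph 0).Reachable false u := by
      intro u
      cases u
      · exact SimpleGraph.Reachable.refl _
      · exact h.reachable
    exact (hu u).symm.trans (hu v)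
  | k + 1 => by
    have ih := connected k
    obtain ⟨e0⟩ := instNonemptyEdge k
    have : Nonempty (DiamondVertex (k + 1)) := ⟨Sum.inl (diamondSrc k e0)⟩
    refine ⟨fun u v => ?_⟩
    have hu : ∀ u : DiamondVertex (k + 1),
        (diamondGraph (k + 1)).Reachable (Sum.inl (diamondSrc k e0)) u := by
      intro u
      rcases u with u | ⟨e, i⟩
      · exact reachable_inl k (ih.preconnected _ _)
      · exact (reachable_inl k (ih.preconnected _ _)).trans (adj_inl_inr k e i).reachable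
    exact (hu u).symm.trans (hu v)

theorem dist_src_tgt (k : ℕ) (e : DiamondEdge k) :
    diamondDist k (diamondSrc k e) (diamondTgt k e) = 1 :=
  SimpleGraph.dist_eq_one_iff_adj.mpr (adj_src_tgt k e)

theorem dist_tgt_src (k : ℕ) (e : DiamondEdge k) :
    diamondDist k (diamondTgt k e) (diamondSrc k e) = 1 := by
  rw [diamondDist, SimpleGraph.dist_comm]; exact dist_src_tgt k e

theorem two_le_dist_inr (k : ℕ) (e : DiamondEdge k) {i l : ℕ} (h : i ≠ l) :
    2 ≤ diamondDist (k + 1) (Sum.inr (e, i)) (Sum.inr (e, l)) := by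
  have hne : (Sum.inr (e, i) : DiamondVertex (k + 1)) ≠ Sum.inr (e, l) := by
    intro h'
    have := Sum.inr_injective h'
    exact h (Prod.mk.inj this).2
  have hna : ¬ (diamondGraph (k + 1)).Adj (Sum.inr (e, i)) (Sum.inr (e, l)) := by
    intro hadj
    obtain ⟨e', j, h1 | h1 | h1 | h1⟩ := adj_succ_cases k _ _ hadj
    · exact Sum.inr_ne_inl h1.1
    · exact Sum.inr_ne_inl h1.2
    · exact Sum.inr_ne_inl h1.1
    · exact Sum.inr_ne_inl h1.2
  exact (connected (k + 1)).one_lt_dist_of_ne_of_not_adj hne hna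

theorem abs_sub_le_length {V : Type*} (G : SimpleGraph V) (φ : V → ℤ)
    (hφ : ∀ a b, G.Adj a b → |φ a - φ b| ≤ 1) {a b : V} (p : G.Walk a b) :
    |φ a - φ b| ≤ p.length := by
  induction p with
  | nil => simp
  | @cons u v w hadj p ih =>
    have h1 := hφ _ _ hadj
    rw [SimpleGraph.Walk.length_cons]
    have : φ u - φ w = (φ u - φ v) + (φ v - φ w) := by ring
    rw [this]
    calc |(φ u - φ v) + (φ v - φ w)| ≤ |φ u - φ v| + |φ v - φ w| := abs_add_le _ _
      _ ≤ 1 + p.length := by linarith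
      _ = ((p.length + 1 : ℕ) : ℤ) := by push_cast; ring

theorem abs_dist_sub_dist_le (k : ℕ) (u : DiamondVertex k) (e : DiamondEdge k) :
    |(diamondDist k u (diamondSrc k e) : ℤ) - (diamondDist k u (diamondTgt k e) : ℤ)| ≤ 1 := by
  have hc := connected k
  have h1 : diamondDist k u (diamondTgt k e) ≤
      diamondDist k u (diamondSrc k e) + diamondDist k (diamondSrc k e) (diamondTgt k e) :=
    hc.dist_triangle
  have h2 : diamondDist k u (diamondSrc k e) ≤
      diamondDist k u (diamondTgt k e) + diamondDist k (diamondTgt k e) (diamondSrc k e) :=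
    hc.dist_triangle
  rw [dist_src_tgt] at h1
  rw [dist_tgt_src] at h2
  rw [abs_le]
  constructor <;> omega

theorem two_mul_dist_le (k : ℕ) (u v : DiamondVertex k) :
    2 * diamondDist k u v ≤ diamondDist (k + 1) (Sum.inl u) (Sum.inl v) := by
  let φ : DiamondVertex (k + 1) → ℤ :=
    Sum.elim (fun w => 2 * (diamondDist k u w : ℤ))
      (fun p => (diamondDist k u (diamondSrc k p.1) : ℤ) + (diamondDist k u (diamondTgt k p.1) : ℤ))
  have hφ : ∀ a b, (diamondGraph (k + 1)).Adj a b → |φ a - φ b| ≤ 1 := by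
    intro a b hadj
    obtain ⟨e, i, h1 | h1 | h1 | h1⟩ := adj_succ_cases k _ _ hadj
    · obtain ⟨rfl, rfl⟩ := h1
      have := abs_dist_sub_dist_le k u e
      simp only [φ, Sum.elim_inl, Sum.elim_inr]
      rw [abs_le] at this ⊢
      constructor <;> linarith [this.1, this.2]
    · obtain ⟨rfl, rfl⟩ := h1
      have := abs_dist_sub_dist_le k u e
      simp only [φ, Sum.elim_inl, Sum.elim_inr]
      rw [abs_le] at this ⊢
      constructor <;> linarith [this.1, this.2]
    · obtain ⟨rfl, rfl⟩ := h1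
      have := abs_dist_sub_dist_le k u e
      simp only [φ, Sum.elim_inl, Sum.elim_inr]
      rw [abs_le] at this ⊢
      constructor <;> linarith [this.1, this.2]
    · obtain ⟨rfl, rfl⟩ := h1
      have := abs_dist_sub_dist_le k u e
      simp only [φ, Sum.elim_inl, Sum.elim_inr]
      rw [abs_le] at this ⊢
      constructor <;> linarith [this.1, this.2]
  obtain ⟨p, hp⟩ := (connected (k + 1)).exists_walk_length_eq_dist (Sum.inl u) (Sum.inl v)
  have h := abs_sub_le_length (diamondGraph (k + 1)) φ hφ p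
  have h0 : diamondDist k u u = 0 := SimpleGraph.dist_self
  simp only [φ, Sum.elim_inl] at h
  rw [h0] at h
  have h' : (2 * diamondDist k u v : ℤ) ≤ p.length := by
    have := neg_abs_le ((2 : ℤ) * ((0 : ℕ) : ℤ) - 2 * (diamondDist k u v : ℤ))
    push_cast at this h ⊢
    linarith
  have h'' : 2 * diamondDist k u v ≤ p.length := by exact_mod_cast h'
  exact h''.trans hp.le

/-! ### Analytic part -/

/-- Pigeonhole in the finite-dimensional quotient: a bounded sequence has two distinct terms whose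
difference is `ε`-close to the closed finite-codimensional subspace `S`. -/
theorem pigeonhole {X : Type*} [NormedAddCommGroup X] [NormedSpace ℝ X] (S : Submodule ℝ X)
    (hS : IsClosed (S : Set X)) (hfd : FiniteDimensional ℝ (X ⧸ S)) (m : ℕ → X) (R : ℝ)
    (hm : ∀ i, ‖m i‖ ≤ R) (ε : ℝ) (hε : 0 < ε) :
    ∃ i l : ℕ, i ≠ l ∧ ∃ w ∈ S, ‖m i - m l - w‖ < ε := by
  have := hS
  have : ProperSpace (X ⧸ S) := FiniteDimensional.proper ℝ (X ⧸ S)
  let q : ℕ → X ⧸ S := fun i => Submodule.Quotient.mk (m i)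
  have hq : ∀ i, q i ∈ Metric.closedBall (0 : X ⧸ S) R := by
    intro i
    rw [mem_closedBall_zero_iff]
    exact (Submodule.Quotient.norm_mk_le S (m i)).trans (hm i)
  obtain ⟨a, -, φ, hφ, hlim⟩ := tendsto_subseq_of_bounded Metric.isBounded_closedBall hq
  obtain ⟨n0, hn0⟩ := (Metric.tendsto_atTop.mp hlim) (ε / 2) (half_pos hε)
  have h1 := hn0 n0 le_rfl
  have h2 := hn0 (n0 + 1) (Nat.le_succ _)
  refine ⟨φ n0, φ (n0 + 1), (hφ (Nat.lt_succ_self n0)).ne, ?_⟩
  have h3 : ‖q (φ n0) - q (φ (n0 + 1))‖ < ε := by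
    rw [← dist_eq_norm]
    calc dist (q (φ n0)) (q (φ (n0 + 1)))
        ≤ dist (q (φ n0)) a + dist (q (φ (n0 + 1))) a := dist_triangle_right _ _ _
      _ < ε := by simp only [Function.comp] at h1 h2; linarith
  have h4 : q (φ n0) - q (φ (n0 + 1)) =
      (Submodule.Quotient.mk (m (φ n0) - m (φ (n0 + 1))) : X ⧸ S) := by
    simp only [q, Submodule.Quotient.mk_sub]
  rw [h4] at h3
  obtain ⟨z, hz, hzn⟩ := Submodule.Quotient.norm_mk_lt
    (Submodule.Quotient.mk (m (φ n0) - m (φ (n0 + 1))) : X ⧸ S) (sub_pos.mpr h3)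
  have hz' : m (φ n0) - m (φ (n0 + 1)) - z ∈ S := by
    rw [← Submodule.Quotient.eq]; exact hz.symm
  refine ⟨m (φ n0) - m (φ (n0 + 1)) - z, hz', ?_⟩
  have : m (φ n0) - m (φ (n0 + 1)) - (m (φ n0) - m (φ (n0 + 1)) - z) = z := by abel
  rw [this]; linarith

/-- The asymptotic midpoint inequality, for a normed space, phrased with submodules. -/
def MidProp (X : Type*) [NormedAddCommGroup X] [NormedSpace ℝ X] : Prop :=
  ∀ x : X, ∀ η : ℝ, 0 < η → ∃ S : Submodule ℝ X, IsClosed (S : Set X) ∧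
    FiniteDimensional ℝ (X ⧸ S) ∧
    ∀ y ∈ S, Real.sqrt (4 * ‖x‖ ^ 2 + ‖y‖ ^ 2) - η ≤ ‖x + y‖ + ‖x - y‖

/-- One diamond: endpoints `a`, `b`, midpoints `w i`, all edges of length at most `L`, distinct
midpoints at distance at least `2s`. Then `‖b - a‖² + s² ≤ 4L²`. -/
theorem edge_step {X : Type*} [NormedAddCommGroup X] [NormedSpace ℝ X] (hM : MidProp X)
    (a b : X) (w : ℕ → X) (s L : ℝ) (hs : 0 < s) (hL : 0 ≤ L)
    (h1 : ∀ i, ‖w i - a‖ ≤ L) (h2 : ∀ i, ‖b - w i‖ ≤ L)
    (h3 : ∀ i l, i ≠ l → 2 * s ≤ ‖w i - w l‖) :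
    ‖b - a‖ ^ 2 + s ^ 2 ≤ 4 * L ^ 2 := by
  by_contra hcon
  have hcon := not_le.mp hcon
  set g : ℝ := ‖b - a‖ ^ 2 + s ^ 2 - 4 * L ^ 2 with hg
  have hgpos : 0 < g := by rw [hg]; linarith
  set C : ℝ := 2 * s + 12 * L + 8 with hC
  have hCpos : 0 < C := by rw [hC]; linarith
  set ε : ℝ := min 1 (min s (g / (2 * C))) with hε
  have hεpos : 0 < ε := by
    rw [hε]; exact lt_min one_pos (lt_min hs (div_pos hgpos (by linarith)))
  have hε1 : ε ≤ 1 := min_le_left _ _
  have hεs : ε ≤ s := (min_le_right _ _).trans (min_le_left _ _)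
  have hεg : ε * C ≤ g / 2 := by
    have h := (min_le_right 1 (min s (g / (2 * C)))).trans (min_le_right _ _)
    rw [← hε] at h
    have h' : ε * (2 * C) ≤ g := by
      rw [le_div_iff₀ (by linarith)] at h; exact h
    linarith
  set x : X := (1 / 2 : ℝ) • (b - a) with hx
  have hxn : ‖x‖ = ‖b - a‖ / 2 := by
    rw [hx, norm_smul]; simp; ring
  obtain ⟨S, hScl, hSfd, hS⟩ := hM x ε hεpos
  -- the bounded sequence
  have hmb : ∀ i, ‖w i - (1 / 2 : ℝ) • (a + b)‖ ≤ L + ‖x‖ := by
    intro i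
    have e1 : w i - (1 / 2 : ℝ) • (a + b) = (w i - a) - x := by
      rw [hx]; module
    rw [e1]
    exact (norm_sub_le _ _).trans (by linarith [h1 i])
  obtain ⟨i, l, hil, w0, hw0, hw0n⟩ :=
    pigeonhole S hScl hSfd (fun i => w i - (1 / 2 : ℝ) • (a + b)) (L + ‖x‖) hmb (2 * ε)
      (by linarith)
  set y0 : X := (1 / 2 : ℝ) • w0 with hy0
  set y : X := (1 / 2 : ℝ) • (w i - w l) with hy
  have hy0S : y0 ∈ S := S.smul_mem _ hw0
  have hyy0 : ‖y - y0‖ < ε := by
    have e1 : y - y0 = (1 / 2 : ℝ) •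
        (w i - (1 / 2 : ℝ) • (a + b) - (w l - (1 / 2 : ℝ) • (a + b)) - w0) := by
      rw [hy, hy0]; module
    rw [e1, norm_smul]
    simp only [one_div, norm_inv, Real.norm_ofNat]
    linarith
  have hyn : s ≤ ‖y‖ := by
    rw [hy, norm_smul]
    simp only [one_div, norm_inv, Real.norm_ofNat]
    linarith [h3 i l hil]
  have hxy : ‖x + y‖ ≤ L := by
    have e1 : x + y = (1 / 2 : ℝ) • ((w i - a) + (b - w l)) := by
      rw [hx, hy]; module
    rw [e1, norm_smul]
    simp only [one_div, norm_inv, Real.norm_ofNat]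
    linarith [norm_add_le (w i - a) (b - w l), h1 i, h2 l]
  have hxy' : ‖x - y‖ ≤ L := by
    have e1 : x - y = (1 / 2 : ℝ) • ((b - w i) + (w l - a)) := by
      rw [hx, hy]; module
    rw [e1, norm_smul]
    simp only [one_div, norm_inv, Real.norm_ofNat]
    linarith [norm_add_le (b - w i) (w l - a), h1 l, h2 i]
  have hxy0 : ‖x + y0‖ ≤ L + ε := by
    have e1 : x + y0 = (x + y) - (y - y0) := by abel
    rw [e1]
    exact (norm_sub_le _ _).trans (by linarith)
  have hxy0' : ‖x - y0‖ ≤ L + ε := by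
    have e1 : x - y0 = (x - y) + (y - y0) := by abel
    rw [e1]
    exact (norm_add_le _ _).trans (by linarith)
  have hy0n : s - ε ≤ ‖y0‖ := by
    have e1 : y = y0 + (y - y0) := by abel
    have := norm_add_le y0 (y - y0)
    rw [← e1] at this
    linarith
  have hkey := hS y0 hy0S
  have hsq : Real.sqrt (4 * ‖x‖ ^ 2 + ‖y0‖ ^ 2) ≤ 2 * L + 3 * ε := by linarith
  rw [Real.sqrt_le_left (by linarith)] at hsq
  rw [hxn] at hsq
  have hy0sq : (s - ε) ^ 2 ≤ ‖y0‖ ^ 2 := by
    have h0 : 0 ≤ s - ε := by linarith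
    nlinarith
  have hε2 : ε ^ 2 ≤ ε := by nlinarith
  have hfin : g ≤ ε * C := by
    rw [hg, hC]
    nlinarith
  linarith

/-- Core induction: a map of `D k` with lower Lipschitz constant `s` and all edges of length at most
`L` has `s² (1 + k/4) ≤ L²`. -/
theorem core {X : Type*} [NormedAddCommGroup X] [NormedSpace ℝ X] (hM : MidProp X) :
    ∀ (k : ℕ) (f : DiamondVertex k → X) (s L : ℝ), 0 < s → 0 ≤ L →
      (∀ u v, s * (diamondDist k u v : ℝ) ≤ ‖f u - f v‖) →
      (∀ e, ‖f (diamondTgt k e) - f (diamondSrc k e)‖ ≤ L) →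
      s ^ 2 * (1 + (k : ℝ) / 4) ≤ L ^ 2
  | 0, f, s, L, hs, _, hlow, hup => by
    obtain ⟨e0⟩ := instNonemptyEdge 0
    have h1 := hlow (diamondTgt 0 e0) (diamondSrc 0 e0)
    rw [dist_tgt_src] at h1
    have h2 := hup e0
    have h3 : s ≤ L := by push_cast at h1; linarith
    simp only [Nat.cast_zero, zero_div, add_zero, mul_one]
    nlinarith
  | k + 1, f, s, L, hs, hL, hlow, hup => by
    have hedge : ∀ e : DiamondEdge k,
        ‖f (Sum.inl (diamondTgt k e)) - f (Sum.inl (diamondSrc k e))‖ ^ 2 + s ^ 2 ≤ 4 * L ^ 2 := by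
      intro e
      refine edge_step hM (f (Sum.inl (diamondSrc k e))) (f (Sum.inl (diamondTgt k e)))
        (fun i => f (Sum.inr (e, i))) s L hs hL ?_ ?_ ?_
      · intro i; exact hup (e, i, false)
      · intro i; exact hup (e, i, true)
      · intro i l hil
        have h1 := hlow (Sum.inr (e, i)) (Sum.inr (e, l))
        have h2 := two_le_dist_inr k e hil
        have h2' : (2 : ℝ) ≤ (diamondDist (k + 1) (Sum.inr (e, i)) (Sum.inr (e, l)) : ℝ) := by
          exact_mod_cast h2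
        nlinarith
    obtain ⟨e0⟩ := instNonemptyEdge k
    have hnn : 0 ≤ 4 * L ^ 2 - s ^ 2 := by
      have := hedge e0
      nlinarith [sq_nonneg ‖f (Sum.inl (diamondTgt k e0)) - f (Sum.inl (diamondSrc k e0))‖]
    have ih := core hM k (fun u => f (Sum.inl u)) (2 * s) (Real.sqrt (4 * L ^ 2 - s ^ 2))
      (by linarith) (Real.sqrt_nonneg _) ?_ ?_
    · rw [Real.sq_sqrt hnn] at ih
      push_cast
      nlinarith
    · intro u v
      have h1 := hlow (Sum.inl u) (Sum.inl v)
      have h2 := two_mul_dist_le k u v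
      have h2' : (2 : ℝ) * (diamondDist k u v : ℝ) ≤
          (diamondDist (k + 1) (Sum.inl u) (Sum.inl v) : ℝ) := by exact_mod_cast h2
      nlinarith
    · intro e
      apply Real.le_sqrt_of_sq_le
      have := hedge e
      linarith

/-! ### The `RealBanach` wrapper -/

/-- The asymptotic midpoint inequality for a `RealBanach` record: for every `x` and `η > 0` some
closed finite-codimensional `F` has `√(4‖x‖² + ‖y‖²) - η ≤ ‖x + y‖ + ‖x - y‖` for all `y ∈ F`. -/
def MidIneq (E : RealBanach) : Prop :=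
  letI := E.normed; letI := E.space
  ∀ x : E.X, ∀ η : ℝ, 0 < η → ∃ F : Set E.X, E.IsCof F ∧
    ∀ y ∈ F, Real.sqrt (4 * ‖x‖ ^ 2 + ‖y‖ ^ 2) - η ≤ ‖x + y‖ + ‖x - y‖

theorem midProp_of_midIneq (E : RealBanach) (hM : MidIneq E) :
    @MidProp E.X E.normed E.space := by
  letI := E.normed; letI := E.space
  intro x η hη
  obtain ⟨F, ⟨S, hSF, hcl, hfd⟩, hF⟩ := hM x η hη
  refine ⟨S, ?_, hfd, ?_⟩
  · rw [hSF]; exact hcl
  · intro y hy
    exact hF y (by rw [← hSF]; exact hy)

/-- The diamond clause of S0166: under the asymptotic midpoint inequality, every map of the depth-`k`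
countably branching diamond of distortion at most `D` has `1 + k/4 ≤ D²`. -/
theorem distortion_of_midIneq (E : RealBanach) (hM : MidIneq E) (k : ℕ)
    (f : DiamondVertex k → E.X) (D : ℝ) (h : E.HasDistortionLE k f D) :
    1 + (k : ℝ) / 4 ≤ D ^ 2 := by
  letI := E.normed; letI := E.space
  obtain ⟨s, hs, hf⟩ := h
  have hup : ∀ e, ‖f (diamondTgt k e) - f (diamondSrc k e)‖ ≤ D * s := by
    intro e
    have := (hf (diamondTgt k e) (diamondSrc k e)).2
    rw [dist_tgt_src] at this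
    simpa using this
  obtain ⟨e0⟩ := instNonemptyEdge k
  have hDs : 0 ≤ D * s := (norm_nonneg _).trans (hup e0)
  have hcore := core (midProp_of_midIneq E hM) k f s (D * s) hs hDs (fun u v => (hf u v).1) hup
  have hs2 : 0 < s ^ 2 := by positivity
  by_contra hc
  have hc := not_le.mp hc
  nlinarith

end Crest.Agent.S0166.Diamond
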