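import Mathlib
import Crest.Prelude.Def_AsymptoticConvexity

/-!
# The asymptotic midpoint inequality passes to `ℓ²`-sums and to subspaces (row 125, helper74)

`MidProp X` is the "asymptotic midpoint inequality" (the "far inequality" of the row-125 plan):
for every `x` and `η > 0` there is a closed finite-codimensional subspace `S` with
`√(4‖x‖² + ‖y‖²) - η ≤ ‖x + y‖ + ‖x - y‖` for all `y ∈ S`.  The definition is a plain `def`
whose body is literally the statement, so `MidProp X` is definitionally the unfolded statement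
(`exact` converts in both directions).  This file is self-contained (Mathlib + the Prelude
definitions only) and proves

* `midProp_lp2` : an `ℓ²`-sum `lp G 2` of spaces with `MidProp` has `MidProp`;
* `midProp_submodule` : a subspace of a space with `MidProp` has `MidProp`;
* `midProp_of_linearIsometryEquiv`, `midProp_of_finiteDimensional` : isometric copies and
  finite-dimensional spaces;
* `midIneq_of_midProp` : the record form (with `E.IsCof F`);
* `moduli_of_midProp` : the three midpoint-modulus lower bounds of S0166 follow from `MidProp`.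
-/

set_option autoImplicit false
set_option linter.style.haveILetI false
set_option linter.unusedVariables false

namespace Crest.Agent.S0166.L2Mid

open Crest Crest.AnalysisR
open scoped ENNReal

/-- The asymptotic midpoint inequality, for a normed space, phrased with submodules. -/
def MidProp (X : Type*) [NormedAddCommGroup X] [NormedSpace ℝ X] : Prop :=
  ∀ x : X, ∀ η : ℝ, 0 < η → ∃ S : Submodule ℝ X, IsClosed (S : Set X) ∧
    FiniteDimensional ℝ (X ⧸ S) ∧
    ∀ y ∈ S, Real.sqrt (4 * ‖x‖ ^ 2 + ‖y‖ ^ 2) - η ≤ ‖x + y‖ + ‖x - y‖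

/-! ### Elementary real lemmas -/

/-- Minkowski's inequality for finite sums of squares. -/
theorem l2m_mink {ι : Type*} (F : Finset ι) (f g : ι → ℝ) :
    Real.sqrt (∑ i ∈ F, (f i + g i) ^ 2) ≤
      Real.sqrt (∑ i ∈ F, f i ^ 2) + Real.sqrt (∑ i ∈ F, g i ^ 2) := by
  have hA : 0 ≤ ∑ i ∈ F, f i ^ 2 := Finset.sum_nonneg fun i _ => sq_nonneg _
  have hB : 0 ≤ ∑ i ∈ F, g i ^ 2 := Finset.sum_nonneg fun i _ => sq_nonneg _
  rw [Real.sqrt_le_iff]
  refine ⟨add_nonneg (Real.sqrt_nonneg _) (Real.sqrt_nonneg _), ?_⟩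
  have hcs := Real.sum_mul_le_sqrt_mul_sqrt F f g
  have hexp : ∑ i ∈ F, (f i + g i) ^ 2 =
      ∑ i ∈ F, f i ^ 2 + 2 * ∑ i ∈ F, f i * g i + ∑ i ∈ F, g i ^ 2 := by
    rw [Finset.mul_sum, ← Finset.sum_add_distrib, ← Finset.sum_add_distrib]
    refine Finset.sum_congr rfl fun i _ => ?_
    ring
  rw [hexp, add_sq, Real.sq_sqrt hA, Real.sq_sqrt hB]
  nlinarith

/-- Three-term Minkowski with a pointwise domination. -/
theorem l2m_mink3 {ι : Type*} (F : Finset ι) (c a b e : ι → ℝ) (hc : ∀ i, 0 ≤ c i)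
    (h : ∀ i, c i ≤ a i + b i + e i) :
    Real.sqrt (∑ i ∈ F, c i ^ 2) ≤
      Real.sqrt (∑ i ∈ F, a i ^ 2) + Real.sqrt (∑ i ∈ F, b i ^ 2) +
        Real.sqrt (∑ i ∈ F, e i ^ 2) := by
  have h1 : Real.sqrt (∑ i ∈ F, c i ^ 2) ≤ Real.sqrt (∑ i ∈ F, ((a i + b i) + e i) ^ 2) := by
    apply Real.sqrt_le_sqrt
    refine Finset.sum_le_sum fun i _ => ?_
    have := hc i
    have := h i
    nlinarith
  have h2 := l2m_mink F (fun i => a i + b i) e
  have h3 := l2m_mink F a b
  linarith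

/-! ### `ℓ²`-sums -/

section lp

variable {ι : Type*} (G : ι → Type*) [∀ i, NormedAddCommGroup (G i)] [∀ i, NormedSpace ℝ (G i)]

omit [∀ i, NormedSpace ℝ (G i)] in
theorem l2m_hasSum (f : lp G 2) : HasSum (fun i => ‖f i‖ ^ 2) (‖f‖ ^ 2) := by
  have h := lp.hasSum_norm (p := 2) (by simp) f
  simpa using h

omit [∀ i, NormedSpace ℝ (G i)] in
theorem l2m_sum_le (f : lp G 2) (F : Finset ι) : ∑ i ∈ F, ‖f i‖ ^ 2 ≤ ‖f‖ ^ 2 :=
  sum_le_hasSum F (fun i _ => sq_nonneg _) (l2m_hasSum G f)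

/-- For a linear map into a finite-dimensional space the kernel has finite codimension. -/
theorem l2m_finiteDimensional_quot_ker {V W : Type*} [AddCommGroup V] [Module ℝ V]
    [AddCommGroup W] [Module ℝ W] [FiniteDimensional ℝ W] (f : V →ₗ[ℝ] W) :
    FiniteDimensional ℝ (V ⧸ LinearMap.ker f) :=
  LinearEquiv.finiteDimensional f.quotKerEquivRange.symm

/-- The `ℓ²`-sum of spaces with the asymptotic midpoint inequality has it. -/
theorem midProp_lp2 (h : ∀ i, MidProp (G i)) : MidProp (lp G 2) := by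
  classical
  intro x η hη
  -- the tail
  have hε : 0 < η ^ 2 / 8 := by positivity
  have hx := l2m_hasSum G x
  obtain ⟨T, hT⟩ : ∃ T : Finset ι, ‖x‖ ^ 2 - η ^ 2 / 8 < ∑ i ∈ T, ‖x i‖ ^ 2 := by
    have := hx.eventually (lt_mem_nhds (show ‖x‖ ^ 2 - η ^ 2 / 8 < ‖x‖ ^ 2 by linarith))
    exact this.exists
  obtain ⟨η₁, hη₁def⟩ : ∃ η₁ : ℝ, η₁ = η / (2 * ((T.card : ℝ) + 1)) := ⟨_, rfl⟩
  have hcard : (0 : ℝ) ≤ T.card := Nat.cast_nonneg _
  have hη₁ : 0 < η₁ := by rw [hη₁def]; positivity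
  have hη₁T : (T.card : ℝ) * η₁ ^ 2 ≤ η ^ 2 / 4 := by
    rw [hη₁def, div_pow, mul_pow]
    rw [← mul_div_assoc, div_le_div_iff₀ (by positivity) (by norm_num)]
    have : 0 ≤ η ^ 2 := sq_nonneg _
    nlinarith [mul_nonneg hcard this, mul_nonneg (mul_nonneg hcard hcard) this]
  choose S hScl hSfd hS using fun i => h i (x i) η₁ hη₁
  -- the subspace
  let Φ : lp G 2 →ₗ[ℝ] (∀ i : T, G i ⧸ S i) :=
    LinearMap.pi fun i => (S i).mkQ.comp (lp.evalₗ G 2 i)
  have hmem : ∀ y : lp G 2, y ∈ LinearMap.ker Φ ↔ ∀ i ∈ T, y i ∈ S i := by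
    intro y
    rw [LinearMap.mem_ker]
    constructor
    · intro hy i hi
      have := congrFun hy ⟨i, hi⟩
      simpa [Φ] using this
    · intro hy
      funext i
      simpa [Φ] using hy i i.2
  haveI : ∀ i : T, FiniteDimensional ℝ (G i ⧸ S i) := fun i => hSfd i
  refine ⟨LinearMap.ker Φ, ?_, l2m_finiteDimensional_quot_ker Φ, ?_⟩
  · have : ((LinearMap.ker Φ : Submodule ℝ (lp G 2)) : Set (lp G 2)) =
        ⋂ i ∈ T, (lp.evalCLM ℝ G 2 i) ⁻¹' (S i : Set (G i)) := by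
      ext y
      simp only [SetLike.mem_coe, Set.mem_iInter, Set.mem_preimage]
      rw [hmem]
      rfl
    rw [this]
    exact isClosed_biInter fun i _ => (hScl i).preimage (lp.evalCLM ℝ G 2 i).continuous
  · intro y hy
    rw [hmem] at hy
    have hy' := l2m_hasSum G y
    -- pointwise estimate
    have hpt : ∀ i, Real.sqrt (4 * ‖x i‖ ^ 2 + ‖y i‖ ^ 2) ≤
        ‖(x + y) i‖ + ‖(x - y) i‖ + (if i ∈ T then η₁ else 2 * ‖x i‖) := by
      intro i
      have e1 : (x + y) i = x i + y i := by rw [lp.coeFn_add]; rfl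
      have e2 : (x - y) i = x i - y i := by rw [lp.coeFn_sub]; rfl
      rw [e1, e2]
      by_cases hi : i ∈ T
      · rw [if_pos hi]
        have := hS i (y i) (hy i hi)
        linarith
      · rw [if_neg hi]
        have h1 : Real.sqrt (4 * ‖x i‖ ^ 2 + ‖y i‖ ^ 2) ≤ 2 * ‖x i‖ + ‖y i‖ := by
          rw [Real.sqrt_le_iff]
          refine ⟨by positivity, ?_⟩
          nlinarith [norm_nonneg (x i), norm_nonneg (y i)]
        have h2 : 2 * ‖y i‖ ≤ ‖x i + y i‖ + ‖x i - y i‖ := by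
          have h3 : (2 : ℝ) • y i = (x i + y i) - (x i - y i) := by
            rw [two_smul]; abel
          have h4 : ‖(2 : ℝ) • y i‖ = 2 * ‖y i‖ := by
            rw [norm_smul]; norm_num
          rw [← h4, h3]
          exact norm_sub_le _ _
        have := norm_nonneg (y i)
        linarith
    -- the error term
    have herr : ∀ F : Finset ι,
        ∑ i ∈ F, (if i ∈ T then η₁ else 2 * ‖x i‖) ^ 2 ≤ η ^ 2 := by
      intro F
      have hsplit : ∑ i ∈ F, (if i ∈ T then η₁ else 2 * ‖x i‖) ^ 2 =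
          ∑ i ∈ F.filter (· ∈ T), η₁ ^ 2 + ∑ i ∈ F.filter (¬ · ∈ T), (2 * ‖x i‖) ^ 2 := by
        rw [← Finset.sum_filter_add_sum_filter_not F (· ∈ T)]
        congr 1
        · refine Finset.sum_congr rfl fun i hi => ?_
          rw [if_pos (Finset.mem_filter.mp hi).2]
        · refine Finset.sum_congr rfl fun i hi => ?_
          rw [if_neg (Finset.mem_filter.mp hi).2]
      rw [hsplit]
      have h1 : ∑ i ∈ F.filter (· ∈ T), η₁ ^ 2 ≤ (T.card : ℝ) * η₁ ^ 2 := by
        rw [Finset.sum_const, nsmul_eq_mul]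
        have : (F.filter (· ∈ T)).card ≤ T.card :=
          Finset.card_le_card fun i hi => (Finset.mem_filter.mp hi).2
        have : ((F.filter (· ∈ T)).card : ℝ) ≤ T.card := by exact_mod_cast this
        exact mul_le_mul_of_nonneg_right this (sq_nonneg _)
      have h2 : ∑ i ∈ F.filter (¬ · ∈ T), (2 * ‖x i‖) ^ 2 ≤ η ^ 2 / 2 := by
        have hdisj : Disjoint (F.filter (¬ · ∈ T)) T := by
          rw [Finset.disjoint_left]
          intro i hi hiT
          exact (Finset.mem_filter.mp hi).2 hiT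
        have h3 := l2m_sum_le G x (F.filter (¬ · ∈ T) ∪ T)
        rw [Finset.sum_union hdisj] at h3
        have h4 : ∑ i ∈ F.filter (¬ · ∈ T), (2 * ‖x i‖) ^ 2 =
            4 * ∑ i ∈ F.filter (¬ · ∈ T), ‖x i‖ ^ 2 := by
          rw [Finset.mul_sum]
          refine Finset.sum_congr rfl fun i _ => ?_
          ring
        rw [h4]
        linarith
      linarith
    -- assemble
    have hfin : ∀ F : Finset ι, ∑ i ∈ F, (4 * ‖x i‖ ^ 2 + ‖y i‖ ^ 2) ≤
        (‖x + y‖ + ‖x - y‖ + η) ^ 2 := by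
      intro F
      have hm := l2m_mink3 F (fun i => Real.sqrt (4 * ‖x i‖ ^ 2 + ‖y i‖ ^ 2))
        (fun i => ‖(x + y) i‖) (fun i => ‖(x - y) i‖)
        (fun i => if i ∈ T then η₁ else 2 * ‖x i‖) (fun i => Real.sqrt_nonneg _) hpt
      have ha : Real.sqrt (∑ i ∈ F, ‖(x + y) i‖ ^ 2) ≤ ‖x + y‖ := by
        rw [Real.sqrt_le_iff]
        exact ⟨norm_nonneg _, l2m_sum_le G (x + y) F⟩
      have hb : Real.sqrt (∑ i ∈ F, ‖(x - y) i‖ ^ 2) ≤ ‖x - y‖ := by
        rw [Real.sqrt_le_iff]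
        exact ⟨norm_nonneg _, l2m_sum_le G (x - y) F⟩
      have he : Real.sqrt (∑ i ∈ F, (if i ∈ T then η₁ else 2 * ‖x i‖) ^ 2) ≤ η := by
        rw [Real.sqrt_le_iff]
        exact ⟨hη.le, herr F⟩
      have hc : ∑ i ∈ F, Real.sqrt (4 * ‖x i‖ ^ 2 + ‖y i‖ ^ 2) ^ 2 =
          ∑ i ∈ F, (4 * ‖x i‖ ^ 2 + ‖y i‖ ^ 2) := by
        refine Finset.sum_congr rfl fun i _ => ?_
        rw [Real.sq_sqrt (by positivity)]
      rw [hc] at hm
      have hle : Real.sqrt (∑ i ∈ F, (4 * ‖x i‖ ^ 2 + ‖y i‖ ^ 2)) ≤ ‖x + y‖ + ‖x - y‖ + η := by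
        linarith
      exact (Real.sqrt_le_iff.mp hle).2
    have hsum : HasSum (fun i => 4 * ‖x i‖ ^ 2 + ‖y i‖ ^ 2) (4 * ‖x‖ ^ 2 + ‖y‖ ^ 2) :=
      (hx.mul_left 4).add hy'
    have hle := hasSum_le_of_sum_le hsum hfin
    have hnn : 0 ≤ ‖x + y‖ + ‖x - y‖ + η := by positivity
    have : Real.sqrt (4 * ‖x‖ ^ 2 + ‖y‖ ^ 2) ≤ ‖x + y‖ + ‖x - y‖ + η := by
      rw [Real.sqrt_le_iff]
      exact ⟨hnn, hle⟩
    linarith

end lp

/-! ### Subspaces -/

/-- A subspace of a space with the asymptotic midpoint inequality has it. -/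
theorem midProp_submodule {X : Type*} [NormedAddCommGroup X] [NormedSpace ℝ X]
    (h : MidProp X) (S : Submodule ℝ X) : MidProp S := by
  intro x η hη
  obtain ⟨S₀, hcl, hfd, hS₀⟩ := h (x : X) η hη
  have hmem : ∀ y : S, y ∈ LinearMap.ker (S₀.mkQ.comp S.subtype) ↔ (y : X) ∈ S₀ := by
    intro y
    rw [LinearMap.mem_ker]
    simp
  refine ⟨LinearMap.ker (S₀.mkQ.comp S.subtype), ?_,
    l2m_finiteDimensional_quot_ker _, ?_⟩
  · have : ((LinearMap.ker (S₀.mkQ.comp S.subtype) : Submodule ℝ S) : Set S) =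
        (Subtype.val : S → X) ⁻¹' (S₀ : Set X) := by
      ext y
      simp only [SetLike.mem_coe, Set.mem_preimage]
      exact hmem y
    rw [this]
    exact hcl.preimage continuous_subtype_val
  · intro y hy
    have := hS₀ (y : X) ((hmem y).mp hy)
    simpa using this

/-! ### Isometric copies and finite-dimensional spaces -/

/-- The asymptotic midpoint inequality transfers along linear isometric equivalences. -/
theorem midProp_of_linearIsometryEquiv {X Y : Type*} [NormedAddCommGroup X] [NormedSpace ℝ X]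
    [NormedAddCommGroup Y] [NormedSpace ℝ Y] (e : X ≃ₗᵢ[ℝ] Y) (h : MidProp X) :
    MidProp Y := by
  intro y₀ η hη
  obtain ⟨S₀, hcl, hfd, hS₀⟩ := h (e.symm y₀) η hη
  have hmem : ∀ y : Y, y ∈ LinearMap.ker (S₀.mkQ.comp e.symm.toLinearEquiv.toLinearMap) ↔
      e.symm y ∈ S₀ := by
    intro y
    rw [LinearMap.mem_ker]
    simp
  refine ⟨LinearMap.ker (S₀.mkQ.comp e.symm.toLinearEquiv.toLinearMap), ?_,
    l2m_finiteDimensional_quot_ker _, ?_⟩
  · have : ((LinearMap.ker (S₀.mkQ.comp e.symm.toLinearEquiv.toLinearMap) : Submodule ℝ Y) :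
        Set Y) = (fun y => e.symm y) ⁻¹' (S₀ : Set X) := by
      ext y
      simp only [SetLike.mem_coe, Set.mem_preimage]
      exact hmem y
    rw [this]
    exact hcl.preimage e.symm.continuous
  · intro y hy
    have h1 := hS₀ (e.symm y) ((hmem y).mp hy)
    have h2 : ‖e.symm y₀ + e.symm y‖ = ‖y₀ + y‖ := by
      rw [← map_add, LinearIsometryEquiv.norm_map]
    have h3 : ‖e.symm y₀ - e.symm y‖ = ‖y₀ - y‖ := by
      rw [← map_sub, LinearIsometryEquiv.norm_map]
    rw [h2, h3, LinearIsometryEquiv.norm_map, LinearIsometryEquiv.norm_map] at h1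
    exact h1

/-- Finite-dimensional spaces trivially have the asymptotic midpoint inequality. -/
theorem midProp_of_finiteDimensional (X : Type*) [NormedAddCommGroup X] [NormedSpace ℝ X]
    [FiniteDimensional ℝ X] : MidProp X := by
  intro x η hη
  refine ⟨⊥, ?_, inferInstance, ?_⟩
  · exact Submodule.closed_of_finiteDimensional _
  · intro y hy
    rw [Submodule.mem_bot] at hy
    subst hy
    have : Real.sqrt (4 * ‖x‖ ^ 2 + ‖(0 : X)‖ ^ 2) = 2 * ‖x‖ := by
      have : (4 : ℝ) * ‖x‖ ^ 2 + ‖(0 : X)‖ ^ 2 = (2 * ‖x‖) ^ 2 := by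
        rw [norm_zero]; ring
      rw [this, Real.sqrt_sq (by positivity)]
    rw [this, add_zero, sub_zero]
    linarith

/-! ### The record forms -/

theorem midIneq_of_midProp (E : RealBanach) (h : @MidProp E.X E.normed E.space) :
    letI := E.normed; letI := E.space
    ∀ x : E.X, ∀ η : ℝ, 0 < η → ∃ F : Set E.X, E.IsCof F ∧
      ∀ y ∈ F, Real.sqrt (4 * ‖x‖ ^ 2 + ‖y‖ ^ 2) - η ≤ ‖x + y‖ + ‖x - y‖ := by
  letI := E.normed; letI := E.space
  intro x η hη
  obtain ⟨S, hcl, hfd, hS⟩ := h x η hη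
  exact ⟨(S : Set E.X), ⟨S, rfl, hcl, hfd⟩, hS⟩

/-- The key consequence: the sum of the two norms at distance `t`. -/
theorem l2m_avg (E : RealBanach) (h : @MidProp E.X E.normed E.space) (t : ℝ)
    (ht : 0 < t) :
    letI := E.normed; letI := E.space
    ∀ x : E.X, ‖x‖ = 1 → ∀ η : ℝ, 0 < η → ∃ F : Set E.X, E.IsCof F ∧
      ∀ y ∈ F, ‖y‖ = 1 →
        Real.sqrt (1 + t ^ 2 / 4) - 1 - η ≤ (‖x + t • y‖ + ‖x - t • y‖) / 2 - 1 := by
  letI := E.normed; letI := E.space
  intro x hx η hη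
  obtain ⟨S, hcl, hfd, hS⟩ := h x (2 * η) (by positivity)
  refine ⟨(S : Set E.X), ⟨S, rfl, hcl, hfd⟩, ?_⟩
  intro y hy hy1
  have h1 := hS (t • y) (S.smul_mem t hy)
  have h2 : ‖t • y‖ = t := by
    rw [norm_smul, hy1, mul_one, Real.norm_of_nonneg ht.le]
  rw [hx, h2] at h1
  have h3 : Real.sqrt (4 * 1 ^ 2 + t ^ 2) = 2 * Real.sqrt (1 + t ^ 2 / 4) := by
    have : (4 : ℝ) * 1 ^ 2 + t ^ 2 = 2 ^ 2 * (1 + t ^ 2 / 4) := by ring
    rw [this, Real.sqrt_mul (by positivity), Real.sqrt_sq (by norm_num)]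
  rw [h3] at h1
  linarith

/-- The three midpoint-modulus lower bounds of S0166 follow from the asymptotic midpoint
inequality. -/
theorem moduli_of_midProp (E : RealBanach) (h : @MidProp E.X E.normed E.space) (t : ℝ)
    (ht : 0 < t) :
    E.MidpointModulusGE E.norm t (Real.sqrt (1 + t ^ 2 / 12) - 1) ∧
      E.MidpointModulusGE E.norm t ((Real.sqrt (1 + t ^ 2 / 4) - 1) / 2) ∧
      E.MaxMidpointModulusGE E.norm t (Real.sqrt (1 + t ^ 2 / 4) - 1) := by
  have key := l2m_avg E h t ht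
  have hs1 : (1 : ℝ) ≤ Real.sqrt (1 + t ^ 2 / 4) := by
    apply Real.le_sqrt_of_sq_le
    have : 0 ≤ t ^ 2 := sq_nonneg _
    linarith
  have hs2 : Real.sqrt (1 + t ^ 2 / 12) ≤ Real.sqrt (1 + t ^ 2 / 4) := by
    apply Real.sqrt_le_sqrt
    have : 0 ≤ t ^ 2 := sq_nonneg _
    linarith
  letI := E.normed; letI := E.space
  refine ⟨?_, ?_, ?_⟩
  · intro x hx η hη
    obtain ⟨F, hF, hFy⟩ := key x hx η hη
    refine ⟨F, hF, fun y hy hy1 => ?_⟩
    have := hFy y hy hy1
    show _ ≤ (‖x + t • y‖ + ‖x - t • y‖) / 2 - 1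
    linarith
  · intro x hx η hη
    obtain ⟨F, hF, hFy⟩ := key x hx η hη
    refine ⟨F, hF, fun y hy hy1 => ?_⟩
    have := hFy y hy hy1
    show _ ≤ (‖x + t • y‖ + ‖x - t • y‖) / 2 - 1
    linarith
  · intro x hx η hη
    obtain ⟨F, hF, hFy⟩ := key x hx η hη
    refine ⟨F, hF, fun y hy hy1 => ?_⟩
    have := hFy y hy hy1
    show _ ≤ max ‖x + t • y‖ ‖x - t • y‖ - 1
    have h1 := le_max_left ‖x + t • y‖ ‖x - t • y‖
    have h2 := le_max_right ‖x + t • y‖ ‖x - t • y‖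
    linarith

end Crest.Agent.S0166.L2Mid
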