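import Mathlib
import Crest.Prelude.Def_AsymptoticConvexity

/-!
# Generic reflexivity lemmas (for the reflexivity clause of S0166)

* `IsRefl X`: the canonical embedding of `X` into its bidual is surjective.
* `isRefl_of_equiv`: a space continuously linearly isomorphic to a reflexive space is reflexive.
* `isRefl_hilbert`: real Hilbert spaces are reflexive.
* `isRefl_submodule`: closed subspaces of reflexive spaces are reflexive.
* `isRefl_lp2`: the `ℓ²`-sum (`lp G 2`) of reflexive spaces is reflexive.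
-/

set_option autoImplicit false

namespace Crest.Agent.S0166.Refl

open Crest Crest.AnalysisR
open scoped ENNReal

/-- Reflexivity: the canonical embedding into the bidual is surjective. -/
def IsRefl (X : Type*) [NormedAddCommGroup X] [NormedSpace ℝ X] : Prop :=
  Function.Surjective (NormedSpace.inclusionInDoubleDual ℝ X)

section basic

variable {X Y : Type*} [NormedAddCommGroup X] [NormedSpace ℝ X]
  [NormedAddCommGroup Y] [NormedSpace ℝ Y]

theorem isRefl_iff :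
    IsRefl X ↔ ∀ Ψ : StrongDual ℝ (StrongDual ℝ X), ∃ x : X, ∀ φ : StrongDual ℝ X, Ψ φ = φ x := by
  constructor
  · intro h Ψ
    obtain ⟨x, hx⟩ := h Ψ
    exact ⟨x, fun φ => by rw [← hx, NormedSpace.dual_def]⟩
  · intro h Ψ
    obtain ⟨x, hx⟩ := h Ψ
    exact ⟨x, by ext φ; rw [NormedSpace.dual_def, hx]⟩

/-- A space isomorphic to a reflexive space is reflexive. -/
theorem isRefl_of_equiv (e : X ≃L[ℝ] Y) (hY : IsRefl Y) : IsRefl X := by
  rw [isRefl_iff] at hY ⊢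
  intro Ψ
  obtain ⟨y, hy⟩ := hY (Ψ.comp (ContinuousLinearMap.precomp ℝ (e : X →L[ℝ] Y)))
  refine ⟨e.symm y, fun φ => ?_⟩
  have h1 := hy (φ.comp (e.symm : Y →L[ℝ] X))
  simp only [ContinuousLinearMap.comp_apply, ContinuousLinearMap.precomp_apply] at h1
  have h2 : (φ.comp (e.symm : Y →L[ℝ] X)).comp (e : X →L[ℝ] Y) = φ := by
    ext x; simp
  rw [h2] at h1
  rw [h1]; simp

/-- Real Hilbert spaces are reflexive. -/
theorem isRefl_hilbert (H : Type*) [NormedAddCommGroup H] [InnerProductSpace ℝ H]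
    [CompleteSpace H] : IsRefl H := by
  rw [isRefl_iff]
  intro Ψ
  let ℓ₀ : H →ₗ[ℝ] ℝ :=
    { toFun := fun y => Ψ (InnerProductSpace.toDual ℝ H y)
      map_add' := fun a b => by simp [map_add]
      map_smul' := fun c a => by simp }
  have hb : ∀ y, ‖ℓ₀ y‖ ≤ ‖Ψ‖ * ‖y‖ := by
    intro y
    calc ‖ℓ₀ y‖ ≤ ‖Ψ‖ * ‖InnerProductSpace.toDual ℝ H y‖ := Ψ.le_opNorm _
      _ = ‖Ψ‖ * ‖y‖ := by rw [LinearIsometryEquiv.norm_map]
  let ℓ : H →L[ℝ] ℝ := ℓ₀.mkContinuous ‖Ψ‖ hb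
  refine ⟨(InnerProductSpace.toDual ℝ H).symm ℓ, fun φ => ?_⟩
  obtain ⟨y, rfl⟩ := (InnerProductSpace.toDual ℝ H).surjective φ
  have h1 : ℓ y = Ψ (InnerProductSpace.toDual ℝ H y) := rfl
  rw [← h1]
  conv_lhs => rw [← (InnerProductSpace.toDual ℝ H).apply_symm_apply ℓ]
  rw [InnerProductSpace.toDual_apply_apply, InnerProductSpace.toDual_apply_apply, real_inner_comm]

/-- Closed subspaces of reflexive spaces are reflexive. -/
theorem isRefl_submodule (S : Submodule ℝ Y) (hS : IsClosed (S : Set Y)) (hY : IsRefl Y) :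
    IsRefl S := by
  rw [isRefl_iff] at hY ⊢
  intro Ψ
  obtain ⟨y, hy⟩ := hY (Ψ.comp (ContinuousLinearMap.precomp ℝ S.subtypeL))
  have hyS : y ∈ S := by
    by_contra hne
    obtain ⟨f, u, hfu, hu⟩ := geometric_hahn_banach_point_closed S.convex hS hne
    have hu0 : u < 0 := by simpa using hu 0 S.zero_mem
    have hf0 : ∀ b ∈ S, f b = 0 := by
      intro b hb
      by_contra hfb
      have := hu ((u / f b) • b) (S.smul_mem _ hb)
      rw [map_smul, smul_eq_mul, div_mul_cancel₀ _ hfb] at this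
      exact lt_irrefl _ this
    have h1 := hy f
    have h2 : (ContinuousLinearMap.precomp ℝ S.subtypeL) f = 0 := by
      ext s; simp [hf0 s s.2]
    simp only [ContinuousLinearMap.comp_apply] at h1
    rw [h2, map_zero] at h1
    linarith
  refine ⟨⟨y, hyS⟩, fun ξ => ?_⟩
  obtain ⟨η, hη, -⟩ := exists_extension_norm_eq S ξ
  have h1 := hy η
  have h2 : (ContinuousLinearMap.precomp ℝ S.subtypeL) η = ξ := by
    ext s; simpa using hη s
  simp only [ContinuousLinearMap.comp_apply] at h1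
  rw [h2] at h1
  rw [h1]; exact hη ⟨y, hyS⟩

theorem le_sq_of_le_mul_sqrt {S c : ℝ} (hS : 0 ≤ S) (hc : 0 ≤ c) (h : S ≤ c * Real.sqrt S) :
    S ≤ c ^ 2 := by
  rcases hS.eq_or_lt with h0 | hpos
  · rw [← h0]; positivity
  · have hs : 0 < Real.sqrt S := Real.sqrt_pos.mpr hpos
    have h1 : Real.sqrt S * Real.sqrt S = S := Real.mul_self_sqrt hS
    have h2 : Real.sqrt S ≤ c := by
      by_contra hlt
      have hlt := not_le.mp hlt
      nlinarith
    nlinarith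

theorem exists_norming (ψ : X →L[ℝ] ℝ) {δ : ℝ} (hδ : 0 < δ) :
    ∃ y : X, ‖y‖ ≤ 1 ∧ ‖ψ‖ - δ ≤ ψ y := by
  obtain ⟨x, hx1, hx2⟩ := ψ.exists_lt_apply_of_lt_opNorm (r := ‖ψ‖ - δ) (by linarith)
  rw [Real.norm_eq_abs] at hx2
  rcases le_total 0 (ψ x) with h | h
  · exact ⟨x, hx1.le, by rw [abs_of_nonneg h] at hx2; exact hx2.le⟩
  · refine ⟨-x, by rw [norm_neg]; exact hx1.le, ?_⟩
    rw [abs_of_nonpos h] at hx2
    rw [map_neg]; exact hx2.le

end basic

section lp2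

variable {ι : Type*} (G : ι → Type*) [∀ i, NormedAddCommGroup (G i)] [∀ i, NormedSpace ℝ (G i)]

theorem evalCLM_apply (i : ι) (y : lp G 2) : lp.evalCLM ℝ G 2 i y = y i := rfl

omit [∀ i, NormedSpace ℝ (G i)] in
theorem sum_sq_le (y : lp G 2) (s : Finset ι) : ∑ i ∈ s, ‖y i‖ ^ 2 ≤ ‖y‖ ^ 2 := by
  have h := lp.sum_rpow_le_norm_rpow (p := 2) (by simp) y s
  simpa [Real.rpow_two] using h

omit [∀ i, NormedSpace ℝ (G i)] in
theorem norm_sum_single_sq [DecidableEq ι] (f : ∀ i, G i) (s : Finset ι) :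
    ‖∑ i ∈ s, lp.single 2 i (f i)‖ ^ 2 = ∑ i ∈ s, ‖f i‖ ^ 2 := by
  have h := lp.norm_sum_single (p := 2) (by simp) f s
  simpa [Real.rpow_two] using h

omit [∀ i, NormedSpace ℝ (G i)] in
theorem sum_mul_norm_le (a : ι → ℝ) (y : lp G 2) (s : Finset ι) :
    ∑ i ∈ s, a i * ‖y i‖ ≤ Real.sqrt (∑ i ∈ s, a i ^ 2) * ‖y‖ := by
  calc ∑ i ∈ s, a i * ‖y i‖
      ≤ Real.sqrt (∑ i ∈ s, a i ^ 2) * Real.sqrt (∑ i ∈ s, ‖y i‖ ^ 2) :=
        Real.sum_mul_le_sqrt_mul_sqrt s a (fun i => ‖y i‖)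
    _ ≤ Real.sqrt (∑ i ∈ s, a i ^ 2) * ‖y‖ := by
        gcongr
        exact Real.sqrt_le_iff.mpr ⟨norm_nonneg _, sum_sq_le G y s⟩

/-- The coordinate functionals of a functional on the `ℓ²`-sum are square summable, with sum at
most `‖φ‖²`. -/
theorem dual_sq_sum_le [DecidableEq ι] (φ : lp G 2 →L[ℝ] ℝ) (s : Finset ι) :
    ∑ i ∈ s, ‖φ.comp (lp.singleContinuousLinearMap ℝ G 2 i)‖ ^ 2 ≤ ‖φ‖ ^ 2 := by
  set a : ι → ℝ := fun i => ‖φ.comp (lp.singleContinuousLinearMap ℝ G 2 i)‖ with ha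
  have ha0 : ∀ i, 0 ≤ a i := fun i => norm_nonneg _
  set S := ∑ i ∈ s, a i ^ 2 with hS
  have hS0 : 0 ≤ S := Finset.sum_nonneg fun i _ => sq_nonneg _
  refine le_sq_of_le_mul_sqrt hS0 (norm_nonneg φ) ?_
  apply le_of_forall_pos_le_add
  intro ε hε
  set T := ∑ i ∈ s, a i with hT
  have hT0 : 0 ≤ T := Finset.sum_nonneg fun i _ => ha0 i
  set δ := ε / (T + 1) with hδ
  have hδpos : 0 < δ := div_pos hε (by linarith)
  have hex : ∀ i, ∃ y : G i, ‖y‖ ≤ 1 ∧
      a i - δ ≤ (φ.comp (lp.singleContinuousLinearMap ℝ G 2 i)) y :=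
    fun i => exists_norming _ hδpos
  choose y hy1 hy2 using hex
  set Y : lp G 2 := ∑ i ∈ s, lp.single 2 i (a i • y i) with hY
  have hYn : ‖Y‖ ≤ Real.sqrt S := by
    apply Real.le_sqrt_of_sq_le
    rw [hY, norm_sum_single_sq G (fun i => a i • y i) s]
    apply Finset.sum_le_sum
    intro i _
    rw [norm_smul, Real.norm_of_nonneg (ha0 i), mul_pow]
    have h1 : ‖y i‖ ^ 2 ≤ 1 := by have := hy1 i; nlinarith [norm_nonneg (y i)]
    nlinarith [sq_nonneg (a i)]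
  have hφY : φ Y = ∑ i ∈ s, a i * (φ.comp (lp.singleContinuousLinearMap ℝ G 2 i)) (y i) := by
    rw [hY, map_sum]
    apply Finset.sum_congr rfl
    intro i _
    rw [lp.single_smul, map_smul, smul_eq_mul]
    rfl
  have h1 : S - ε ≤ φ Y := by
    rw [hφY]
    have h2 : ∀ i ∈ s, a i * (a i - δ) ≤
        a i * (φ.comp (lp.singleContinuousLinearMap ℝ G 2 i)) (y i) :=
      fun i _ => mul_le_mul_of_nonneg_left (hy2 i) (ha0 i)
    have h3 : ∑ i ∈ s, a i * (a i - δ) = S - δ * T := by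
      rw [hS, hT, Finset.mul_sum, ← Finset.sum_sub_distrib]
      apply Finset.sum_congr rfl; intro i _; ring
    have h4 : δ * T ≤ ε := by
      rw [hδ, div_mul_eq_mul_div, div_le_iff₀ (by linarith)]
      nlinarith
    calc S - ε ≤ S - δ * T := by linarith
      _ = ∑ i ∈ s, a i * (a i - δ) := h3.symm
      _ ≤ _ := Finset.sum_le_sum h2
  have h5 : φ Y ≤ ‖φ‖ * Real.sqrt S := by
    calc φ Y ≤ ‖φ Y‖ := Real.le_norm_self _
      _ ≤ ‖φ‖ * ‖Y‖ := φ.le_opNorm _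
      _ ≤ ‖φ‖ * Real.sqrt S := by gcongr
  linarith

/-- Conversely the norm of a functional on the `ℓ²`-sum is bounded by the `ℓ²` norm of its
coordinate functionals. -/
theorem dual_norm_le_of_sq_sum_le [DecidableEq ι] (φ : lp G 2 →L[ℝ] ℝ) (C : ℝ) (hC : 0 ≤ C)
    (h : ∀ s : Finset ι, ∑ i ∈ s, ‖φ.comp (lp.singleContinuousLinearMap ℝ G 2 i)‖ ^ 2 ≤ C ^ 2) :
    ‖φ‖ ≤ C := by
  apply ContinuousLinearMap.opNorm_le_bound _ hC
  intro y
  have hsum : HasSum (fun i => φ (lp.single 2 i (y i))) (φ y) :=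
    (lp.hasSum_single (by simp) y).mapL φ
  have hpart : ∀ s : Finset ι, |∑ i ∈ s, φ (lp.single 2 i (y i))| ≤ C * ‖y‖ := by
    intro s
    calc |∑ i ∈ s, φ (lp.single 2 i (y i))| ≤ ∑ i ∈ s, |φ (lp.single 2 i (y i))| :=
          Finset.abs_sum_le_sum_abs _ _
      _ ≤ ∑ i ∈ s, ‖φ.comp (lp.singleContinuousLinearMap ℝ G 2 i)‖ * ‖y i‖ := by
          apply Finset.sum_le_sum; intro i _
          exact (φ.comp (lp.singleContinuousLinearMap ℝ G 2 i)).le_opNorm (y i)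
      _ ≤ Real.sqrt (∑ i ∈ s, ‖φ.comp (lp.singleContinuousLinearMap ℝ G 2 i)‖ ^ 2) * ‖y‖ :=
          sum_mul_norm_le G _ y s
      _ ≤ C * ‖y‖ := by
          gcongr
          exact Real.sqrt_le_iff.mpr ⟨hC, h s⟩
  rw [Real.norm_eq_abs]
  exact abs_le.mpr ⟨le_hasSum_of_le_sum hsum (fun s => (abs_le.mp (hpart s)).1),
    hasSum_le_of_sum_le hsum (fun s => (abs_le.mp (hpart s)).2)⟩

/-- The finite coordinate truncations of a functional on the `ℓ²`-sum converge to it in norm. -/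
theorem exists_tail_small [DecidableEq ι] (φ : lp G 2 →L[ℝ] ℝ) {ε : ℝ} (hε : 0 < ε) :
    ∃ s : Finset ι, ‖φ - ∑ i ∈ s,
      (φ.comp (lp.singleContinuousLinearMap ℝ G 2 i)).comp (lp.evalCLM ℝ G 2 i)‖ ≤ ε := by
  set a : ι → ℝ := fun i => ‖φ.comp (lp.singleContinuousLinearMap ℝ G 2 i)‖ with ha
  have hsum : Summable (fun i => a i ^ 2) :=
    summable_of_sum_le (fun i => sq_nonneg _) (dual_sq_sum_le G φ)
  have hT := hsum.hasSum
  set T := ∑' i, a i ^ 2 with hTdef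
  have htend : Filter.Tendsto (fun s : Finset ι => ∑ i ∈ s, a i ^ 2) Filter.atTop (nhds T) := hT
  obtain ⟨s, hs⟩ := (htend.eventually (lt_mem_nhds (show T - ε ^ 2 < T by nlinarith))).exists
  refine ⟨s, ?_⟩
  apply dual_norm_le_of_sq_sum_le G _ ε hε.le
  intro u
  have hcoord : ∀ i, ‖(φ - ∑ j ∈ s,
      (φ.comp (lp.singleContinuousLinearMap ℝ G 2 j)).comp (lp.evalCLM ℝ G 2 j)).comp
        (lp.singleContinuousLinearMap ℝ G 2 i)‖ = if i ∈ s then 0 else a i := by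
    intro i
    split_ifs with hi
    · have h0 : (φ - ∑ j ∈ s,
          (φ.comp (lp.singleContinuousLinearMap ℝ G 2 j)).comp (lp.evalCLM ℝ G 2 j)).comp
            (lp.singleContinuousLinearMap ℝ G 2 i) = 0 := by
        ext g
        simp only [ContinuousLinearMap.comp_apply, sub_apply,
          sum_apply, lp.singleContinuousLinearMap_apply,
          zero_apply, evalCLM_apply]
        rw [Finset.sum_eq_single_of_mem i hi]
        · rw [lp.single_apply_self]; simp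
        · intro j _ hji
          rw [lp.single_apply_ne 2 i g hji, lp.single_zero, map_zero]
      rw [h0, norm_zero]
    · have h0 : (φ - ∑ j ∈ s,
          (φ.comp (lp.singleContinuousLinearMap ℝ G 2 j)).comp (lp.evalCLM ℝ G 2 j)).comp
            (lp.singleContinuousLinearMap ℝ G 2 i) =
          φ.comp (lp.singleContinuousLinearMap ℝ G 2 i) := by
        ext g
        simp only [ContinuousLinearMap.comp_apply, sub_apply,
          sum_apply, lp.singleContinuousLinearMap_apply, evalCLM_apply]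
        rw [Finset.sum_eq_zero, sub_zero]
        intro j hj
        have hji : j ≠ i := fun h => hi (h ▸ hj)
        rw [lp.single_apply_ne 2 i g hji, lp.single_zero, map_zero]
      rw [h0]
  have hstep : ∀ i ∈ u, ‖(φ - ∑ j ∈ s,
      (φ.comp (lp.singleContinuousLinearMap ℝ G 2 j)).comp (lp.evalCLM ℝ G 2 j)).comp
        (lp.singleContinuousLinearMap ℝ G 2 i)‖ ^ 2 = if i ∈ s then 0 else a i ^ 2 := by
    intro i _
    rw [hcoord i]
    split_ifs <;> simp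
  rw [Finset.sum_congr rfl hstep]
  have h1 : ∑ i ∈ u, (if i ∈ s then 0 else a i ^ 2) = ∑ i ∈ u \ s, a i ^ 2 := by
    rw [← Finset.sum_inter_add_sum_sdiff u s]
    have h2 : ∑ i ∈ u ∩ s, (if i ∈ s then 0 else a i ^ 2) = 0 := by
      apply Finset.sum_eq_zero
      intro i hi
      rw [if_pos (Finset.mem_inter.mp hi).2]
    have h3 : ∑ i ∈ u \ s, (if i ∈ s then 0 else a i ^ 2) = ∑ i ∈ u \ s, a i ^ 2 := by
      apply Finset.sum_congr rfl
      intro i hi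
      rw [if_neg (Finset.mem_sdiff.mp hi).2]
    rw [h2, h3, zero_add]
  rw [h1]
  have h4 : ∑ i ∈ u \ s, a i ^ 2 + ∑ i ∈ s, a i ^ 2 ≤ T := by
    rw [← Finset.sum_union Finset.sdiff_disjoint]
    exact sum_le_hasSum _ (fun i _ => sq_nonneg _) hT
  linarith

/-- The `ℓ²`-sum of reflexive spaces is reflexive. -/
theorem isRefl_lp2 (h : ∀ i, IsRefl (G i)) : IsRefl (lp G 2) := by
  classical
  rw [isRefl_iff]
  intro Ψ
  have hx : ∀ i, ∃ x : G i, ∀ ψ : G i →L[ℝ] ℝ, Ψ (ψ.comp (lp.evalCLM ℝ G 2 i)) = ψ x := by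
    intro i
    obtain ⟨x, hx⟩ := (isRefl_iff.mp (h i))
      (Ψ.comp (ContinuousLinearMap.precomp ℝ (lp.evalCLM ℝ G 2 i)))
    exact ⟨x, fun ψ => by simpa using hx ψ⟩
  choose x hx using hx
  have hB1 : ∀ s : Finset ι, ∑ i ∈ s, ‖x i‖ ^ 2 ≤ ‖Ψ‖ ^ 2 := by
    intro s
    set S := ∑ i ∈ s, ‖x i‖ ^ 2 with hS
    have hS0 : 0 ≤ S := Finset.sum_nonneg fun i _ => sq_nonneg _
    refine le_sq_of_le_mul_sqrt hS0 (norm_nonneg Ψ) ?_
    have hψ : ∀ i, ∃ g : G i →L[ℝ] ℝ, ‖g‖ ≤ 1 ∧ g (x i) = ‖x i‖ := fun i => by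
      obtain ⟨g, hg1, hg2⟩ := exists_dual_vector'' ℝ (x i)
      exact ⟨g, hg1, by simpa using hg2⟩
    choose ψ hψ1 hψ2 using hψ
    set φ0 : lp G 2 →L[ℝ] ℝ := ∑ i ∈ s, ‖x i‖ • (ψ i).comp (lp.evalCLM ℝ G 2 i) with hφ0
    have hΨφ0 : Ψ φ0 = S := by
      rw [hφ0, map_sum, hS]
      apply Finset.sum_congr rfl
      intro i _
      rw [map_smul, hx i (ψ i), hψ2 i, smul_eq_mul]; ring
    have hφ0n : ‖φ0‖ ≤ Real.sqrt S := by
      apply ContinuousLinearMap.opNorm_le_bound _ (Real.sqrt_nonneg _)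
      intro y
      have e1 : φ0 y = ∑ i ∈ s, ‖x i‖ * ψ i (y i) := by
        rw [hφ0, sum_apply]
        apply Finset.sum_congr rfl
        intro i _
        rfl
      rw [e1]
      calc ‖∑ i ∈ s, ‖x i‖ * ψ i (y i)‖ ≤ ∑ i ∈ s, ‖‖x i‖ * ψ i (y i)‖ := norm_sum_le _ _
        _ ≤ ∑ i ∈ s, ‖x i‖ * ‖y i‖ := by
            apply Finset.sum_le_sum; intro i _
            rw [norm_mul, norm_norm]
            apply mul_le_mul_of_nonneg_left _ (norm_nonneg _)
            calc ‖ψ i (y i)‖ ≤ ‖ψ i‖ * ‖y i‖ := (ψ i).le_opNorm _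
              _ ≤ 1 * ‖y i‖ := by gcongr; exact hψ1 i
              _ = ‖y i‖ := one_mul _
        _ ≤ Real.sqrt (∑ i ∈ s, ‖x i‖ ^ 2) * ‖y‖ := sum_mul_norm_le G (fun i => ‖x i‖) y s
    calc S = Ψ φ0 := hΨφ0.symm
      _ ≤ ‖Ψ φ0‖ := Real.le_norm_self _
      _ ≤ ‖Ψ‖ * ‖φ0‖ := Ψ.le_opNorm _
      _ ≤ ‖Ψ‖ * Real.sqrt S := by gcongr
  have hmem : Memℓp x 2 := by
    apply memℓp_gen' (C := ‖Ψ‖ ^ 2)
    intro s
    simpa [Real.rpow_two] using hB1 s
  let X : lp G 2 := ⟨x, hmem⟩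
  refine ⟨X, fun φ => ?_⟩
  have hcoord : ∀ i (ψ : G i →L[ℝ] ℝ),
      Ψ (ψ.comp (lp.evalCLM ℝ G 2 i)) = (ψ.comp (lp.evalCLM ℝ G 2 i)) X := by
    intro i ψ; rw [hx i ψ]; rfl
  have hkey : ∀ ε : ℝ, 0 < ε → |Ψ φ - φ X| ≤ ε * (‖Ψ‖ + ‖X‖) := by
    intro ε hε
    obtain ⟨s, hs⟩ := exists_tail_small G φ hε
    set φs : lp G 2 →L[ℝ] ℝ := ∑ i ∈ s,
      (φ.comp (lp.singleContinuousLinearMap ℝ G 2 i)).comp (lp.evalCLM ℝ G 2 i) with hφs
    have e1 : Ψ φs = φs X := by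
      rw [hφs, map_sum, sum_apply]
      apply Finset.sum_congr rfl
      intro i _
      exact hcoord i _
    have e2 : Ψ φ - φ X = Ψ (φ - φs) - (φ - φs) X := by
      rw [map_sub, sub_apply, e1]; ring
    rw [e2]
    calc |Ψ (φ - φs) - (φ - φs) X| ≤ |Ψ (φ - φs)| + |(φ - φs) X| := abs_sub _ _
      _ ≤ ‖Ψ‖ * ‖φ - φs‖ + ‖φ - φs‖ * ‖X‖ :=
          add_le_add (Ψ.le_opNorm _) ((φ - φs).le_opNorm _)
      _ ≤ ‖Ψ‖ * ε + ε * ‖X‖ := by gcongr
      _ = ε * (‖Ψ‖ + ‖X‖) := by ring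
  have hfin : |Ψ φ - φ X| ≤ 0 := by
    apply le_of_forall_pos_le_add
    intro ε' hε'
    have hpos : 0 < ‖Ψ‖ + ‖X‖ + 1 := by positivity
    have := hkey (ε' / (‖Ψ‖ + ‖X‖ + 1)) (div_pos hε' hpos)
    have h2 : ε' / (‖Ψ‖ + ‖X‖ + 1) * (‖Ψ‖ + ‖X‖) ≤ ε' := by
      rw [div_mul_eq_mul_div, div_le_iff₀ hpos]
      nlinarith [norm_nonneg Ψ, norm_nonneg X]
    linarith
  have := abs_nonpos_iff.mp hfin
  linarith

end lp2

/-! ### `RealBanach` wrappers -/

theorem isReflexive_iff (E : RealBanach) :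
    E.IsReflexive ↔ @IsRefl E.X E.normed E.space := Iff.rfl

theorem isReflexive_mk {X : Type} [NormedAddCommGroup X] [NormedSpace ℝ X] [CompleteSpace X]
    (h : IsRefl X) : (⟨X, inferInstance, inferInstance, inferInstance⟩ : RealBanach).IsReflexive :=
  h

end Crest.Agent.S0166.Refl

/-! ### The skeleton's names (row 125 driver's statements, namespace `Crest.Agent.S0166`) -/

namespace Crest.Agent.S0166

open NormedSpace

theorem reflexive_of_hilbert (H : Type*) [NormedAddCommGroup H] [InnerProductSpace ℝ H]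
    [CompleteSpace H] : Function.Surjective (inclusionInDoubleDual ℝ H) :=
  Refl.isRefl_hilbert H

theorem reflexive_of_equiv {X Y : Type*} [NormedAddCommGroup X] [NormedSpace ℝ X]
    [NormedAddCommGroup Y] [NormedSpace ℝ Y] (e : X ≃L[ℝ] Y)
    (h : Function.Surjective (inclusionInDoubleDual ℝ Y)) :
    Function.Surjective (inclusionInDoubleDual ℝ X) :=
  Refl.isRefl_of_equiv e h

theorem reflexive_lp_two {ι : Type*} (G : ι → Type*) [∀ i, NormedAddCommGroup (G i)]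
    [∀ i, NormedSpace ℝ (G i)]
    (h : ∀ i, Function.Surjective (inclusionInDoubleDual ℝ (G i))) :
    Function.Surjective (inclusionInDoubleDual ℝ (lp G 2)) :=
  Refl.isRefl_lp2 G h

end Crest.Agent.S0166
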