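import Crest.Agent.S0166.Reflexive
import Crest.Agent.S0168.Tests

/-!
# Row 125 / S0166: the summands `Gsub n`

`Gsub n` is the closed linear span, inside the Prelude's global model space, of the coordinate
elements of the vertices of depth `≤ n`. It is isomorphic to a Hilbert space: the coordinate map
`Φ ξ = (coordFn s ξ)_s` sends `Gsub n` into `ℓ²(List ℕ)` with
`‖ξ‖ ≤ ‖Φ ξ‖₂ ≤ (n+1) ‖ξ‖`
(upper bound: the test `a / ((n+1) ‖a‖₂)` built from finitely many coordinates `a` of `ξ` of depth
`≤ n`, whose potentials are sums of at most `n+1` entries of size `≤ 1/(n+1)`; lower bound: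
Cauchy–Schwarz, tests of the global model have `ℓ²`-norm `≤ 1`). Hence `Φ` is a continuous linear
equivalence of `Gsub n` onto a closed subspace of a Hilbert space and `Gsub n` is reflexive.
-/

set_option autoImplicit false

namespace Crest.Agent.S0166

open Crest.AnalysisR Crest.AnalysisR.TreePotential Crest.Agent.S0168 NormedSpace

/-- The closed span of the coordinates of depth at most `n` in the global model space. -/
noncomputable def Gsub (n : ℕ) : Submodule ℝ (modelSpace PotentialModel.global) :=
  (Submodule.span ℝ {z | ∃ s : List ℕ, s.length ≤ n ∧ z = coordE PotentialModel.global s}).topologicalClosure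

theorem isClosed_Gsub (n : ℕ) : IsClosed (Gsub n : Set (modelSpace PotentialModel.global)) :=
  Submodule.isClosed_topologicalClosure _

noncomputable instance instCompleteSpaceGsub (n : ℕ) : CompleteSpace (Gsub n) :=
  (isClosed_Gsub n).completeSpace_coe

theorem coordE_mem_Gsub (n : ℕ) (s : List ℕ) (hs : s.length ≤ n) :
    coordE PotentialModel.global s ∈ Gsub n :=
  Submodule.le_topologicalClosure _ (Submodule.subset_span ⟨s, hs, rfl⟩)

theorem branchSum_mem_Gsub (n : ℕ) (v : List ℕ) (hv : v.length ≤ n) :
    branchSum PotentialModel.global v ∈ Gsub n := by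
  induction v with
  | nil => exact coordE_mem_Gsub n [] (by simp)
  | cons a v ih =>
    have hv' : v.length ≤ n := by
      simp only [List.length_cons] at hv
      omega
    exact (Gsub n).add_mem (ih hv') (coordE_mem_Gsub n (a :: v) hv)

/-! ### Coordinates of elements of `Gsub n` -/

theorem summand_coordFn_self (s : List ℕ) :
    coordFn PotentialModel.global s (coordE PotentialModel.global s) = 1 := by
  rw [coordFn_coordE, if_pos rfl, if_pos (Or.inr (by simp))]

theorem summand_coordFn_ne (s u : List ℕ) (h : u ≠ s) :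
    coordFn PotentialModel.global s (coordE PotentialModel.global u) = 0 := by
  rw [coordFn_coordE, if_neg h]

theorem summand_coordFn_eq_zero (n : ℕ) (s : List ℕ) (hs : n < s.length)
    {ξ : modelSpace PotentialModel.global} (hξ : ξ ∈ Gsub n) :
    coordFn PotentialModel.global s ξ = 0 := by
  have hle : Gsub n ≤ LinearMap.ker (coordFn PotentialModel.global s).toLinearMap := by
    apply Submodule.topologicalClosure_minimal
    · rw [Submodule.span_le]
      rintro _ ⟨u, hu, rfl⟩
      have hne : u ≠ s := by
        rintro rfl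
        omega
      exact summand_coordFn_ne s u hne
    · exact (coordFn PotentialModel.global s).isClosed_ker
  exact hle hξ

/-- Potentials of a family vanishing below depth `n` and bounded by `M` are bounded by
`(n+1) M`. -/
theorem summand_abs_pathPotential_le (n : ℕ) (M : ℝ) (f : List ℕ → ℝ)
    (hf : ∀ s, |f s| ≤ M) (hf0 : ∀ s : List ℕ, n < s.length → f s = 0) (v : List ℕ) :
    |pathPotential f v| ≤ (((min v.length n : ℕ) : ℝ) + 1) * M := by
  have hM : 0 ≤ M := (abs_nonneg _).trans (hf [])
  induction v with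
  | nil =>
    simp only [pathPotential, List.length_nil, Nat.zero_min, Nat.cast_zero, zero_add, one_mul]
    exact hf []
  | cons a v ih =>
    simp only [pathPotential]
    by_cases h : (a :: v).length ≤ n
    · have h1 : min (a :: v).length n = min v.length n + 1 := by
        simp only [List.length_cons] at h ⊢
        omega
      rw [h1, Nat.cast_add, Nat.cast_one]
      calc |pathPotential f v + f (a :: v)| ≤ |pathPotential f v| + |f (a :: v)| := abs_add_le _ _
        _ ≤ (((min v.length n : ℕ) : ℝ) + 1) * M + M := add_le_add ih (hf _)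
        _ = (((min v.length n : ℕ) : ℝ) + 1 + 1) * M := by ring
    · have h0 : f (a :: v) = 0 := hf0 _ (by omega)
      have h1 : min (a :: v).length n = n := by
        simp only [List.length_cons] at h ⊢
        omega
      rw [h0, add_zero, h1]
      refine ih.trans ?_
      have h2 : ((min v.length n : ℕ) : ℝ) ≤ (n : ℝ) := by exact_mod_cast min_le_right _ _
      exact mul_le_mul_of_nonneg_right (by linarith) hM

/-- Upper `ℓ²` bound for the coordinates of an element of `Gsub n`. -/
theorem summand_sum_sq_le (n : ℕ) (ξ : modelSpace PotentialModel.global) (hξ : ξ ∈ Gsub n)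
    (A : Finset (List ℕ)) :
    ∑ s ∈ A, (coordFn PotentialModel.global s ξ) ^ 2 ≤ (((n : ℝ) + 1) * ‖ξ‖) ^ 2 := by
  classical
  set a : List ℕ → ℝ := fun s => coordFn PotentialModel.global s ξ with ha
  set A' : Finset (List ℕ) := A.filter (fun s => s.length ≤ n) with hA'
  have hsum : ∑ s ∈ A, a s ^ 2 = ∑ s ∈ A', a s ^ 2 := by
    rw [hA', Finset.sum_filter]
    apply Finset.sum_congr rfl
    intro s _
    split_ifs with h
    · rfl
    · have : a s = 0 := summand_coordFn_eq_zero n s (by omega) hξ
      rw [this]
      norm_num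
  show ∑ s ∈ A, a s ^ 2 ≤ _
  rw [hsum]
  set N2 : ℝ := ∑ s ∈ A', a s ^ 2 with hN2
  have hN2nn : 0 ≤ N2 := Finset.sum_nonneg (fun s _ => sq_nonneg _)
  by_cases hN0 : N2 = 0
  · rw [hN0]
    positivity
  have hN2pos : 0 < N2 := lt_of_le_of_ne hN2nn (Ne.symm hN0)
  set N : ℝ := Real.sqrt N2 with hN
  have hNpos : 0 < N := Real.sqrt_pos.mpr hN2pos
  have hNsq : N ^ 2 = N2 := Real.sq_sqrt hN2nn
  have hn1 : (0 : ℝ) < (n : ℝ) + 1 := by positivity
  have hD : (0 : ℝ) < ((n : ℝ) + 1) * N := by positivity
  -- the test
  set f : List ℕ → ℝ := fun s => if s ∈ A' then a s / (((n : ℝ) + 1) * N) else 0 with hf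
  have hfA : ∀ s ∈ A', f s = a s / (((n : ℝ) + 1) * N) := fun s hs => by
    simp only [hf, if_pos hs]
  have hfnA : ∀ s, s ∉ A' → f s = 0 := fun s hs => by
    simp only [hf, if_neg hs]
  have haN : ∀ s ∈ A', |a s| ≤ N := by
    intro s hs
    have h1 : a s ^ 2 ≤ N2 :=
      Finset.single_le_sum (f := fun s => a s ^ 2) (fun i _ => sq_nonneg _) hs
    rw [← hNsq] at h1
    exact abs_le_of_sq_le_sq h1 hNpos.le
  have hfabs : ∀ s, |f s| ≤ 1 / ((n : ℝ) + 1) := by
    intro s
    by_cases hs : s ∈ A'
    · rw [hfA s hs, abs_div, abs_of_pos hD, div_le_div_iff₀ hD hn1]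
      have := haN s hs
      nlinarith
    · rw [hfnA s hs, abs_zero]
      positivity
  have hf0 : ∀ s : List ℕ, n < s.length → f s = 0 := by
    intro s hs
    apply hfnA
    intro hmem
    have := (Finset.mem_filter.mp hmem).2
    omega
  have hpot : ∀ v, |pathPotential f v| ≤ 1 := by
    intro v
    refine (summand_abs_pathPotential_le n (1 / ((n : ℝ) + 1)) f hfabs hf0 v).trans ?_
    rw [mul_one_div, div_le_one hn1]
    have h2 : ((min v.length n : ℕ) : ℝ) ≤ (n : ℝ) := by exact_mod_cast min_le_right _ _
    linarith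
  have hsqA : ∑ u ∈ A', f u ^ 2 = 1 / ((n : ℝ) + 1) ^ 2 := by
    have h1 : ∑ u ∈ A', f u ^ 2 = ∑ u ∈ A', a u ^ 2 / ((((n : ℝ) + 1) * N) ^ 2) := by
      apply Finset.sum_congr rfl
      intro u hu
      rw [hfA u hu, div_pow]
    rw [h1, ← Finset.sum_div, ← hN2, mul_pow, hNsq]
    field_simp
  have hsq : ∀ B : Finset (List ℕ), ∑ u ∈ B, f u ^ 2 ≤ 1 := by
    intro B
    have h1 : ∑ u ∈ B, f u ^ 2 = ∑ u ∈ B.filter (fun u => u ∈ A'), f u ^ 2 := by
      rw [Finset.sum_filter]
      apply Finset.sum_congr rfl
      intro u _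
      split_ifs with h
      · rfl
      · rw [hfnA u h]
        norm_num
    have h2 : ∑ u ∈ B.filter (fun u => u ∈ A'), f u ^ 2 ≤ ∑ u ∈ A', f u ^ 2 :=
      Finset.sum_le_sum_of_subset_of_nonneg
        (fun u hu => (Finset.mem_filter.mp hu).2) (fun i _ _ => sq_nonneg _)
    rw [h1]
    refine h2.trans ?_
    rw [hsqA, div_le_one (by positivity)]
    nlinarith
  have htest : IsTest PotentialModel.global f := ⟨hpot, hsq⟩
  have hev : evalM PotentialModel.global ⟨f, htest⟩
      = ∑ s ∈ A', f s • coordFn PotentialModel.global s := by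
    apply clm_ext_coordE
    intro u
    rw [evalM_coordE, sum_apply]
    by_cases hu : u ∈ A'
    · rw [Finset.sum_eq_single u]
      · rw [smul_apply, summand_coordFn_self, smul_eq_mul, mul_one]
      · intro s _ hsu
        rw [smul_apply, summand_coordFn_ne s u (Ne.symm hsu), smul_zero]
      · intro h
        exact absurd hu h
    · rw [Finset.sum_eq_zero]
      · exact hfnA u hu
      · intro s hs
        have hsu : u ≠ s := by
          rintro rfl
          exact hu hs
        rw [smul_apply, summand_coordFn_ne s u hsu, smul_zero]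
  have hval : evalM PotentialModel.global ⟨f, htest⟩ ξ = N / ((n : ℝ) + 1) := by
    rw [hev, sum_apply]
    have h1 : ∑ s ∈ A', (f s • coordFn PotentialModel.global s) ξ
        = ∑ s ∈ A', a s ^ 2 / (((n : ℝ) + 1) * N) := by
      apply Finset.sum_congr rfl
      intro s hs
      rw [smul_apply, hfA s hs, smul_eq_mul]
      show a s / (((n : ℝ) + 1) * N) * a s = _
      ring
    rw [h1, ← Finset.sum_div, ← hN2, ← hNsq]
    field_simp
  have hle : N / ((n : ℝ) + 1) ≤ ‖ξ‖ := by
    rw [← hval]
    exact evalM_le_norm _ ξ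
  have hN_le : N ≤ ((n : ℝ) + 1) * ‖ξ‖ := by
    rw [div_le_iff₀ hn1] at hle
    linarith
  rw [← hNsq]
  exact pow_le_pow_left₀ hNpos.le hN_le 2

/-! ### The coordinate map into `ℓ²` -/

/-- The coordinates of an element of `Gsub n`, as an element of `ℓ²`. -/
noncomputable def summand_PhiFun (n : ℕ) (ξ : Gsub n) : lp (fun _ : List ℕ => ℝ) 2 :=
  ⟨fun s => coordFn PotentialModel.global s (ξ : modelSpace PotentialModel.global),
    memℓp_gen' (C := (((n : ℝ) + 1) * ‖(ξ : modelSpace PotentialModel.global)‖) ^ 2) (fun A => by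
      have h := summand_sum_sq_le n (ξ : modelSpace PotentialModel.global) ξ.2 A
      have h2 : (2 : ENNReal).toReal = 2 := by simp
      rw [h2]
      simpa [Real.rpow_two, Real.norm_eq_abs, sq_abs] using h)⟩

theorem summand_PhiFun_apply (n : ℕ) (ξ : Gsub n) (s : List ℕ) :
    (summand_PhiFun n ξ : List ℕ → ℝ) s
      = coordFn PotentialModel.global s (ξ : modelSpace PotentialModel.global) := rfl

theorem summand_norm_PhiFun_le (n : ℕ) (ξ : Gsub n) :
    ‖summand_PhiFun n ξ‖ ≤ ((n : ℝ) + 1) * ‖ξ‖ := by
  have h2 : (2 : ENNReal).toReal = 2 := by simp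
  apply lp.norm_le_of_forall_sum_le (by rw [h2]; norm_num) (by positivity)
  intro A
  have h := summand_sum_sq_le n (ξ : modelSpace PotentialModel.global) ξ.2 A
  rw [h2]
  simpa [Real.rpow_two, Real.norm_eq_abs, sq_abs, summand_PhiFun_apply] using h

/-- The coordinate map `Gsub n → ℓ²` as a continuous linear map. -/
noncomputable def summand_Phi (n : ℕ) : Gsub n →L[ℝ] lp (fun _ : List ℕ => ℝ) 2 :=
  LinearMap.mkContinuous
    { toFun := summand_PhiFun n
      map_add' := fun x y => by
        ext s
        simp [summand_PhiFun_apply]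
      map_smul' := fun c x => by
        ext s
        simp [summand_PhiFun_apply] }
    ((n : ℝ) + 1) (fun ξ => summand_norm_PhiFun_le n ξ)

theorem summand_Phi_apply (n : ℕ) (ξ : Gsub n) (s : List ℕ) :
    (summand_Phi n ξ : List ℕ → ℝ) s
      = coordFn PotentialModel.global s (ξ : modelSpace PotentialModel.global) := rfl

/-- The coordinates of depth `≤ n` span a dense subspace of `Gsub n`. -/
theorem summand_dense (n : ℕ) :
    Dense (Submodule.span ℝ {z : Gsub n | ∃ s : List ℕ, s.length ≤ n ∧
      (z : modelSpace PotentialModel.global) = coordE PotentialModel.global s} : Set (Gsub n)) := by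
  intro ξ
  rw [closure_subtype]
  have himg : (Gsub n).subtype '' {z : Gsub n | ∃ s : List ℕ, s.length ≤ n ∧
      (z : modelSpace PotentialModel.global) = coordE PotentialModel.global s}
      = {z | ∃ s : List ℕ, s.length ≤ n ∧ z = coordE PotentialModel.global s} := by
    ext z
    constructor
    · rintro ⟨z', ⟨s, hs, hz'⟩, rfl⟩
      exact ⟨s, hs, hz'⟩
    · rintro ⟨s, hs, rfl⟩
      exact ⟨⟨coordE PotentialModel.global s, coordE_mem_Gsub n s hs⟩, ⟨s, hs, rfl⟩, rfl⟩
  have h1 : (Subtype.val '' (Submodule.span ℝ {z : Gsub n | ∃ s : List ℕ, s.length ≤ n ∧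
      (z : modelSpace PotentialModel.global) = coordE PotentialModel.global s} : Set (Gsub n)))
      = (Submodule.span ℝ {z | ∃ s : List ℕ, s.length ≤ n ∧
          z = coordE PotentialModel.global s} : Set (modelSpace PotentialModel.global)) := by
    rw [← himg, ← Submodule.map_span]
    rfl
  rw [h1]
  exact ξ.2

/-- Lower bound: the coordinate map does not decrease norms. -/
theorem summand_norm_le (n : ℕ) (ξ : Gsub n) : ‖ξ‖ ≤ ‖summand_Phi n ξ‖ := by
  apply le_of_forall_pos_lt_add
  intro ε hε
  obtain ⟨F, hF⟩ := exists_evalM_gt (ξ : modelSpace PotentialModel.global) ε hε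
  have h2 : (2 : ENNReal).toReal = 2 := by simp
  have hFsq : ∀ A : Finset (List ℕ), ∑ u ∈ A, F.1 u ^ 2 ≤ 1 := F.2.2
  have hmem : Memℓp (fun s : List ℕ => F.1 s) 2 :=
    memℓp_gen' (C := 1) (fun A => by
      rw [h2]
      simpa [Real.rpow_two, Real.norm_eq_abs, sq_abs] using hFsq A)
  set G : lp (fun _ : List ℕ => ℝ) 2 := ⟨fun s => F.1 s, hmem⟩ with hG
  have hGnorm : ‖G‖ ≤ 1 := by
    apply lp.norm_le_of_forall_sum_le (by rw [h2]; norm_num) zero_le_one
    intro A
    rw [h2]
    simpa [Real.rpow_two, Real.norm_eq_abs, sq_abs, hG] using hFsq A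
  have hEq : (evalM PotentialModel.global F).comp (Gsub n).subtypeL
      = (innerSL ℝ G).comp (summand_Phi n) := by
    apply ContinuousLinearMap.ext_on (summand_dense n)
    rintro z ⟨s, hs, hz⟩
    show evalM PotentialModel.global F (z : modelSpace PotentialModel.global)
      = inner ℝ G (summand_Phi n z)
    rw [hz, evalM_coordE, lp.inner_eq_tsum, tsum_eq_single s]
    · rw [summand_Phi_apply, hz, summand_coordFn_self]
      simp [hG]
    · intro u hu
      rw [summand_Phi_apply, hz, summand_coordFn_ne u s (Ne.symm hu)]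
      simp
  have hval : evalM PotentialModel.global F (ξ : modelSpace PotentialModel.global)
      = inner ℝ G (summand_Phi n ξ) := by
    have := congrArg (fun L : Gsub n →L[ℝ] ℝ => L ξ) hEq
    exact this
  have hle : evalM PotentialModel.global F (ξ : modelSpace PotentialModel.global)
      ≤ ‖summand_Phi n ξ‖ := by
    rw [hval]
    calc inner ℝ G (summand_Phi n ξ) ≤ ‖G‖ * ‖summand_Phi n ξ‖ := real_inner_le_norm _ _
      _ ≤ 1 * ‖summand_Phi n ξ‖ := mul_le_mul_of_nonneg_right hGnorm (norm_nonneg _)
      _ = ‖summand_Phi n ξ‖ := one_mul _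
  have hnorm : ‖ξ‖ = ‖(ξ : modelSpace PotentialModel.global)‖ := rfl
  linarith

/-- `Gsub n` is reflexive (it is isomorphic to a Hilbert space). -/
theorem Gsub_reflexive (n : ℕ) :
    Function.Surjective (inclusionInDoubleDual ℝ (Gsub n)) := by
  have hanti : AntilipschitzWith 1 (summand_Phi n) :=
    AddMonoidHomClass.antilipschitz_of_bound (summand_Phi n) (fun ξ => by
      rw [NNReal.coe_one, one_mul]
      exact summand_norm_le n ξ)
  have hinj : Function.Injective (summand_Phi n) := hanti.injective
  have hclo : IsClosed (Set.range (summand_Phi n)) :=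
    hanti.isClosed_range (summand_Phi n).uniformContinuous
  have hcomp : CompleteSpace (summand_Phi n).range := hclo.completeSpace_coe
  -- fix the instance path on `Gsub n` (a submodule of a submodule) for the two lemmas below
  let instNG : NormedAddCommGroup (Gsub n) := Submodule.normedAddCommGroup (Gsub n)
  let instNS : NormedSpace ℝ (Gsub n) := Submodule.normedSpace (Gsub n)
  have e : Gsub n ≃L[ℝ] (summand_Phi n).range :=
    ContinuousLinearMap.equivRange (f := summand_Phi n) hinj hclo
  have hH : Function.Surjective (inclusionInDoubleDual ℝ (summand_Phi n).range) :=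
    reflexive_of_hilbert _
  exact reflexive_of_equiv e hH

theorem separable_Gsub (n : ℕ) : TopologicalSpace.SeparableSpace (Gsub n) := by
  have h1 := separable_modelSpace PotentialModel.global
  have h2 : SecondCountableTopology (modelSpace PotentialModel.global) :=
    UniformSpace.secondCountable_of_separable _
  infer_instance

end Crest.Agent.S0166
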