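import Crest.Agent.S0166.Cof

/-!
# Row 125: the tree lemma and the passage from the far inequality to the moduli

* `no_auc_of_tree`: the tree lemma. Proof: let `a ‖·‖ ≤ N ≤ b ‖·‖`, `t₀ = a θ / (2 b K)`,
  `c₀` the AUC constant of `N` at `t₀`. For a node `z` (`P z (j+1)`) let `F` be the subspace
  given by AUC for `x = z / N z`; pick a child `z'` and `y ∈ F` with `‖z' - z - y‖ < ε`,
  `ε` small. Then `N y ≥ a θ / 2 ≥ t₀ N z`, and by convexity of `s ↦ N (x + s ŷ)`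
  (`ŷ = y / N y`; value `1` at `0`, `≥ 1 + c₀` at `t₀`) we get `N (z + y) ≥ (1 + c₀) N z`, hence
  `N z' ≥ (1 + c₀/2) N z`. Starting from a node of height `m`: `b K ≥ (1 + c₀/2)^m a θ₀` for all
  `m`, absurd.
* `not_finiteDimensional_of_no_auc`: in finite dimension `F = {0}` is closed of finite
  codimension and contains no unit vector, so the norm itself is AUC.
* `midGE_of_far`, `maxMidGE_of_far`: apply the far inequality to `x` (unit) and `t • y`.
-/

set_option autoImplicit false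

namespace Crest.Agent.S0166

variable {V : Type*} [NormedAddCommGroup V] [NormedSpace ℝ V]

/-- Convexity of `s ↦ N (x + s • y)` along a ray: the excess over `N x = 1` at `t` is at most
the excess at any `s ≥ t`. -/
theorem tree_aux_convex (N : V → ℝ)
    (hsub : ∀ x y : V, N (x + y) ≤ N x + N y)
    (hhom : ∀ (a : ℝ) (x : V), N (a • x) = |a| * N x)
    (x y : V) (hx : N x = 1) (t s c : ℝ) (ht : 0 < t) (hts : t ≤ s) (hc : 0 ≤ c)
    (h : c ≤ N (x + t • y) - 1) : c ≤ N (x + s • y) - 1 := by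
  have hs : 0 < s := lt_of_lt_of_le ht hts
  set l : ℝ := t / s with hl
  have hl0 : 0 < l := div_pos ht hs
  have hl1 : l ≤ 1 := (div_le_one hs).mpr hts
  have hls : l * s = t := by rw [hl]; field_simp
  have key : x + t • y = (1 - l) • x + l • (x + s • y) := by
    rw [smul_add, smul_smul, hls, sub_smul, one_smul]; abel
  have h1 : N (x + t • y) ≤ (1 - l) + l * N (x + s • y) := by
    rw [key]
    refine (hsub _ _).trans ?_
    rw [hhom, hhom, hx, abs_of_nonneg (by linarith : (0:ℝ) ≤ 1 - l), abs_of_pos hl0]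
    simp
  have h2 : c ≤ l * (N (x + s • y) - 1) := by linarith
  have h3 : 0 ≤ N (x + s • y) - 1 := by
    by_contra hneg
    have : l * (N (x + s • y) - 1) < 0 := mul_neg_of_pos_of_neg hl0 (not_le.mp hneg)
    linarith
  have h4 : l * (N (x + s • y) - 1) ≤ 1 * (N (x + s • y) - 1) :=
    mul_le_mul_of_nonneg_right hl1 h3
  linarith

/-- One normalised step: if the AUC estimate holds for `z / N z` in the direction `y / N y`
at `t`, and `t * N z ≤ N y`, then `N (z + y) ≥ (1 + c) N z`. -/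
theorem tree_aux_step (N : V → ℝ)
    (hsub : ∀ x y : V, N (x + y) ≤ N x + N y)
    (hhom : ∀ (a : ℝ) (x : V), N (a • x) = |a| * N x)
    (z y : V) (hz : 0 < N z) (hy : 0 < N y) (t c : ℝ) (ht : 0 < t) (hc : 0 ≤ c)
    (hty : t * N z ≤ N y)
    (h : c ≤ N ((N z)⁻¹ • z + t • ((N y)⁻¹ • y)) - 1) :
    (1 + c) * N z ≤ N (z + y) := by
  have hx : N ((N z)⁻¹ • z) = 1 := by
    rw [hhom, abs_of_pos (inv_pos.mpr hz)]; field_simp
  have hts : t ≤ N y / N z := by rw [le_div_iff₀ hz]; exact hty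
  have h1 := tree_aux_convex N hsub hhom _ _ hx t (N y / N z) c ht hts hc h
  have key : (N z)⁻¹ • z + (N y / N z) • ((N y)⁻¹ • y) = (N z)⁻¹ • (z + y) := by
    rw [smul_smul, smul_add]
    congr 2
    field_simp
  rw [key, hhom, abs_of_pos (inv_pos.mpr hz)] at h1
  have h2 : (1 + c) ≤ (N z)⁻¹ * N (z + y) := by linarith
  calc (1 + c) * N z ≤ ((N z)⁻¹ * N (z + y)) * N z := mul_le_mul_of_nonneg_right h2 hz.le
    _ = N (z + y) := by field_simp

/-- **Tree lemma.** If for every `m` there is a "tree of height `m`" of vectors of norm in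
`[θ₀, K]`, each node having, for every closed finite-codimensional `F` and `ε > 0`, a child at
distance `≥ θ` whose difference from the node is `ε`-close to `F`, then no equivalent norm is
asymptotically uniformly convex. -/
theorem no_auc_of_tree (P : V → ℕ → Prop) (θ₀ K θ : ℝ) (hθ₀ : 0 < θ₀) (hθ : 0 < θ)
    (hP0 : ∀ m, ∃ z, P z m) (hPn : ∀ z j, P z j → θ₀ ≤ ‖z‖ ∧ ‖z‖ ≤ K)
    (hstep : ∀ z j, P z (j + 1) → ∀ F : Submodule ℝ V, IsClosed (F : Set V) →
      FiniteDimensional ℝ (V ⧸ F) → ∀ ε : ℝ, 0 < ε →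
        ∃ z' y, P z' j ∧ y ∈ F ∧ θ ≤ ‖z' - z‖ ∧ ‖z' - z - y‖ < ε)
    (N : V → ℝ) (hN : EquivNorm N) : ¬ AUCNorm N := by
  intro hauc
  obtain ⟨hsub, hhom, a, b, ha, hab⟩ := hN
  obtain ⟨z₀, hz₀⟩ := hP0 0
  have hK : θ₀ ≤ K := (hPn z₀ 0 hz₀).1.trans (hPn z₀ 0 hz₀).2
  have hK0 : 0 < K := lt_of_lt_of_le hθ₀ hK
  have hz₀n : 0 < ‖z₀‖ := lt_of_lt_of_le hθ₀ (hPn z₀ 0 hz₀).1
  have hb : 0 < b := by
    have h1 := (hab z₀).1.trans (hab z₀).2
    have : a ≤ b := le_of_mul_le_mul_right h1 hz₀n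
    linarith
  have hneg : ∀ w : V, N (-w) = N w := by
    intro w
    have := hhom (-1) w
    simpa using this
  set t₀ : ℝ := a * θ / (2 * b * K) with ht₀
  have ht₀pos : 0 < t₀ := by positivity
  obtain ⟨c₀, hc₀, hA⟩ := hauc t₀ ht₀pos
  -- one step
  have step : ∀ z j, P z (j + 1) → ∃ z', P z' j ∧ (1 + c₀ / 2) * N z ≤ N z' := by
    intro z j hz
    obtain ⟨hz1, hz2⟩ := hPn z _ hz
    have hNz : a * θ₀ ≤ N z := (mul_le_mul_of_nonneg_left hz1 ha.le).trans (hab z).1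
    have hNz0 : 0 < N z := lt_of_lt_of_le (by positivity) hNz
    have hNzK : N z ≤ b * K := (hab z).2.trans (mul_le_mul_of_nonneg_left hz2 hb.le)
    have hx : N ((N z)⁻¹ • z) = 1 := by
      rw [hhom, abs_of_pos (inv_pos.mpr hNz0)]; field_simp
    obtain ⟨F, ⟨S, hSF, hFc, hFd⟩, hF⟩ := hA _ hx
    set ε : ℝ := min (θ / 2) (c₀ * a * θ₀ / (2 * b)) with hε
    have hεpos : 0 < ε := lt_min (by positivity) (by positivity)
    have hSc : IsClosed (S : Set V) := by rw [hSF]; exact hFc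
    obtain ⟨z', y, hz', hyS, hθz, hyε⟩ := hstep z j hz S hSc hFd ε hεpos
    refine ⟨z', hz', ?_⟩
    have hynorm : θ / 2 ≤ ‖y‖ := by
      have h1 : ‖z' - z‖ ≤ ‖z' - z - y‖ + ‖y‖ := by
        have := norm_add_le (z' - z - y) y
        simpa using this
      have h2 : ε ≤ θ / 2 := min_le_left _ _
      linarith
    have hNy : a * θ / 2 ≤ N y := by
      have := (hab y).1
      have h3 : a * (θ / 2) ≤ a * ‖y‖ := mul_le_mul_of_nonneg_left hynorm ha.le
      linarith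
    have hNy0 : 0 < N y := lt_of_lt_of_le (by positivity) hNy
    have hty : t₀ * N z ≤ N y := by
      have h4 : t₀ * N z ≤ t₀ * (b * K) := mul_le_mul_of_nonneg_left hNzK ht₀pos.le
      have h5 : t₀ * (b * K) = a * θ / 2 := by rw [ht₀]; field_simp
      linarith
    have hyF : (N y)⁻¹ • y ∈ F := by
      rw [← hSF]; exact S.smul_mem _ hyS
    have hNyhat : N ((N y)⁻¹ • y) = 1 := by
      rw [hhom, abs_of_pos (inv_pos.mpr hNy0)]; field_simp
    have hmain := tree_aux_step N hsub hhom z y hNz0 hNy0 t₀ c₀ ht₀pos hc₀.le hty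
      (hF _ hyF hNyhat)
    have h6 : N (z + y) ≤ N z' + N (z' - z - y) := by
      have h7 := hsub z' (z + y - z')
      have h8 : z' + (z + y - z') = z + y := by abel
      have h9 : z + y - z' = -(z' - z - y) := by abel
      rw [h8, h9, hneg] at h7
      exact h7
    have h10 : N (z' - z - y) ≤ c₀ / 2 * N z := by
      have h11 : N (z' - z - y) ≤ b * ε :=
        (hab _).2.trans (mul_le_mul_of_nonneg_left hyε.le hb.le)
      have h12 : b * ε ≤ b * (c₀ * a * θ₀ / (2 * b)) :=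
        mul_le_mul_of_nonneg_left (min_le_right _ _) hb.le
      have h13 : b * (c₀ * a * θ₀ / (2 * b)) = c₀ / 2 * (a * θ₀) := by field_simp
      have h14 : c₀ / 2 * (a * θ₀) ≤ c₀ / 2 * N z :=
        mul_le_mul_of_nonneg_left hNz (by positivity)
      linarith
    linarith
  -- iterate
  have iter : ∀ m z, P z m → ∃ z', P z' 0 ∧ (1 + c₀ / 2) ^ m * N z ≤ N z' := by
    intro m
    induction m with
    | zero => intro z hz; exact ⟨z, hz, by simp⟩
    | succ m ih =>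
      intro z hz
      obtain ⟨z₁, hz₁, h1⟩ := step z m hz
      obtain ⟨z₂, hz₂, h2⟩ := ih z₁ hz₁
      refine ⟨z₂, hz₂, le_trans ?_ h2⟩
      rw [pow_succ, mul_assoc]
      exact mul_le_mul_of_nonneg_left h1 (by positivity)
  -- contradiction
  have hbound : ∀ m : ℕ, (1 + c₀ / 2) ^ m * (a * θ₀) ≤ b * K := by
    intro m
    obtain ⟨z, hz⟩ := hP0 m
    obtain ⟨z', hz', h1⟩ := iter m z hz
    have h2 : a * θ₀ ≤ N z :=
      (mul_le_mul_of_nonneg_left (hPn z m hz).1 ha.le).trans (hab z).1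
    have h3 : N z' ≤ b * K :=
      (hab z').2.trans (mul_le_mul_of_nonneg_left (hPn z' 0 hz').2 hb.le)
    have h4 : (1 + c₀ / 2) ^ m * (a * θ₀) ≤ (1 + c₀ / 2) ^ m * N z :=
      mul_le_mul_of_nonneg_left h2 (by positivity)
    linarith
  have hgrow : Filter.Tendsto (fun m : ℕ => (1 + c₀ / 2) ^ m) Filter.atTop Filter.atTop :=
    tendsto_pow_atTop_atTop_of_one_lt (by linarith)
  obtain ⟨m, hm⟩ := (hgrow.eventually (Filter.eventually_gt_atTop (b * K / (a * θ₀)))).exists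
  have h5 := hbound m
  have h6 : b * K / (a * θ₀) * (a * θ₀) = b * K := by field_simp
  have h7 : b * K / (a * θ₀) * (a * θ₀) < (1 + c₀ / 2) ^ m * (a * θ₀) :=
    mul_lt_mul_of_pos_right hm (by positivity)
  linarith

/-- In a finite-dimensional space the norm itself is (vacuously) AUC; hence a space without
equivalent AUC norm is infinite-dimensional. -/
theorem not_finiteDimensional_of_no_auc
    (h : ∀ N : V → ℝ, EquivNorm N → ¬ AUCNorm N) : ¬ FiniteDimensional ℝ V := by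
  intro hfd
  refine h (fun x => ‖x‖)
    ⟨norm_add_le, fun a x => by simp [norm_smul], 1, 1, one_pos, fun x => by simp⟩ ?_
  intro t ht
  refine ⟨1, one_pos, fun x hx => ⟨((⊥ : Submodule ℝ V) : Set V), ⟨⊥, rfl, ?_, ?_⟩, ?_⟩⟩
  · rw [Submodule.bot_coe]; exact isClosed_singleton
  · infer_instance
  · intro y hy hy1
    have hy0 : y = 0 := by simpa using hy
    simp [hy0] at hy1

/-- From the homogeneous "far" midpoint inequality to the averaged midpoint modulus. -/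
theorem midGE_of_far
    (h : ∀ x : V, ∀ η : ℝ, 0 < η → ∃ F : Submodule ℝ V, IsClosed (F : Set V) ∧
      FiniteDimensional ℝ (V ⧸ F) ∧
        ∀ y ∈ F, Real.sqrt (4 * ‖x‖ ^ 2 + ‖y‖ ^ 2) - η ≤ ‖x + y‖ + ‖x - y‖)
    (t c : ℝ) (ht : 0 < t) (hc : c ≤ Real.sqrt (1 + t ^ 2 / 4) - 1) :
    MidGE (fun x : V => ‖x‖) t c := by
  intro x hx η hη
  obtain ⟨F, hFc, hFd, hF⟩ := h x η hη
  refine ⟨F, ⟨F, rfl, hFc, hFd⟩, fun y hy hy1 => ?_⟩
  have h1 := hF (t • y) (F.smul_mem t hy)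
  simp only at hx hy1 ⊢
  rw [hx, norm_smul, hy1, Real.norm_of_nonneg ht.le] at h1
  have h2 : Real.sqrt (4 * 1 ^ 2 + (t * 1) ^ 2) = 2 * Real.sqrt (1 + t ^ 2 / 4) := by
    have h3 : 4 * (1:ℝ) ^ 2 + (t * 1) ^ 2 = 2 ^ 2 * (1 + t ^ 2 / 4) := by ring
    rw [h3, Real.sqrt_mul (by positivity), Real.sqrt_sq (by norm_num)]
  rw [h2] at h1
  linarith

/-- From the homogeneous "far" midpoint inequality to the maximum-based midpoint modulus. -/
theorem maxMidGE_of_far
    (h : ∀ x : V, ∀ η : ℝ, 0 < η → ∃ F : Submodule ℝ V, IsClosed (F : Set V) ∧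
      FiniteDimensional ℝ (V ⧸ F) ∧
        ∀ y ∈ F, Real.sqrt (4 * ‖x‖ ^ 2 + ‖y‖ ^ 2) - η ≤ ‖x + y‖ + ‖x - y‖)
    (t c : ℝ) (ht : 0 < t) (hc : c ≤ Real.sqrt (1 + t ^ 2 / 4) - 1) :
    MaxMidGE (fun x : V => ‖x‖) t c := by
  intro x hx η hη
  obtain ⟨F, hFc, hFd, hF⟩ := h x η hη
  refine ⟨F, ⟨F, rfl, hFc, hFd⟩, fun y hy hy1 => ?_⟩
  have h1 := hF (t • y) (F.smul_mem t hy)
  simp only at hx hy1 ⊢
  rw [hx, norm_smul, hy1, Real.norm_of_nonneg ht.le] at h1
  have h2 : Real.sqrt (4 * 1 ^ 2 + (t * 1) ^ 2) = 2 * Real.sqrt (1 + t ^ 2 / 4) := by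
    have h3 : 4 * (1:ℝ) ^ 2 + (t * 1) ^ 2 = 2 ^ 2 * (1 + t ^ 2 / 4) := by ring
    rw [h3, Real.sqrt_mul (by positivity), Real.sqrt_sq (by norm_num)]
  rw [h2] at h1
  have h4 := le_max_left ‖x + t • y‖ ‖x - t • y‖
  have h5 := le_max_right ‖x + t • y‖ ‖x - t • y‖
  linarith

end Crest.Agent.S0166
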